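import Mathlib

/-! The rule systems, their cells, variables and linear forms. -/

namespace Vale.Agent.P310

open Classical Finset

noncomputable section

abbrev F := ZMod 2

theorem F01 : ∀ a : F, a = 0 ∨ a = 1 := by decide
theorem F_ne0 {a : F} (h : a ≠ 0) : a = 1 := (F01 a).resolve_left h
theorem F_add_eq0 : ∀ {a b : F}, a + b = 0 ↔ a = b := by decide
theorem F_add_self (a : F) : a + a = 0 := CharTwo.add_self_eq_zero a

structure Sys (R P G D : Type) where
  head : R → Option P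
  src : R → Fin 4 → Option P
  src01 : ∀ ρ, src ρ 0 = src ρ 1
  src23 : ∀ ρ, src ρ 2 = src ρ 3
  sh : R → G → Equiv.Perm D
  guard : R → G → D → Prop
  K : ℕ
  gam : ℕ → G
  d0 : D
  hK : 2 ≤ K
  two : ∀ m, ∃ j j', j ≠ j' ∧ j < K ∧ j' < K ∧ gam j = m ∧ gam j' = m
  cont : ∀ j l j', j ≤ l → l ≤ j' → j' < K → gam j = gam j' → gam l = gam j

inductive Var (R P D : Type)
  | h (ρ : R) (i : Fin 4) (t j : ℕ) (d : D)
  | x (r : P) (j : ℕ) (d : D)
  | v (ρ : R) (i : Fin 4) (t j : ℕ) (e : D)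

namespace Sys

variable {R P G D : Type} (S : Sys R P G D)

def T : ℕ := 2 * (S.K + 2)

def act (ρ : R) (a : G → D) : G → D := fun m => S.sh ρ m (a m)

inductive Tr : P → (G → D) → Prop
  | mk (ρ : R) (r : P) (a : G → D) : S.head ρ = some r → (∀ m, S.guard ρ m (a m)) →
      (∀ i p, S.src ρ i = some p → Tr p (S.act ρ a)) → Tr r a

def Prem (ρ : R) (i : Fin 4) (a : G → D) : Prop := ∀ p, S.src ρ i = some p → S.Tr p (S.act ρ a)

def Accept : Prop := ∃ ρ a, S.head ρ = none ∧ ∀ i, S.Prem ρ i a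

structure Cell where
  ρ : R
  i : Fin 4
  t : ℕ
  j : ℕ
  d : D
  ht : t ≤ S.T
  hj : j < S.K

def key (j : ℕ) (d : D) : D := if S.gam j = S.gam (j + 1) then d else S.d0

def mport (z : S.Cell) : Fin 5 → Option (Var R P D)
  | 0 => if z.t = 0 then (S.src z.ρ z.i).map fun r => .x r z.j (S.sh z.ρ (S.gam z.j) z.d)
      else some (.h z.ρ z.i (z.t - 1) z.j z.d)
  | 1 => if z.j = 0 then none else some (.v z.ρ z.i z.t (z.j - 1) (S.key (z.j - 1) z.d))
  | 2 => if z.j + 1 < S.K then some (.v z.ρ z.i z.t z.j (S.key z.j z.d)) else none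
  | 3 => some (.h z.ρ z.i z.t z.j z.d)
  | 4 => none

def sport (z : S.Cell) : Fin 5 → Option (Var R P D)
  | 0 => some (.h z.ρ 0 (S.T - 1) z.j z.d)
  | 1 => some (.h z.ρ 1 (S.T - 1) z.j z.d)
  | 2 => some (.h z.ρ 2 (S.T - 1) z.j z.d)
  | 3 => some (.h z.ρ 3 (S.T - 1) z.j z.d)
  | 4 => if S.guard z.ρ (S.gam z.j) z.d then (S.head z.ρ).map fun r => .x r z.j z.d else none

def port (z : S.Cell) (p : Fin 5) : Option (Var R P D) :=
  if z.t < S.T then S.mport z p else S.sport z p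

def dep (z : S.Cell) : Fin 5 := if z.t < S.T ∨ S.head z.ρ = none then 3 else 4

def tw (z : S.Cell) : F := if z.t = S.T ∧ S.head z.ρ = none ∧ z.j = 0 then 1 else 0

structure UU (R D : Type) where
  u : R → Fin 4 → ℕ → ℕ → D → F
  s : R → ℕ → D → F

instance : Add (UU R D) :=
  ⟨fun U U' => ⟨fun ρ i t j d => U.u ρ i t j d + U'.u ρ i t j d,
    fun ρ j d => U.s ρ j d + U'.s ρ j d⟩⟩

@[simp] theorem add_u (U U' : UU R D) (ρ : R) (i : Fin 4) (t j : ℕ) (d : D) :
    (U + U').u ρ i t j d = U.u ρ i t j d + U'.u ρ i t j d := rfl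

@[simp] theorem add_s (U U' : UU R D) (ρ : R) (j : ℕ) (d : D) :
    (U + U').s ρ j d = U.s ρ j d + U'.s ρ j d := rfl

variable [Fintype R] [Fintype D]

def bd (U : UU R D) : Var R P D → F
  | .h ρ i t j d => if t < S.T ∧ j < S.K then
      U.u ρ i t j d + (if t + 1 < S.T then U.u ρ i (t + 1) j d else U.s ρ j d) else 0
  | .x r j d => if j < S.K then (∑ ρ, if S.head ρ = some r then U.s ρ j d else 0) +
      ∑ ρ, ∑ i, if S.src ρ i = some r then U.u ρ i 0 j ((S.sh ρ (S.gam j)).symm d) else 0 else 0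
  | .v ρ i t j e => if t < S.T ∧ j + 1 < S.K then
      ∑ d, if S.key j d = e then U.u ρ i t j d + U.u ρ i t (j + 1) d else 0 else 0

def sg (r : Option P) (a : G → D) (αx : F) (αm : R → Fin 4 → F) : Var R P D → F
  | .h ρ i t j d => if t + 1 = S.T ∧ j < S.K ∧ d = a (S.gam j) then αm ρ i else 0
  | .x r' j d => if j < S.K ∧ r = some r' ∧ d = a (S.gam j) then αx else 0
  | .v _ _ _ _ _ => 0

def cst (U : UU R D) : F := ∑ ρ, if S.head ρ = none then ∑ d, U.s ρ 0 d else 0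

theorem bd_add (U U' : UU R D) : S.bd (U + U') = S.bd U + S.bd U' := by
  funext v
  cases v with
  | h ρ i t j d =>
    simp only [bd, Pi.add_apply, add_u, add_s]
    split_ifs <;> ring
  | x r j d =>
    simp only [bd, Pi.add_apply, add_u, add_s]
    split_ifs
    · rw [add_add_add_comm]
      congr 1
      · rw [← sum_add_distrib]
        refine sum_congr rfl fun ρ _ => ?_
        split_ifs <;> simp
      · rw [← sum_add_distrib]
        refine sum_congr rfl fun ρ _ => ?_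
        rw [← sum_add_distrib]
        refine sum_congr rfl fun i _ => ?_
        split_ifs <;> simp
    · simp
  | v ρ i t j e =>
    simp only [bd, Pi.add_apply, add_u, add_s]
    split_ifs
    · rw [← sum_add_distrib]
      refine sum_congr rfl fun d _ => ?_
      split_ifs
      · ring
      · simp
    · simp

theorem cst_add (U U' : UU R D) : S.cst (U + U') = S.cst U + S.cst U' := by
  simp only [cst, add_s, Pi.add_apply, ← sum_add_distrib]
  refine sum_congr rfl fun ρ _ => ?_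
  split_ifs
  · rw [sum_add_distrib]
  · simp

omit [Fintype R] [Fintype D] in
theorem sg_add (r : Option P) (a : G → D) (αx βx : F) (αm βm : R → Fin 4 → F) :
    S.sg r a (αx + βx) (αm + βm) = S.sg r a αx αm + S.sg r a βx βm := by
  funext v
  cases v <;> simp only [sg, Pi.add_apply] <;> (try split_ifs) <;> simp

omit [Fintype R] [Fintype D] in
theorem sg_zero (r : Option P) (a : G → D) : S.sg r a 0 0 = 0 := by
  funext v
  cases v <;> simp [sg]

def Eqn (ρ : R) (m : G) (d : D) : Prop := S.head ρ = none ∨ S.guard ρ m d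

def Valid (U : UU R D) : Prop := ∀ ρ j d, j < S.K → U.s ρ j d ≠ 0 → S.Eqn ρ (S.gam j) d

def GC (w : ℕ → D → F) : Prop := ∀ j j', j < S.K → j' < S.K → S.gam j = S.gam j' → w j = w j'

def Ev (w : ℕ → D → F) : Prop := ∀ j, j < S.K → ∑ d, w j d = 0

def Gap (g : R → Fin 4 → ℕ) : Prop := ∀ ρ i, g ρ i + 1 < S.T

def TypeA (g : R → Fin 4 → ℕ) (U : UU R D) : Prop :=
  ∀ ρ i, (∀ j, j < S.K → U.u ρ i (g ρ i + 1) j = U.u ρ i (g ρ i) j) ∧
    S.GC (U.u ρ i (g ρ i)) ∧ S.Ev (U.u ρ i (g ρ i))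

def Zero (g : R → Fin 4 → ℕ) (U : UU R D) : Prop :=
  ∀ ρ i j, j < S.K → U.u ρ i (g ρ i + 1) j = 0 ∧ U.u ρ i (g ρ i) j = 0

def TS (r : Option P) (a : G → D) (αx : F) (αm : R → Fin 4 → F) : Prop :=
  (∀ r', r = some r' → αx ≠ 0 → S.Tr r' a) ∧ ∀ ρ i, αm ρ i ≠ 0 → S.head ρ = r ∧ S.Prem ρ i a

def NonEss (r : Option P) (αx : F) (αm : R → Fin 4 → F) : Prop :=
  (∀ ρ i, αm ρ i = αm ρ 0) ∧ (r ≠ none → αx = ∑ ρ, αm ρ 0)

def InA (g : R → Fin 4 → ℕ) (e : (Var R P D → F) × F) : Prop :=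
  ∃ U, S.Valid U ∧ S.TypeA g U ∧ e = (S.bd U, S.cst U)

def InB (g : R → Fin 4 → ℕ) (e : (Var R P D → F) × F) : Prop :=
  ∃ U r a αx αm, S.Valid U ∧ S.Zero g U ∧ S.TS r a αx αm ∧ ¬ NonEss r αx αm ∧
    e = (S.bd U + S.sg r a αx αm, S.cst U)

def InD (e : (Var R P D → F) × F) : Prop := ∃ g, S.Gap g ∧ (S.InA g e ∨ S.InB g e)

def Sub (X : Finset S.Cell) (l : Var R P D → F) : Prop :=
  ∀ v, l v ≠ 0 → ∃ z ∈ X, ∃ p, S.port z p = some v

omit [Fintype R] [Fintype D] in
theorem Sub.add {S : Sys R P G D} {X : Finset S.Cell} {l l' : Var R P D → F} (h : S.Sub X l)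
    (h' : S.Sub X l') : S.Sub X (l + l') := by
  intro v hv
  by_cases h0 : l v = 0
  · exact h' v (by simpa [h0] using hv)
  · exact h v h0

omit [Fintype R] in
theorem Valid.add {S : Sys R P G D} {U U' : UU R D} (h : S.Valid U) (h' : S.Valid U') :
    S.Valid (U + U') := by
  intro ρ j d hj hv
  by_cases h0 : U.s ρ j d = 0
  · exact h' ρ j d hj (by simpa [h0] using hv)
  · exact h ρ j d hj h0

omit [Fintype R] in
theorem Zero.typeA {S : Sys R P G D} {g : R → Fin 4 → ℕ} {U : UU R D} (h : S.Zero g U) :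
    S.TypeA g U := by
  intro ρ i
  refine ⟨fun j hj => by rw [(h ρ i j hj).1, (h ρ i j hj).2], fun j j' hj hj' _ => ?_,
    fun j hj => ?_⟩
  · rw [(h ρ i j hj).2, (h ρ i j' hj').2]
  · simp [(h ρ i j hj).2]

end Sys

end

end Vale.Agent.P310
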