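import Vale.Agent.P310.Defs
import Vale.Agent.P310.Sys

/-! Graphs of linear gadgets; Duplicator's side. -/

namespace Vale.Agent.P310

open Classical Finset

noncomputable section

structure CFI (Z V : Type) where
  port : Z → Fin 5 → Option V
  dep : Z → Fin 5
  tw : Z → F
  β : Z → ℕ
  M : ℕ
  N : ℕ
  βinj : Function.Injective β
  βlt : ∀ z, β z < M
  hN : 32 * M * (M + 1) ≤ N

namespace CFI

variable {Z V : Type} (C : CFI Z V)

abbrev Vt := (Z × (Fin 5 → F)) ⊕ Fin C.N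

def val (fl : F) (z : Z) (b : Fin 5 → F) (p : Fin 5) : F :=
  if p = C.dep z then (∑ p', if p' ≠ p ∧ (C.port z p').isSome then b p' else 0) + fl * C.tw z
  else b p

def cadj (fl : F) (w w' : Z × (Fin 5 → F)) : Prop :=
  w.1 ≠ w'.1 ∧ ∀ p p' v, C.port w.1 p = some v → C.port w'.1 p' = some v →
    C.val fl w.1 w.2 p = C.val fl w'.1 w'.2 p'

def adj (fl : F) : C.Vt → C.Vt → Prop
  | .inl w, .inl w' => C.cadj fl w w'
  | .inl w, .inr j => j.val < 32 * C.M * (C.β w.1 + 2)
  | .inr j, .inl w => j.val < 32 * C.M * (C.β w.1 + 2)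
  | .inr _, .inr _ => False

def graph (fl : F) : SimpleGraph C.Vt where
  Adj := C.adj fl
  symm := ⟨by
    rintro (w | j) (w' | j') h
    · exact ⟨h.1.symm, fun p p' v h1 h2 => (h.2 p' p v h2 h1).symm⟩
    · exact h
    · exact h
    · exact h⟩
  loopless := ⟨by
    rintro (w | j) h
    · exact h.1 rfl
    · exact h⟩

def dlt (ν : V → F) (z : Z) (p : Fin 5) : F := (C.port z p).elim 0 ν

def EqAt (ν : V → F) (z : Z) : Prop := (C.port z (C.dep z)).isSome → ∑ p, C.dlt ν z p = C.tw z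

def tr (s : Z → Fin 5 → F) : C.Vt ≃ C.Vt :=
  Equiv.sumCongr (Equiv.prodCongrRight fun z => Equiv.addRight (s z)) (Equiv.refl _)

@[simp] theorem tr_inl (s : Z → Fin 5 → F) (z : Z) (b : Fin 5 → F) :
    C.tr s (.inl (z, b)) = .inl (z, b + s z) := rfl

@[simp] theorem tr_inr (s : Z → Fin 5 → F) (j : Fin C.N) : C.tr s (.inr j) = .inr j := rfl

theorem val_tr {ν : V → F} {z : Z} (h : C.EqAt ν z) (b : Fin 5 → F) {p : Fin 5} {v : V}
    (hp : C.port z p = some v) : C.val 1 z (b + C.dlt ν z) p = C.val 0 z b p + ν v := by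
  have e : C.dlt ν z p = ν v := by simp [dlt, hp]
  unfold val
  split_ifs with h1
  · have h2 := h (by rw [← h1, hp]; rfl)
    rw [← add_sum_erase _ _ (mem_univ p), e] at h2
    have h3 : (∑ p', if p' ≠ p ∧ (C.port z p').isSome then (b + C.dlt ν z) p' else 0) =
        (∑ p', if p' ≠ p ∧ (C.port z p').isSome then b p' else 0) +
          ∑ p' ∈ univ.erase p, C.dlt ν z p' := by
      rw [← filter_ne', sum_filter, ← sum_add_distrib]
      refine sum_congr rfl fun p' _ => ?_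
      by_cases c1 : p' = p
      · simp [c1]
      · cases c2 : C.port z p' <;> simp [c1, c2, dlt]
    rw [h3, ← h2]
    grind
  · simp [e]

theorem adj_tr {ν : V → F} {w w' : C.Vt} (h : ∀ z b, w = .inl (z, b) → C.EqAt ν z)
    (h' : ∀ z b, w' = .inl (z, b) → C.EqAt ν z) :
    C.adj 1 (C.tr (C.dlt ν) w) (C.tr (C.dlt ν) w') ↔ C.adj 0 w w' := by
  rcases w with ⟨z, b⟩ | j <;> rcases w' with ⟨z', b'⟩ | j'
  · simp only [tr_inl, adj, cadj]
    refine and_congr Iff.rfl (forall₃_congr fun p p' v => ?_)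
    refine forall_congr' fun h1 => forall_congr' fun h2 => ?_
    rw [C.val_tr (h z b rfl) b h1, C.val_tr (h' z' b' rfl) b' h2, add_left_inj]
  all_goals exact Iff.rfl

structure Strat (k : ℕ) (Good : Finset Z → (V → F) → Prop) : Prop where
  g0 : ∃ ν, Good ∅ ν
  mono : ∀ X X' ν, X ⊆ X' → Good X' ν → Good X ν
  ext : ∀ X ν z, X.card ≤ k → Good X ν → ∃ ν', Good (insert z X) ν' ∧
    ∀ z' ∈ X, ∀ p v, C.port z' p = some v → ν' v = ν v
  eq : ∀ X ν z, Good X ν → z ∈ X → C.EqAt ν z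

variable [Fintype Z]

def cells {ι : Type} (x : ι → C.Vt) : Finset Z := univ.filter fun z => ∃ i b, x i = .inl (z, b)

theorem mem_cells {ι : Type} {x : ι → C.Vt} {z : Z} : z ∈ C.cells x ↔ ∃ i b, x i = .inl (z, b) := by
  simp [cells]

theorem card_cells {ι : Type} [Fintype ι] (x : ι → C.Vt) : (C.cells x).card ≤ Fintype.card ι := by
  have : ∀ z : C.cells x, ∃ i b, x i = .inl (z.1, b) := fun z => C.mem_cells.1 z.2
  choose f g hf using this
  rw [← Fintype.card_coe]
  refine Fintype.card_le_of_injective f fun z z' h => ?_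
  have := (hf z).symm.trans (h ▸ hf z')
  simp only [Sum.inl.injEq, Prod.mk.injEq] at this
  exact Subtype.ext this.1

variable {C} {k : ℕ} {Good : Finset Z → (V → F) → Prop}

def Rel (Good : Finset Z → (V → F) → Prop) {ι : Type} (x y : ι → C.Vt) : Prop :=
  ∃ ν, Good (C.cells x) ν ∧ ∀ i, y i = C.tr (C.dlt ν) (x i)

theorem ext_bij (hS : C.Strat k Good) {ι : Type} [Fintype ι] (hι : Fintype.card ι ≤ k)
    {x y : ι → C.Vt} (h : Rel Good x y) : ∃ f : C.Vt ≃ C.Vt, ∀ w, ∃ ν X, Good X ν ∧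
      C.cells x ⊆ X ∧ (∀ z b, w = .inl (z, b) → z ∈ X) ∧ (∀ i, y i = C.tr (C.dlt ν) (x i)) ∧
      f w = C.tr (C.dlt ν) w := by
  obtain ⟨ν, hν, hy⟩ := h
  choose ν' h1 h2 using fun z => hS.ext (C.cells x) ν z ((C.card_cells x).trans hι) hν
  refine ⟨C.tr fun z => C.dlt (ν' z) z, ?_⟩
  rintro (⟨z, b⟩ | j)
  · refine ⟨ν' z, _, h1 z, subset_insert _ _, ?_, fun i => ?_, rfl⟩
    · rintro z' b' ⟨⟩; exact mem_insert_self _ _
    · rw [hy i]
      rcases hx : x i with ⟨z', b'⟩ | j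
      · simp only [tr_inl]
        congr 3
        funext p
        unfold dlt
        cases hp : C.port z' p with
        | none => rfl
        | some v => exact (h2 z z' (C.mem_cells.2 ⟨i, b', hx⟩) p v hp).symm
      · rfl
  · exact ⟨ν, _, hν, Subset.rfl, by rintro _ _ ⟨⟩, hy, rfl⟩

theorem col_eq (hS : C.Strat k Good) (r : ℕ) : ∀ x y : Fin k → C.Vt, Rel Good x y →
    col (C.graph 0) r x = col (C.graph 1) r y := by
  induction r with
  | zero =>
    rintro x y ⟨ν, hν, hy⟩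
    funext i j
    simp only [col, hy]
    refine Prod.ext (propext (C.tr _).injective.eq_iff.symm) (propext (C.adj_tr ?_ ?_).symm)
    · exact fun z b h => hS.eq _ _ _ hν (C.mem_cells.2 ⟨i, b, h⟩)
    · exact fun z b h => hS.eq _ _ _ hν (C.mem_cells.2 ⟨j, b, h⟩)
  | succ r ih =>
    intro x y h
    refine Prod.ext (ih x y h) ?_
    obtain ⟨f, hf⟩ := ext_bij hS (by simp) h
    simp only [col]
    conv_rhs => rw [← Multiset.map_univ_val_equiv f, Multiset.map_map]
    refine Multiset.map_congr rfl fun w _ => funext fun i => ih _ _ ?_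
    obtain ⟨ν, X, h1, h2, h3, h4, h5⟩ := hf w
    refine ⟨ν, hS.mono _ _ _ (fun z hz => ?_) h1, fun l => ?_⟩
    · obtain ⟨l, b, hl⟩ := C.mem_cells.1 hz
      by_cases c : l = i
      · subst c; rw [Function.update_self] at hl; exact h3 z b hl
      · rw [Function.update_of_ne c] at hl; exact h2 (C.mem_cells.2 ⟨l, b, hl⟩)
    · by_cases c : l = i
      · subst c; simp [h5]
      · simp [Function.update_of_ne c, h4]

theorem tuple_bij (hS : C.Strat k Good) (m : ℕ) (hm : m ≤ k) :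
    ∃ Φ : (Fin m → C.Vt) ≃ (Fin m → C.Vt), ∀ x, Rel Good x (Φ x) := by
  induction m with
  | zero =>
    obtain ⟨ν, hν⟩ := hS.g0
    refine ⟨Equiv.refl _, fun x => ⟨ν, hS.mono _ _ _ (fun z hz => ?_) hν, fun i => i.elim0⟩⟩
    obtain ⟨i, -⟩ := C.mem_cells.1 hz
    exact i.elim0
  | succ m ih =>
    obtain ⟨Φ, hΦ⟩ := ih (by omega)
    choose f hf using fun x : Fin m → C.Vt => ext_bij hS (by simp; omega) (hΦ x)
    let Ψ : (Fin (m + 1) → C.Vt) → (Fin (m + 1) → C.Vt) :=
      fun x => Fin.cons (f (Fin.tail x) (x 0)) (Φ (Fin.tail x))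
    have hΨ : Function.Injective Ψ := by
      intro x x' h
      obtain ⟨h1, h2⟩ := Fin.cons_injective2.eq_iff.1 h
      have h3 := Φ.injective h2
      rw [h3] at h1
      rw [← Fin.cons_self_tail x, ← Fin.cons_self_tail x', (f _).injective h1, h3]
    refine ⟨Equiv.ofBijective Ψ (Finite.injective_iff_bijective.1 hΨ), fun x => ?_⟩
    obtain ⟨ν, X, h1, h2, h3, h4, h5⟩ := hf (Fin.tail x) (x 0)
    refine ⟨ν, hS.mono _ _ _ (fun z hz => ?_) h1, fun l => ?_⟩
    · obtain ⟨l, b, hl⟩ := C.mem_cells.1 hz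
      refine Fin.cases (motive := fun l => x l = .inl (z, b) → z ∈ X) (h3 z b)
        (fun l hl => h2 (C.mem_cells.2 ⟨l, b, hl⟩)) l hl
    · refine Fin.cases ?_ (fun l => ?_) l
      · exact h5
      · exact h4 l

theorem wl_of_strat (hS : C.Strat k Good) : WLEquiv k (C.graph 0) (C.graph 1) := by
  intro r
  obtain ⟨Φ, hΦ⟩ := tuple_bij hS k le_rfl
  conv_rhs => rw [← Multiset.map_univ_val_equiv Φ, Multiset.map_map]
  exact Multiset.map_congr rfl fun x _ => col_eq hS r _ _ (hΦ x)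

end CFI

end

end Vale.Agent.P310
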