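import Vale.Agent.P310.Norm

/-! Normalisation with respect to free gaps, and closure under sums. -/

namespace Vale.Agent.P310

open Classical Finset

noncomputable section

namespace Sys

variable {R P G D : Type} {S : Sys R P G D} [Fintype R] [Fintype D]
  {X : Finset S.Cell} {U : UU R D} {r : Option P} {a : G → D} {αx : F} {αm : R → Fin 4 → F}

theorem crossing {g τ : R → Fin 4 → ℕ} (hg : S.Gap g) (hZ : S.Zero g U) (hS : Sing X)
    (h : S.Sub X (S.bd U + S.sg r a αx αm)) (hτ : S.Gap τ) (hf : Free X τ)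
    {ρ0 : R} {i0 : Fin 4} {j0 : ℕ} (hj0 : j0 < S.K) {d0 : D} (hne : U.u ρ0 i0 (τ ρ0 i0) j0 d0 ≠ 0) :
    ∃ b : G → D, (∀ ρ i j d, j < S.K → U.u ρ i (τ ρ i) j d =
        if ρ = ρ0 ∧ i = i0 ∧ d = b (S.gam j) then 1 else 0) ∧
      ∀ m, ∃ j, j < S.K ∧ S.gam j = m ∧ ∀ z ∈ X, z.j = j → z.ρ = ρ0 ∧ z.i = i0 ∧
        ((τ ρ0 i0 < z.t ∧ z.t ≤ g ρ0 i0) ∨ (g ρ0 i0 < z.t ∧ z.t < τ ρ0 i0)) := by
  have hA : ∀ ρ i j d, j < S.K → U.u ρ i (τ ρ i) j d ≠ 0 → ∃ z ∈ X, z.ρ = ρ ∧ z.i = i ∧ z.j = j ∧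
      z.d = d ∧ ((τ ρ i < z.t ∧ z.t ≤ g ρ i) ∨ (g ρ i < z.t ∧ z.t < τ ρ i)) := by
    intro ρ i j d hj hne
    have h1 := hg ρ i
    have h2 := hτ ρ i
    rcases le_or_gt (τ ρ i) (g ρ i) with hle | hlt
    · obtain ⟨z, hz, rfl, rfl, a3, a4, a5, a6⟩ := locI h (ρ := ρ) (i := i) (d := d) hle (by omega) hj
        (by rw [(hZ _ _ j hj).2]; exact hne)
      have := hf z hz
      exact ⟨z, hz, rfl, rfl, a5, a6, Or.inl ⟨by omega, a4⟩⟩
    · obtain ⟨z, hz, rfl, rfl, a3, a4, a5, a6⟩ := locI h (ρ := ρ) (i := i) (d := d)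
        (t1 := g ρ i + 1) hlt (by omega) hj (by rw [(hZ _ _ j hj).1]; exact hne.symm)
      have := hf z hz
      exact ⟨z, hz, rfl, rfl, a5, a6, Or.inr ⟨by omega, by omega⟩⟩
  choose J hJ hJm Z hZ' using hS
  have hB : ∀ m ρ i d, U.u ρ i (τ ρ i) (J m) d ≠ 0 → (Z m).ρ = ρ ∧ (Z m).i = i ∧
      (Z m).d = d ∧ ((τ ρ i < (Z m).t ∧ (Z m).t ≤ g ρ i) ∨ (g ρ i < (Z m).t ∧ (Z m).t < τ ρ i)) := by
    intro m ρ i d hne
    obtain ⟨z, hz, a1, a2, a3, a4, a5⟩ := hA ρ i (J m) d (hJ m) hne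
    obtain rfl := hZ' m z hz a3
    exact ⟨a1, a2, a4, a5⟩
  have hrow : ∀ ρ i j, j < S.K → U.u ρ i (τ ρ i) j = U.u ρ i (τ ρ i) (J (S.gam j)) :=
    fun ρ i j hj => free_GC h hτ hf ρ i j _ hj (hJ _) (hJm _).symm
  have hsum : ∀ m ρ i, ∑ d, U.u ρ i (τ ρ i) (J m) d = U.u ρ i (τ ρ i) (J m) (Z m).d := by
    intro m ρ i
    refine sum_eq_single _ (fun d _ hd => ?_) (by simp)
    by_contra hc
    exact hd (hB m ρ i d hc).2.2.1.symm
  have hone : ∀ m, U.u ρ0 i0 (τ ρ0 i0) (J m) (Z m).d ≠ 0 := by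
    intro m
    rw [← hsum, free_par h hτ hf ρ0 i0 (hJ m), ← free_par h hτ hf ρ0 i0 (hJ (S.gam j0)), hsum]
    rw [hrow _ _ _ hj0] at hne
    rwa [(hB _ _ _ _ hne).2.2.1]
  refine ⟨fun m => (Z m).d, fun ρ i j d hj => ?_, fun m => ⟨J m, hJ m, hJm m, fun z hz hzj => ?_⟩⟩
  · rw [hrow ρ i j hj]
    split_ifs with hc
    · obtain ⟨rfl, rfl, rfl⟩ := hc
      exact F_ne0 (hone _)
    · by_contra hc'
      obtain ⟨a1, a2, a3, -⟩ := hB _ _ _ _ hc'
      obtain ⟨b1, b2, -⟩ := hB _ _ _ _ (hone (S.gam j))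
      exact hc ⟨a1.symm.trans b1, a2.symm.trans b2, a3.symm⟩
  · obtain rfl := hZ' m z hz hzj
    obtain ⟨b1, b2, -, b4⟩ := hB _ _ _ _ (hone m)
    exact ⟨b1, b2, b4⟩

omit [Fintype R] [Fintype D] in
theorem dl_ess (r : Option P) (ρ0 : R) (i0 : Fin 4) [Fintype R] : ¬ NonEss r 0 (dl ρ0 i0) := by
  intro h
  obtain ⟨i1, hi⟩ := exists_ne i0
  have h1 := h.1 ρ0 i0
  have h2 := h.1 ρ0 i1
  rw [← h2] at h1
  simp [dl, hi] at h1

theorem zero_cross {τ : R → Fin 4 → ℕ} (h : S.Sub X (S.bd U + S.sg r a αx αm)) (hτ : S.Gap τ)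
    (hf : Free X τ) {ρ0 : R} {i0 : Fin 4} {b : G → D}
    (hb : ∀ ρ i j d, j < S.K → U.u ρ i (τ ρ i) j d =
      if ρ = ρ0 ∧ i = i0 ∧ d = b (S.gam j) then 1 else 0) (a' : G → D) (β : R → Fin 4 → F) :
    S.Zero τ (U + S.cyl ρ0 i0 b + S.SC a' β) := by
  intro ρ i j hj
  constructor <;> funext d
  · simp only [add_u, free_step h hτ hf ρ i hj, hb ρ i j d hj, cyl, SC, F_add_self, add_zero,
      Pi.zero_apply]
  · simp only [add_u, hb ρ i j d hj, cyl, SC, F_add_self, add_zero, Pi.zero_apply]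

theorem regap_left (hAcc : ¬ S.Accept) {g τ : R → Fin 4 → ℕ} (hV : S.Valid U) (hg : S.Gap g)
    (hZ : S.Zero g U) (hT : S.TS r a αx αm)
    (h : S.Sub X (S.bd U + S.sg r a αx αm)) (hτ : S.Gap τ) (hf : Free X τ)
    {ρ0 : R} {i0 : Fin 4} {b : G → D}
    (hb : ∀ ρ i j d, j < S.K → U.u ρ i (τ ρ i) j d =
      if ρ = ρ0 ∧ i = i0 ∧ d = b (S.gam j) then 1 else 0)
    (hp : ∀ m, ∃ j, j < S.K ∧ S.gam j = m ∧ ∀ z ∈ X, z.j = j → z.ρ = ρ0 ∧ z.i = i0 ∧
      τ ρ0 i0 < z.t ∧ z.t ≤ g ρ0 i0) :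
    S.InB τ (S.bd U + S.sg r a αx αm, S.cst U) := by
  have hg0 := hg ρ0 i0
  have row : ∀ m, ∃ j, j < S.K ∧ S.gam j = m ∧
      (∀ ρ i d, U.s ρ j d = if d = a m then αm ρ i else 0) ∧
      ∀ r' d, (∑ ρ, if S.head ρ = some r' then U.s ρ j d else 0) +
        (if S.src ρ0 i0 = some r' ∧ d = S.act ρ0 b m then 1 else 0) +
        (if r = some r' ∧ d = a m then αx else 0) = 0 := by
    intro m
    obtain ⟨j, hj, rfl, hz⟩ := hp m
    refine ⟨j, hj, rfl, fun ρ i d => ?_, fun r' d => ?_⟩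
    · by_contra hc
      obtain ⟨z, hzX, h1, h2, h3, h4⟩ := locR h (ρ := ρ) (i := i) (d := d) (hg ρ i) hj
        (by rw [(hZ ρ i j hj).1]; simpa [F_add_eq0] using hc)
      obtain ⟨b1, b2, b3, b4⟩ := hz z hzX h2
      rcases h4 with h4 | ⟨h4, h5⟩
      · omega
      · rw [← h1, ← h4, b1, b2] at h5; omega
    · by_contra hc
      obtain ⟨z, hzX, h2, h3⟩ := locX h (g := fun ρ i => if ρ = ρ0 ∧ i = i0 then τ ρ i else g ρ i)
        (fun ρ i => by have := hg ρ i; have := hτ ρ i; split_ifs <;> omega)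
        (r' := r') (d := d) hj (by
          convert hc using 3
          rw [sum_eq_single ρ0, sum_eq_single i0]
          · simp only [and_self, if_true, hb _ _ _ _ hj, true_and, Equiv.symm_apply_eq, act]
            by_cases h1 : S.src ρ0 i0 = some r' <;> simp [h1]
          · intro i _ hi; simp [hi, (hZ _ _ j hj).2]
          · simp
          · intro ρ _ hρ; simp [hρ, (hZ _ _ j hj).2]
          · simp)
      obtain ⟨b1, b2, b3, b4⟩ := hz z hzX h2
      rcases h3 with ⟨h3, -⟩ | ⟨h3, -⟩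
      · rw [b1, b2] at h3; simp at h3; omega
      · omega
  have hc : ∀ ρ i, αm ρ i = αm ρ 0 := by
    intro ρ i
    obtain ⟨j, -, -, h1, -⟩ := row (S.gam 0)
    simpa using (h1 ρ i (a (S.gam 0))).symm.trans (h1 ρ 0 _)
  have he : ∀ ρ m, αm ρ 0 ≠ 0 → S.Eqn ρ m (a m) := by
    intro ρ m hne
    obtain ⟨j, hj, rfl, h1, -⟩ := row m
    exact hV ρ j _ hj (by rw [h1 ρ 0, if_pos rfl]; exact hne)
  have hE : ∀ m r' d, (if r = some r' ∧ d = a m then αx + ∑ ρ, αm ρ 0 else 0) =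
      if S.src ρ0 i0 = some r' ∧ d = S.act ρ0 b m then 1 else 0 := by
    intro m r' d
    obtain ⟨j, hj, -, h1, h2⟩ := row m
    have h3 := h2 r' d
    have h4 : (∑ ρ, if S.head ρ = some r' then U.s ρ j d else 0) =
        if r = some r' ∧ d = a m then ∑ ρ, αm ρ 0 else 0 := by
      simp only [h1 _ 0]
      by_cases c1 : d = a m
      · by_cases c2 : r = some r'
        · simp only [c1, c2, if_true, and_self]
          exact sum_head fun ρ h => (hT.2 ρ 0 h).1.trans c2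
        · simp only [c1, c2, if_true, false_and, if_false]
          refine sum_eq_zero fun ρ _ => ?_
          split_ifs with c3
          · by_contra c4
            exact c2 ((hT.2 ρ 0 c4).1.symm.trans c3)
          · rfl
      · simp [c1]
    rw [h4] at h3
    refine F_add_eq0.1 (Eq.trans ?_ h3)
    split_ifs <;> ring
  have hsg : S.sg r a (αx + ∑ ρ, αm ρ 0) 0 = S.sg (S.src ρ0 i0) (S.act ρ0 b) 1 0 := by
    funext v
    cases v with
    | h => simp [sg]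
    | x r' j d =>
      simp only [sg]
      by_cases hj : j < S.K
      · simpa only [hj, true_and] using hE (S.gam j) r' d
      · simp [hj]
    | v => rfl
  have hprem : S.Prem ρ0 i0 b := by
    intro p hp
    have h1 : ∀ m, r = some p ∧ S.act ρ0 b m = a m ∧ αx + ∑ ρ, αm ρ 0 ≠ 0 := by
      intro m
      have := hE m p (S.act ρ0 b m)
      rw [if_pos (c := S.src ρ0 i0 = some p ∧ _) ⟨hp, rfl⟩] at this
      split_ifs at this with c
      · exact ⟨c.1, c.2, by rw [this]; decide⟩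
      · exact absurd this (by decide)
    obtain ⟨c1, -, c3⟩ := h1 (S.gam 0)
    have c2 : S.act ρ0 b = a := funext fun m => (h1 m).2.1
    rw [c2]
    by_cases c4 : αx = 0
    · rw [c4, zero_add] at c3
      obtain ⟨ρ, -, hρ⟩ := exists_ne_zero_of_sum_ne_zero c3
      have c5 := (hT.2 ρ 0 hρ).1.trans c1
      refine Tr.mk ρ p a c5 (fun m => (he ρ m hρ).resolve_left (by simp [c5])) fun i => ?_
      exact (hT.2 ρ i (by rwa [hc])).2
    · exact hT.1 p c1 c4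
  refine ⟨U + S.cyl ρ0 i0 b + S.SC a αm, S.head ρ0, b, 0, dl ρ0 i0,
    (hV.add (valid_cyl _ _ _)).add (valid_SC he), zero_cross h hτ hf hb _ _,
    ⟨fun _ _ h => absurd rfl h, fun ρ i h => ?_⟩, dl_ess _ _ _, ?_⟩
  · simp only [dl] at h
    split_ifs at h with c
    · obtain ⟨rfl, rfl⟩ := c; exact ⟨rfl, hprem⟩
    · exact absurd rfl h
  · rw [bd_add, bd_add, cst_add, cst_add, bd_SC hc fun ρ h => (hT.2 ρ 0 h).1,
      cst_SC hAcc hc fun ρ i h => (hT.2 ρ i h).2, cst_cyl, add_zero, add_zero,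
      bd_cyl ρ0 i0 b (S.head ρ0), ← hsg]
    have := S.sg_add r a (αx + ∑ ρ, αm ρ 0) (∑ ρ, αm ρ 0) 0 αm
    rw [add_assoc, F_add_self, add_zero, zero_add] at this
    rw [this]
    congr 1
    funext v
    simp only [Pi.add_apply]
    grind

theorem regap_right (hAcc : ¬ S.Accept) {g τ : R → Fin 4 → ℕ} (hV : S.Valid U) (hg : S.Gap g)
    (hZ : S.Zero g U) (hT : S.TS r a αx αm)
    (h : S.Sub X (S.bd U + S.sg r a αx αm)) (hτ : S.Gap τ) (hf : Free X τ)
    {ρ0 : R} {i0 : Fin 4} {b : G → D}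
    (hb : ∀ ρ i j d, j < S.K → U.u ρ i (τ ρ i) j d =
      if ρ = ρ0 ∧ i = i0 ∧ d = b (S.gam j) then 1 else 0)
    (hp : ∀ m, ∃ j, j < S.K ∧ S.gam j = m ∧ ∀ z ∈ X, z.j = j → z.ρ = ρ0 ∧ z.i = i0 ∧
      g ρ0 i0 < z.t ∧ z.t < τ ρ0 i0) :
    S.InA τ (S.bd U + S.sg r a αx αm, S.cst U) ∨ S.InB τ (S.bd U + S.sg r a αx αm, S.cst U) := by
  have hτ0 := hτ ρ0 i0
  have row : ∀ m, ∃ j, j < S.K ∧ S.gam j = m ∧
      (∀ ρ i d, U.s ρ j d + (if d = a m then αm ρ i else 0) =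
        if ρ = ρ0 ∧ i = i0 ∧ d = b m then 1 else 0) ∧
      ∀ r' d, (∑ ρ, if S.head ρ = some r' then U.s ρ j d else 0) +
        (if r = some r' ∧ d = a m then αx else 0) = 0 := by
    intro m
    obtain ⟨j, hj, rfl, hz⟩ := hp m
    refine ⟨j, hj, rfl, fun ρ i d => ?_, fun r' d => ?_⟩
    · by_contra hc
      obtain ⟨z, hzX, h1, h2, h3, h4⟩ := locR h (ρ := ρ) (i := i) (d := d) (t := τ ρ i)
        (by have := hτ ρ i; omega) hj
        (by rw [hb _ _ _ _ hj, add_assoc, Ne, F_add_eq0]; exact Ne.symm hc)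
      obtain ⟨b1, b2, b3, b4⟩ := hz z hzX h2
      rcases h4 with h4 | ⟨h4, h5⟩
      · omega
      · rw [← h1, ← h4, b1, b2] at h5; omega
    · by_contra hc
      obtain ⟨z, hzX, h2, h3⟩ := locX h (g := g) (fun ρ i => by have := hg ρ i; omega)
        (r' := r') (d := d) hj (by simpa [fun ρ i => (hZ ρ i j hj).2] using hc)
      obtain ⟨b1, b2, b3, b4⟩ := hz z hzX h2
      rcases h3 with ⟨h3, -⟩ | ⟨h3, -⟩
      · rw [b1, b2] at h3; omega
      · omega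
  obtain rfl : a = b := by
    funext m
    obtain ⟨j, -, -, h1, -⟩ := row m
    obtain ⟨i1, hi⟩ := exists_ne i0
    by_contra hc
    have e1 := h1 ρ0 i0 (b m)
    have e2 := h1 ρ0 i1 (b m)
    simp [Ne.symm hc, hi] at e1 e2
    rw [e1] at e2
    exact absurd e2 (by decide)
  set β := αm + dl ρ0 i0 with hβ
  have row' : ∀ m, ∃ j, j < S.K ∧ S.gam j = m ∧
      (∀ ρ i d, U.s ρ j d = if d = a m then β ρ i else 0) ∧
      ∀ r' d, (∑ ρ, if S.head ρ = some r' then U.s ρ j d else 0) +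
        (if r = some r' ∧ d = a m then αx else 0) = 0 := by
    intro m
    obtain ⟨j, hj, hm, h1, h2⟩ := row m
    refine ⟨j, hj, hm, fun ρ i d => ?_, h2⟩
    have := h1 ρ i d
    simp only [hβ, Pi.add_apply, dl]
    by_cases c : d = a m
    · simp only [c, if_true, and_true] at this ⊢
      rw [← this]; grind
    · simpa [c] using this
  have hc : ∀ ρ i, β ρ i = β ρ 0 := by
    intro ρ i
    obtain ⟨j, -, -, h1, -⟩ := row' (S.gam 0)
    simpa using (h1 ρ i (a (S.gam 0))).symm.trans (h1 ρ 0 _)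
  have he : ∀ ρ m, β ρ 0 ≠ 0 → S.Eqn ρ m (a m) := by
    intro ρ m hne
    obtain ⟨j, hj, rfl, h1, -⟩ := row' m
    exact hV ρ j _ hj (by rw [h1 ρ 0, if_pos rfl]; exact hne)
  have hT' : ∀ ρ i, β ρ i ≠ 0 → S.head ρ = r ∧ S.Prem ρ i a := by
    intro ρ i hne
    by_cases c : ρ = ρ0 ∧ i = i0
    · obtain ⟨rfl, rfl⟩ := c
      obtain ⟨i', h1, h2⟩ := twin (S := S) ρ i
      have : αm ρ i' ≠ 0 := by
        rw [hc, ← hc ρ i'] at hne
        simpa [hβ, dl, h1] using hne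
      obtain ⟨h3, h4⟩ := hT.2 ρ i' this
      exact ⟨h3, fun p hp => h4 p (h2.trans hp)⟩
    · exact hT.2 ρ i (by simpa [hβ, dl, c] using hne)
  have hprem : S.Prem ρ0 i0 a := by
    by_cases c : αm ρ0 i0 = 0
    · exact (hT' ρ0 i0 (by simp [hβ, dl, c])).2
    · exact (hT.2 _ _ c).2
  have hx : r ≠ none → αx = ∑ ρ, β ρ 0 := by
    intro hr
    obtain ⟨r', rfl⟩ := Option.ne_none_iff_exists'.1 hr
    obtain ⟨j, -, -, h1, h2⟩ := row' (S.gam 0)
    have h3 := h2 r' (a (S.gam 0))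
    simp only [h1 _ 0, if_true, and_self] at h3
    rw [sum_head (β := fun ρ => β ρ 0) fun ρ h => (hT' ρ 0 h).1, F_add_eq0] at h3
    exact h3.symm
  have hV' : S.Valid (U + S.cyl ρ0 i0 a + S.SC a β) := (hV.add (valid_cyl _ _ _)).add (valid_SC he)
  have hZ' := zero_cross h hτ hf hb a β
  have hcst : S.cst U = S.cst (U + S.cyl ρ0 i0 a + S.SC a β) := by
    rw [cst_add, cst_add, cst_SC hAcc hc fun ρ i h => (hT' ρ i h).2, cst_cyl, add_zero, add_zero]
  have hbd : S.bd U + S.sg r a αx αm = S.bd (U + S.cyl ρ0 i0 a + S.SC a β) +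
      S.sg (S.src ρ0 i0) (S.act ρ0 a) 1 0 := by
    rw [bd_add, bd_add, bd_SC hc fun ρ h => (hT' ρ 0 h).1, bd_cyl ρ0 i0 a r, ← sg_congr hx]
    have := S.sg_add r a αx 0 αm (dl ρ0 i0)
    rw [add_zero] at this
    rw [hβ, this]
    funext v
    simp only [Pi.add_apply]
    grind
  rw [hbd, hcst]
  cases hs : S.src ρ0 i0 with
  | none =>
    left
    refine ⟨_, hV', hZ'.typeA, ?_⟩
    rw [sg_congr (βx := 0) (by simp), sg_zero, add_zero]
  | some p =>
    right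
    refine ⟨_, some p, _, 1, 0, hV', hZ', ⟨fun r' h1 _ => ?_, fun _ _ h => absurd rfl h⟩, ?_, rfl⟩
    · exact hprem r' (hs.trans h1)
    · intro h1
      simpa using h1.2 (by simp)

theorem regap (hAcc : ¬ S.Accept) {g τ : R → Fin 4 → ℕ} (hV : S.Valid U) (hg : S.Gap g)
    (hZ : S.Zero g U) (hT : S.TS r a αx αm) (hS : Sing X)
    (h : S.Sub X (S.bd U + S.sg r a αx αm)) (hτ : S.Gap τ) (hf : Free X τ) :
    S.InA τ (S.bd U + S.sg r a αx αm, S.cst U) ∨ S.InB τ (S.bd U + S.sg r a αx αm, S.cst U) := by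
  by_cases h0 : ∀ ρ i j d, j < S.K → U.u ρ i (τ ρ i) j d = 0
  · have hZ' : S.Zero τ U := by
      intro ρ i j hj
      rw [free_step h hτ hf ρ i hj]
      exact ⟨funext fun d => h0 ρ i j d hj, funext fun d => h0 ρ i j d hj⟩
    by_cases hN : NonEss r αx αm
    · exact Or.inl (absorb hAcc hτ hV hZ' hT hN hS h)
    · exact Or.inr ⟨U, r, a, αx, αm, hV, hZ', hT, hN, rfl⟩
  · push Not at h0
    obtain ⟨ρ0, i0, j0, d0, hj0, hne⟩ := h0
    obtain ⟨b, hb, hp⟩ := crossing hg hZ hS h hτ hf hj0 hne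
    rcases le_or_gt (τ ρ0 i0) (g ρ0 i0) with hle | hlt
    · refine Or.inr (regap_left hAcc hV hg hZ hT h hτ hf hb fun m => ?_)
      obtain ⟨j, hj, hm, hz⟩ := hp m
      refine ⟨j, hj, hm, fun z hzX hzj => ?_⟩
      obtain ⟨a1, a2, a3⟩ := hz z hzX hzj
      exact ⟨a1, a2, by omega⟩
    · refine regap_right hAcc hV hg hZ hT h hτ hf hb fun m => ?_
      obtain ⟨j, hj, hm, hz⟩ := hp m
      refine ⟨j, hj, hm, fun z hzX hzj => ?_⟩
      obtain ⟨a1, a2, a3⟩ := hz z hzX hzj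
      exact ⟨a1, a2, by omega⟩

theorem locB {g : R → Fin 4 → ℕ} (hg : S.Gap g) (hZ : S.Zero g U) (hT : S.TS r a αx αm)
    (hN : ¬ NonEss r αx αm) (h : S.Sub X (S.bd U + S.sg r a αx αm)) {j : ℕ} (hj : j < S.K) :
    ∃ z ∈ X, z.j = j ∧
      ((z.t ≤ g z.ρ z.i ∧ S.src z.ρ z.i = r ∧ S.sh z.ρ (S.gam j) z.d = a (S.gam j)) ∨
        (g z.ρ z.i < z.t ∧ S.head z.ρ = r ∧ z.d = a (S.gam j))) := by
  by_cases hc : ∀ ρ i, S.head ρ = r → U.s ρ j (a (S.gam j)) = αm ρ i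
  · have h1 : ∀ ρ i, αm ρ i = αm ρ 0 := by
      intro ρ i
      by_cases c : S.head ρ = r
      · rw [← hc ρ i c, ← hc ρ 0 c]
      · have e1 : αm ρ i = 0 := by by_contra c1; exact c (hT.2 _ _ c1).1
        have e2 : αm ρ 0 = 0 := by by_contra c1; exact c (hT.2 _ _ c1).1
        rw [e1, e2]
    simp only [NonEss, not_and, Classical.not_imp] at hN
    obtain ⟨hr, hx⟩ := hN h1
    obtain ⟨r', rfl⟩ := Option.ne_none_iff_exists'.1 hr
    obtain ⟨z, hzX, h2, h3⟩ := locX h (g := g) (fun ρ i => by have := hg ρ i; omega)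
      (r' := r') (d := a (S.gam j)) hj (by
        simp only [fun ρ i => (hZ ρ i j hj).2, Pi.zero_apply, ite_self, sum_const_zero,
          add_zero, and_self, if_true]
        rw [Ne, F_add_eq0]
        intro h4
        apply hx
        rw [← h4, ← sum_head (S := S) (r := some r') (β := fun ρ => αm ρ 0)
          (fun ρ h => (hT.2 ρ 0 h).1)]
        refine sum_congr rfl fun ρ _ => ?_
        split_ifs with c
        · exact hc ρ 0 c
        · rfl)
    refine ⟨z, hzX, h2, ?_⟩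
    rcases h3 with h3 | h3
    · exact Or.inl h3
    · exact Or.inr ⟨by have := hg z.ρ z.i; omega, h3.2.1, h3.2.2.2⟩
  · push Not at hc
    obtain ⟨ρ, i, h1, h2⟩ := hc
    obtain ⟨z, hzX, rfl, a2, a3, a4⟩ := locR h (ρ := ρ) (i := i) (d := a (S.gam j)) (hg ρ i) hj
      (by rw [(hZ ρ i j hj).1]; simpa [F_add_eq0] using h2)
    refine ⟨z, hzX, a2, Or.inr ⟨?_, h1, a3⟩⟩
    rcases a4 with a4 | ⟨rfl, a4⟩
    · have := hg z.ρ z.i; omega
    · omega

theorem sing_of_B {g : R → Fin 4 → ℕ} (hX : X.card ≤ S.K + 1) (hg : S.Gap g) (hZ : S.Zero g U)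
    (hT : S.TS r a αx αm) (hN : ¬ NonEss r αx αm) (h : S.Sub X (S.bd U + S.sg r a αx αm)) :
    Sing X :=
  sing_of_rows hX fun _ hj => by
    obtain ⟨z, hz, h1, -⟩ := locB hg hZ hT hN h hj
    exact ⟨z, hz, h1⟩

theorem normalize (hAcc : ¬ S.Accept) (hX : X.card ≤ S.K + 1) {τ : R → Fin 4 → ℕ}
    (hτ : S.Gap τ) (hf : Free X τ) {e : (Var R P D → F) × F} (he : S.InD e) (h : S.Sub X e.1) :
    S.InA τ e ∨ S.InB τ e := by
  obtain ⟨g, hg, ⟨U, hV, hA, rfl⟩ | ⟨U, r, a, αx, αm, hV, hZ, hT, hN, rfl⟩⟩ := he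
  · have h' : S.Sub X (S.bd U + S.sg none (fun _ => S.d0) 0 0) := by rwa [sg_zero, add_zero]
    by_cases h0 : ∀ ρ i, ∑ d, U.u ρ i (τ ρ i) 0 d = 0
    · refine Or.inl ⟨U, hV, fun ρ i => ⟨fun j hj => free_step h' hτ hf ρ i hj,
        free_GC h' hτ hf ρ i, fun j hj => ?_⟩, rfl⟩
      rw [free_par h' hτ hf ρ i hj, h0]
    · push Not at h0
      obtain ⟨ρ, i, h0⟩ := h0
      have hS : Sing X := by
        refine sing_of_rows hX fun j hj => ?_
        have : ∃ d, U.u ρ i (τ ρ i) j d ≠ U.u ρ i (g ρ i) j d := by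
          by_contra hc
          push Not at hc
          apply h0
          rw [← free_par h' hτ hf ρ i hj, ← (hA ρ i).2.2 j hj]
          exact sum_congr rfl fun d _ => hc d
        obtain ⟨d, hd⟩ := this
        have h1 := hg ρ i
        have h2 := hτ ρ i
        rcases le_total (τ ρ i) (g ρ i) with hle | hle
        · obtain ⟨z, hz, -, -, -, -, a, -⟩ := locI h' hle (by omega) hj hd
          exact ⟨z, hz, a⟩
        · obtain ⟨z, hz, -, -, -, -, a, -⟩ := locI h' hle (by omega) hj hd.symm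
          exact ⟨z, hz, a⟩
      obtain ⟨U', hV', hZ', e1, e2⟩ := zeroable hV hg hA h hS
      have := regap (r := none) (a := fun _ => S.d0) (αx := 0) (αm := 0) hAcc hV' hg hZ'
        ⟨fun _ _ h => absurd rfl h, fun _ _ h => absurd rfl h⟩ hS (by rwa [e1]) hτ hf
      rwa [sg_zero, add_zero, e1, e2] at this
  · exact regap hAcc hV hg hZ hT (sing_of_B hX hg hZ hT hN h) h hτ hf

omit [Fintype R] [Fintype D] in
theorem Zero.add {g : R → Fin 4 → ℕ} {U U' : UU R D} (h : S.Zero g U) (h' : S.Zero g U') :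
    S.Zero g (U + U') := by
  intro ρ i j hj
  constructor <;> funext d <;> simp [h ρ i j hj, h' ρ i j hj]

theorem closeAB (hX : X.card ≤ S.K + 1) {τ : R → Fin 4 → ℕ} (hτ : S.Gap τ)
    {e e' : (Var R P D → F) × F} (he : S.InA τ e) (he' : S.InB τ e') (h : S.Sub X e.1)
    (h' : S.Sub X e'.1) : S.InB τ (e + e') := by
  obtain ⟨U, hV, hA, rfl⟩ := he
  obtain ⟨U', r, a, αx, αm, hV', hZ', hT, hN, rfl⟩ := he'
  obtain ⟨U1, hV1, hZ1, e1, e2⟩ := zeroable hV hτ hA h (sing_of_B hX hτ hZ' hT hN h')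
  refine ⟨U1 + U', r, a, αx, αm, hV1.add hV', hZ1.add hZ', hT, hN, ?_⟩
  rw [bd_add, cst_add, e1, e2, add_assoc]
  rfl

theorem closure (hAcc : ¬ S.Accept) (hX : X.card ≤ S.K + 1) {e e' : (Var R P D → F) × F}
    (he : S.InD e) (he' : S.InD e') (h : S.Sub X e.1) (h' : S.Sub X e'.1) : S.InD (e + e') := by
  obtain ⟨τ, hτ, hf⟩ := exists_free X hX
  refine ⟨τ, hτ, ?_⟩
  rcases normalize hAcc hX hτ hf he h with h1 | h1 <;>
    rcases normalize hAcc hX hτ hf he' h' with h2 | h2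
  · obtain ⟨U, hV, hA, rfl⟩ := h1
    obtain ⟨U', hV', hA', rfl⟩ := h2
    refine Or.inl ⟨U + U', hV.add hV', fun ρ i => ⟨fun j hj => ?_, fun j j' hj hj' hg => ?_,
      fun j hj => ?_⟩, by rw [bd_add, cst_add]; rfl⟩
    · funext d; simp [(hA ρ i).1 j hj, (hA' ρ i).1 j hj]
    · funext d; simp [(hA ρ i).2.1 j j' hj hj' hg, (hA' ρ i).2.1 j j' hj hj' hg]
    · simp [sum_add_distrib, (hA ρ i).2.2 j hj, (hA' ρ i).2.2 j hj]
  · exact Or.inr (closeAB hX hτ h1 h2 h h')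
  · rw [add_comm]; exact Or.inr (closeAB hX hτ h2 h1 h' h)
  · obtain ⟨U, r, a, αx, αm, hV, hZ, hT, hN, rfl⟩ := h1
    obtain ⟨U', r', a', βx, βm, hV', hZ', hT', hN', rfl⟩ := h2
    have hS := sing_of_B hX hτ hZ hT hN h
    have : ∀ m, r = r' ∧ a m = a' m := by
      intro m
      obtain ⟨j, hj, rfl, z0, hz⟩ := hS m
      obtain ⟨z, hzX, b1, b2⟩ := locB hτ hZ hT hN h hj
      obtain ⟨z', hzX', c1, c2⟩ := locB hτ hZ' hT' hN' h' hj
      obtain rfl := hz z hzX b1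
      obtain rfl := hz z' hzX' c1
      rcases b2 with b2 | b2 <;> rcases c2 with c2 | c2
      · exact ⟨b2.2.1.symm.trans c2.2.1, b2.2.2.symm.trans c2.2.2⟩
      · omega
      · omega
      · exact ⟨b2.2.1.symm.trans c2.2.1, b2.2.2.symm.trans c2.2.2⟩
    obtain rfl : r = r' := (this (S.gam 0)).1
    obtain rfl : a = a' := funext fun m => (this m).2
    have hT2 : S.TS r a (αx + βx) (αm + βm) := by
      refine ⟨fun r' h1 h2 => ?_, fun ρ i h2 => ?_⟩
      · by_cases c : αx = 0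
        · exact hT'.1 r' h1 (by simpa [c] using h2)
        · exact hT.1 r' h1 c
      · by_cases c : αm ρ i = 0
        · exact hT'.2 ρ i (by simpa [c] using h2)
        · exact hT.2 ρ i c
    have e : (S.bd U + S.sg r a αx αm, S.cst U) + (S.bd U' + S.sg r a βx βm, S.cst U') =
        (S.bd (U + U') + S.sg r a (αx + βx) (αm + βm), S.cst (U + U')) := by
      rw [bd_add, cst_add, sg_add, add_add_add_comm]; rfl
    have hsub := h.add h'
    rw [← Prod.fst_add, e] at hsub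
    rw [e]
    by_cases hN2 : NonEss r (αx + βx) (αm + βm)
    · exact Or.inl (absorb hAcc hτ (hV.add hV') (hZ.add hZ') hT2 hN2 hS hsub)
    · exact Or.inr ⟨_, _, _, _, _, hV.add hV', hZ.add hZ', hT2, hN2, rfl⟩

theorem not01 : ¬ S.InD (0, 1) := by
  have hK := S.hK
  rintro ⟨g, hg, ⟨U, hV, hA, he⟩ | ⟨U, r, a, αx, αm, hV, hZ, hT, hN, he⟩⟩
  · obtain ⟨e1, e2⟩ := Prod.ext_iff.1 he
    have h' : S.Sub ∅ (S.bd U + S.sg none (fun _ => S.d0) 0 0) := by
      rw [sg_zero, add_zero]; dsimp only at e1; rw [← e1]; intro v hv; exact absurd rfl hv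
    have : S.cst U = 0 := by
      refine sum_eq_zero fun ρ _ => ?_
      split_ifs
      · rw [← (hA ρ 0).2.2 0 (by omega)]
        refine sum_congr rfl fun d _ => ?_
        by_contra hc
        obtain ⟨z, hz, -⟩ := locR h' (ρ := ρ) (i := 0) (d := d) (t := g ρ 0) (j := 0)
          (by have := hg ρ 0; omega) (by omega) (by simpa [F_add_eq0] using Ne.symm hc)
        simp at hz
      · rfl
    rw [this] at e2
    exact one_ne_zero e2
  · obtain ⟨e1, -⟩ := Prod.ext_iff.1 he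
    have h' : S.Sub ∅ (S.bd U + S.sg r a αx αm) := by
      dsimp only at e1; rw [← e1]; intro v hv; exact absurd rfl hv
    obtain ⟨z, hz, -⟩ := locB hg hZ hT hN h' (j := 0) (by omega)
    simp at hz

end Sys

end

end Vale.Agent.P310
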