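import Vale.Agent.P310.CFI

/-! Spoiler's side: what equivalence forces. -/

namespace Vale.Agent.P310

open Classical Finset

noncomputable section

theorem pigeon {W : Type} [Finite W] (P : ℕ → W → Prop) (hm : ∀ r w, P (r + 1) w → P r w)
    (h : ∀ r, ∃ w, P r w) : ∃ w, ∀ r, P r w := by
  by_contra hc
  push Not at hc
  choose f hf using hc
  obtain ⟨B, hB⟩ := (Set.finite_range f).bddAbove
  obtain ⟨w, hw⟩ := h B
  have : ∀ r r', r ≤ r' → P r' w → P r w := by
    intro r r' hle
    induction r', hle using Nat.le_induction with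
    | base => exact id
    | succ n _ ih => exact fun h => ih (hm _ _ h)
  exact hf w (this _ _ (hB ⟨w, rfl⟩) hw)

section
variable {W : Type} [Fintype W] {k : ℕ} {G H : SimpleGraph W}

def Same (G H : SimpleGraph W) (x y : Fin k → W) : Prop := ∀ r, col G r x = col H r y

theorem Same.forth {x y : Fin k → W} (h : Same G H x y) (w : W) :
    ∃ w', ∀ l, Same G H (Function.update x l w) (Function.update y l w') := by
  obtain ⟨w', hw'⟩ := pigeon
    (fun r w' => ∀ l, col G r (Function.update x l w) = col H r (Function.update y l w'))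
    (fun r w' h l => congrArg Prod.fst (h l)) (fun r => by
      have h1 := congrArg Prod.snd (h (r + 1))
      simp only [col] at h1
      have h2 : (fun i => col G r (Function.update x i w)) ∈
          (univ.val.map fun w : W => fun i : Fin k => col G r (Function.update x i w)) :=
        Multiset.mem_map.2 ⟨w, mem_univ w, rfl⟩
      rw [h1] at h2
      obtain ⟨w', -, h3⟩ := Multiset.mem_map.1 h2
      exact ⟨w', fun l => (congrFun h3 l).symm⟩)
  exact ⟨w', fun l r => hw' r l⟩

theorem WLEquiv.init (h : WLEquiv k G H) (x : Fin k → W) : ∃ y, Same G H x y :=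
  pigeon (fun r y => col G r x = col H r y) (fun _ _ h => congrArg Prod.fst h) fun r => by
    have h2 : col G r x ∈ (univ : Finset (Fin k → W)).val.map (col G r) :=
      Multiset.mem_map.2 ⟨x, mem_univ x, rfl⟩
    rw [h r] at h2
    obtain ⟨y, -, h3⟩ := Multiset.mem_map.1 h2
    exact ⟨y, h3.symm⟩

theorem Same.adj {x y : Fin k → W} (h : Same G H x y) (i j : Fin k) :
    G.Adj (x i) (x j) ↔ H.Adj (y i) (y j) :=
  (congrArg Prod.snd (congrFun (congrFun (h 0) i) j)).to_iff

theorem Same.deg (hk : 2 ≤ k) {x y : Fin k → W} (h : Same G H x y) (i : Fin k) :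
    (univ.filter (G.Adj (x i))).card = (univ.filter (H.Adj (y i))).card := by
  haveI : Nontrivial (Fin k) := Fin.nontrivial_iff_two_le.2 hk
  obtain ⟨l, hl⟩ := exists_ne i
  have h0 : (univ.val.map fun w : W => fun i : Fin k => col G 0 (Function.update x i w)) =
      univ.val.map fun w : W => fun i : Fin k => col H 0 (Function.update y i w) :=
    congrArg Prod.snd (h 1)
  have h1 := congrArg (Multiset.countP fun c : Fin k → Col k 0 => (c l i l).2) h0
  rw [Multiset.countP_map, Multiset.countP_map] at h1
  simp only [col, Function.update_self, Function.update_of_ne hl.symm] at h1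
  exact h1

theorem col_comap {W' : Type} [Fintype W'] (e : W' ≃ W) (G : SimpleGraph W) (r : ℕ) :
    ∀ x : Fin k → W', col (G.comap e) r x = col G r (e ∘ x) := by
  induction r with
  | zero =>
    intro x
    funext i j
    simp [col]
  | succ r ih =>
    intro x
    refine Prod.ext (ih x) ?_
    simp only [col]
    conv_rhs => rw [← Multiset.map_univ_val_equiv e, Multiset.map_map]
    refine Multiset.map_congr rfl fun w _ => funext fun i => ?_
    rw [ih, Function.comp_update]
    rfl

theorem wl_comap {W' : Type} [Fintype W'] (e : W' ≃ W) :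
    WLEquiv k (G.comap e) (H.comap e) ↔ WLEquiv k G H := by
  have : ∀ (G : SimpleGraph W) r, (univ : Finset (Fin k → W')).val.map (col (G.comap e) r) =
      (univ : Finset (Fin k → W)).val.map (col G r) := by
    intro G r
    conv_rhs => rw [← Multiset.map_univ_val_equiv (Equiv.piCongrRight fun _ : Fin k => e),
      Multiset.map_map]
    exact Multiset.map_congr rfl fun x _ => col_comap e G r x
  simp only [WLEquiv, this]

end

namespace CFI

variable {Z V : Type} (C : CFI Z V) [Fintype Z]

theorem card_le : Fintype.card (Z × (Fin 5 → F)) ≤ 32 * C.M := by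
  have : Fintype.card Z ≤ Fintype.card (Fin C.M) :=
    Fintype.card_le_of_injective (fun z => ⟨C.β z, C.βlt z⟩) fun z z' h =>
      C.βinj (congrArg Fin.val h)
  simp only [Fintype.card_prod, Fintype.card_pi, ZMod.card, prod_const, card_univ,
    Fintype.card_fin] at this ⊢
  omega

theorem deg_split (fl : F) (w : C.Vt) : (univ.filter ((C.graph fl).Adj w)).card =
    (univ.filter fun u => C.adj fl w (.inl u)).card +
      (univ.filter fun j => C.adj fl w (.inr j)).card := by
  simp only [card_filter]
  exact Fintype.sum_sum_type _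

theorem deg_inl (fl : F) (w : Z × (Fin 5 → F)) :
    32 * C.M * (C.β w.1 + 2) ≤ (univ.filter ((C.graph fl).Adj (.inl w))).card ∧
    (univ.filter ((C.graph fl).Adj (.inl w))).card < 32 * C.M * (C.β w.1 + 3) := by
  rw [deg_split]
  have h1 : (univ.filter fun j => C.adj fl (.inl w) (.inr j)).card = 32 * C.M * (C.β w.1 + 2) := by
    have h2 : 32 * C.M * (C.β w.1 + 2) ≤ C.N :=
      le_trans (Nat.mul_le_mul_left _ (by have := C.βlt w.1; omega)) C.hN
    have := Fin.card_filter_val_lt (n := C.N) (m := 32 * C.M * (C.β w.1 + 2))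
    rw [min_eq_right h2] at this
    rw [← this]
    congr 1
    ext j
    simp only [mem_filter, mem_univ, true_and]
    rfl
  have h2 : (univ.filter fun u => C.adj fl (.inl w) (.inl u)).card < 32 * C.M := by
    refine lt_of_lt_of_le ?_ C.card_le
    refine card_lt_card (filter_ssubset.2 ⟨w, mem_univ _, fun h => h.1 rfl⟩)
  rw [h1, mul_add, mul_add]
  omega

theorem deg_inr (fl : F) (j : Fin C.N) :
    (univ.filter ((C.graph fl).Adj (.inr j))).card ≤ 32 * C.M := by
  rw [deg_split]
  have h1 : (univ.filter fun j' => C.adj fl (.inr j) (.inr j')).card = 0 :=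
    card_eq_zero.2 (filter_eq_empty_iff.2 fun _ _ h => h)
  have h2 := (card_le_univ (univ.filter fun u => C.adj fl (.inr j) (.inl u))).trans C.card_le
  omega

variable {C} {k : ℕ}

theorem same_cell (hk : 2 ≤ k) {x y : Fin k → C.Vt} (h : Same (C.graph 0) (C.graph 1) x y)
    {i : Fin k} {z : Z} {b : Fin 5 → F} (hx : x i = .inl (z, b)) : ∃ b', y i = .inl (z, b') := by
  have h1 := h.deg hk i
  have h2 := C.deg_inl 0 (z, b)
  have hM := C.βlt z
  rw [hx] at h1
  rw [h1] at h2
  rcases hy : y i with ⟨z', b'⟩ | j
  · have h3 := C.deg_inl 1 (z', b')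
    rw [hy] at h2
    have a1 := Nat.lt_of_mul_lt_mul_left (lt_of_le_of_lt h2.1 h3.2)
    have a2 := Nat.lt_of_mul_lt_mul_left (lt_of_le_of_lt h3.1 h2.2)
    dsimp only at a1 a2
    rw [C.βinj (show C.β z' = C.β z by omega)]
    exact ⟨b', rfl⟩
  · have h3 := C.deg_inr 1 j
    rw [hy] at h2
    have := h2.1.trans h3
    dsimp only at this
    nlinarith

variable (C) in
def Pos (c : Fin k → Z) (b : Fin k → Fin 5 → F) : Prop :=
  Same (C.graph 0) (C.graph 1) (fun j => .inl (c j, 0)) (fun j => .inl (c j, b j))

theorem pos_init (hk : 2 ≤ k) (h : WLEquiv k (C.graph 0) (C.graph 1)) (c : Fin k → Z) :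
    ∃ b, C.Pos c b := by
  obtain ⟨y, hy⟩ := h.init fun j => .inl (c j, 0)
  choose b hb using fun j => same_cell hk hy (i := j) rfl
  exact ⟨b, by rwa [show y = fun j => .inl (c j, b j) from funext hb] at hy⟩

omit [Fintype Z] in
theorem adj_zero {z z' : Z} (h : z ≠ z') : C.adj 0 (.inl (z, 0)) (.inl (z', 0)) :=
  ⟨h, fun p p' v _ _ => by simp [val]⟩

theorem Pos.share {c : Fin k → Z} {b : Fin k → Fin 5 → F} (h : C.Pos c b) {l l' : Fin k}
    (hne : c l ≠ c l') {p p' : Fin 5} {v : V} (hp : C.port (c l) p = some v)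
    (hp' : C.port (c l') p' = some v) : C.val 1 (c l) (b l) p = C.val 1 (c l') (b l') p' :=
  ((Same.adj h l l').1 (adj_zero hne)).2 p p' v hp hp'

theorem Pos.step (hk : 2 ≤ k) {c : Fin k → Z} {b : Fin k → Fin 5 → F} (h : C.Pos c b) (j : Fin k)
    (z : Z) : ∃ b', C.Pos (Function.update c j z) (Function.update b j b') ∧
      (c j ≠ z → ∀ p p' v, C.port (c j) p = some v → C.port z p' = some v →
        C.val 1 (c j) (b j) p = C.val 1 z b' p') := by
  obtain ⟨w', hw⟩ := Same.forth h (.inl (z, 0))
  obtain ⟨b', hb'⟩ := same_cell hk (hw j) (i := j) (Function.update_self ..)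
  rw [Function.update_self] at hb'
  subst hb'
  refine ⟨b', ?_, fun hne => ?_⟩
  · have := hw j
    unfold Pos
    convert this using 1 <;> funext l <;> by_cases c1 : l = j
    · subst c1; simp
    · simp [Function.update_of_ne c1]
    · subst c1; simp
    · simp [Function.update_of_ne c1]
  · haveI : Nontrivial (Fin k) := Fin.nontrivial_iff_two_le.2 hk
    obtain ⟨l, hl⟩ := exists_ne j
    have := (hw l).adj j l
    simp only [Function.update_self, Function.update_of_ne hl.symm] at this
    exact (this.1 (adj_zero hne)).2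

theorem Pos.move (hk : 2 ≤ k) {c c' : Fin k → Z} {b : Fin k → Fin 5 → F} (h : C.Pos c b)
    {ps ps' : Fin k → Fin 5} {vs : Fin k → V} (hp : ∀ j, C.port (c j) (ps j) = some (vs j))
    (hp' : ∀ j, C.port (c' j) (ps' j) = some (vs j)) (hne : ∀ j, c j = c' j → ps j = ps' j) :
    ∃ b', C.Pos c' b' ∧ ∀ j, C.val 1 (c' j) (b' j) (ps' j) = C.val 1 (c j) (b j) (ps j) := by
  have key : ∀ s : Finset (Fin k), ∃ b', C.Pos (fun j => if j ∈ s then c' j else c j) b' ∧
      ∀ j, (j ∈ s → C.val 1 (c' j) (b' j) (ps' j) = C.val 1 (c j) (b j) (ps j)) ∧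
        (j ∉ s → b' j = b j) := by
    intro s
    induction s using Finset.induction_on with
    | empty => exact ⟨b, by simpa using h, fun j => ⟨by simp, fun _ => rfl⟩⟩
    | insert j s hj ih =>
      obtain ⟨b', h1, h2⟩ := ih
      by_cases c1 : c j = c' j
      · refine ⟨b', ?_, fun l => ⟨fun hl => ?_, fun hl => (h2 l).2 fun h => hl (by simp [h])⟩⟩
        · convert h1 using 2 with l
          by_cases c2 : l = j
          · subst c2; simp [c1]
          · simp [c2]
        · rcases mem_insert.1 hl with rfl | hl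
          · rw [(h2 l).2 hj, c1, hne l c1]
          · exact (h2 l).1 hl
      · obtain ⟨b'', h3, h4⟩ := h1.step hk j (c' j)
        refine ⟨Function.update b' j b'', ?_, fun l => ⟨fun hl => ?_, fun hl => ?_⟩⟩
        · convert h3 using 2 with l
          by_cases c2 : l = j
          · subst c2; simp
          · simp [c2]
        · rcases mem_insert.1 hl with rfl | hl'
          · simp only [hj, if_false] at h4
            rw [Function.update_self, ← h4 c1 _ _ _ (hp l) (hp' l), (h2 l).2 hj]
          · rw [Function.update_of_ne (fun h : l = j => hj (h ▸ hl'))]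
            exact (h2 l).1 hl'
        · rw [Function.update_of_ne (by rintro rfl; exact hl (mem_insert_self _ _))]
          exact (h2 l).2 fun h => hl (by simp [h])
  obtain ⟨b', h1, h2⟩ := key univ
  exact ⟨b', by simpa using h1, fun j => (h2 j).1 (mem_univ _)⟩

omit [Fintype Z] in
theorem val_sum (z : Z) (b : Fin 5 → F) (h : (C.port z (C.dep z)).isSome) :
    (∑ p, if (C.port z p).isSome then C.val 1 z b p else 0) = C.tw z := by
  rw [← add_sum_erase _ _ (mem_univ (C.dep z)), if_pos h, ← filter_ne', sum_filter]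
  have : (∑ p, if p ≠ C.dep z then (if (C.port z p).isSome then C.val 1 z b p else 0) else 0) =
      ∑ p', if p' ≠ C.dep z ∧ (C.port z p').isSome then b p' else 0 := by
    refine sum_congr rfl fun p _ => ?_
    by_cases c : p = C.dep z
    · simp [c]
    · simp [c, val]
  rw [this]
  simp only [val, if_true]
  grind

end CFI

end

end Vale.Agent.P310
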