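import Vale.Agent.P310.Loc
import Vale.Agent.P310.Game

/-! If the system accepts, the two graphs are not equivalent. -/

namespace Vale.Agent.P310

open Classical Finset

noncomputable section

theorem tele {K : ℕ} (f g : Fin K → F) (h : ∀ j j' : Fin K, j'.val = j.val + 1 → f j' = g j) :
    (∑ j, if j.val = 0 then 0 else f j) = ∑ j, if j.val + 1 < K then g j else 0 := by
  cases K with
  | zero => simp
  | succ K =>
    rw [Fin.sum_univ_succ, Fin.sum_univ_castSucc]
    simp only [Fin.val_zero, if_true, zero_add, Fin.val_succ, Nat.add_eq_zero_iff, one_ne_zero,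
      and_false, if_false, Fin.val_castSucc, Nat.add_lt_add_iff_right, Fin.is_lt, Fin.val_last,
      lt_self_iff_false, add_zero]
    exact sum_congr rfl fun j _ => h _ _ rfl

namespace Sys

variable {R P G D : Type} {S : Sys R P G D} [Fintype S.Cell] {C : CFI S.Cell (Var R P D)}

def Forced (C : CFI S.Cell (Var R P D)) (vs : Fin S.K → Var R P D) : Prop :=
  ∀ c b (ps : Fin S.K → Fin 5), C.Pos c b → (∀ j, C.port (c j) (ps j) = some (vs j)) →
    ∑ j, C.val 1 (c j) (b j) (ps j) = 0

def colc (ρ : R) (i : Fin 4) (t : ℕ) (ht : t ≤ S.T) (a : G → D) (j : Fin S.K) : S.Cell :=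
  ⟨ρ, i, t, j, a (S.gam j), ht, j.2⟩

theorem column (hp : C.port = S.port) (hd : C.dep = S.dep) (ht : C.tw = S.tw) {ρ : R} {i : Fin 4}
    {t : ℕ} (htT : t < S.T) {a : G → D} {b : Fin S.K → Fin 5 → F}
    (h : C.Pos (colc ρ i t htT.le a) b) :
    ∑ j, C.val 1 (colc ρ i t htT.le a j) (b j) 3 =
      ∑ j, if (C.port (colc ρ i t htT.le a j) 0).isSome then
        C.val 1 (colc ρ i t htT.le a j) (b j) 0 else 0 := by
  set c := colc ρ i t htT.le a with hc
  have h1 : ∀ j, C.val 1 (c j) (b j) 3 =
      (if (C.port (c j) 0).isSome then C.val 1 (c j) (b j) 0 else 0) +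
      ((if j.val = 0 then 0 else C.val 1 (c j) (b j) 1) +
        if j.val + 1 < S.K then C.val 1 (c j) (b j) 2 else 0) := by
    intro j
    have := C.val_sum (c j) (b j) (by simp [hp, hd, hc, colc, port, dep, htT, mport])
    rw [Fin.sum_univ_five] at this
    have e1 : (C.port (c j) 1).isSome ↔ ¬ j.val = 0 := by
      simp only [hp, hc, colc, port, htT, if_true, mport]; split_ifs <;> simp [*]
    have e2 : (C.port (c j) 2).isSome ↔ j.val + 1 < S.K := by
      simp only [hp, hc, colc, port, htT, if_true, mport]; split_ifs <;> simp [*]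
    have e3 : (C.port (c j) 3).isSome := by simp [hp, hc, colc, port, htT, mport]
    have e4 : ¬ (C.port (c j) 4).isSome := by simp [hp, hc, colc, port, htT, mport]
    have e5 : C.tw (c j) = 0 := by simp [ht, hc, colc, tw, htT.ne]
    simp only [e1, e2, e3, e4, e5, if_true, ite_not] at this
    grind
  simp only [h1, sum_add_distrib]
  rw [tele (fun j => C.val 1 (c j) (b j) 1) (fun j => C.val 1 (c j) (b j) 2), F_add_self, add_zero]
  intro j j' hj
  refine h.share (v := .v ρ i t j (S.key j (a (S.gam j)))) (fun hh => ?_) ?_ ?_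
  · have := congrArg Cell.j hh
    simp only [hc, colc] at this
    omega
  · simp only [hp, hc, colc, port, htT, if_true, mport, hj, Nat.add_eq_zero_iff, one_ne_zero,
      and_false, if_false, Nat.add_sub_cancel, key]
    split_ifs with c1
    · rw [c1]
    · rfl
  · have := j'.2
    simp only [hp, hc, colc, port, htT, if_true, mport]
    rw [if_pos (by omega)]

theorem forced_h (hp : C.port = S.port) (hd : C.dep = S.dep) (ht : C.tw = S.tw) {ρ : R}
    {i : Fin 4} {a : G → D}
    (h : ∀ p, S.src ρ i = some p → Forced C fun j => .x p j (S.act ρ a (S.gam j))) (t : ℕ)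
    (htT : t < S.T) : Forced C fun j => .h ρ i t j (a (S.gam j)) := by
  induction t with
  | zero =>
    intro c b ps h1 h2
    obtain ⟨b', h3, h4⟩ := h1.move S.hK (c' := colc ρ i 0 htT.le a) (ps' := fun _ => 3) h2
      (fun j => by simp [hp, colc, port, htT, mport]) fun j hj => by
        have := (port_h (hp ▸ h2 j)).2.2.2
        simp only [hj, colc] at this
        omega
    simp only [← h4]
    rw [column hp hd ht htT h3]
    cases hs : S.src ρ i with
    | none => simp [hp, colc, port, htT, mport, hs]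
    | some p =>
      have e : ∀ j, C.port (colc ρ i 0 htT.le a j) 0 = some (.x p j (S.act ρ a (S.gam j))) := by
        intro j; simp [hp, colc, port, htT, mport, hs, act]
      simp only [e, Option.isSome_some, if_true]
      exact h p hs _ b' (fun _ => 0) h3 e
  | succ t ih =>
    intro c b ps h1 h2
    obtain ⟨b', h3, h4⟩ := h1.move S.hK (c' := colc ρ i (t + 1) htT.le a) (ps' := fun _ => 3) h2
      (fun j => by simp [hp, colc, port, htT, mport]) fun j hj => by
        have := (port_h (hp ▸ h2 j)).2.2.2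
        simp only [hj, colc] at this
        omega
    simp only [← h4]
    rw [column hp hd ht htT h3]
    have e : ∀ j, C.port (colc ρ i (t + 1) htT.le a j) 0 = some (.h ρ i t j (a (S.gam j))) := by
      intro j; simp [hp, colc, port, htT, mport]
    simp only [e, Option.isSome_some, if_true]
    exact ih (by omega) _ b' (fun _ => 0) h3 e

theorem sum_four (hp : C.port = S.port) (hd : C.dep = S.dep) (ht : C.tw = S.tw) {ρ : R}
    {a : G → D} (h : ∀ i p, S.src ρ i = some p → Forced C fun j => .x p j (S.act ρ a (S.gam j)))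
    {b : Fin S.K → Fin 5 → F} (h3 : C.Pos (colc ρ 0 S.T le_rfl a) b) :
    ∑ j, C.val 1 (colc ρ 0 S.T le_rfl a j) (b j) 0 + ∑ j, C.val 1 (colc ρ 0 S.T le_rfl a j) (b j) 1
      + ∑ j, C.val 1 (colc ρ 0 S.T le_rfl a j) (b j) 2 +
      ∑ j, C.val 1 (colc ρ 0 S.T le_rfl a j) (b j) 3 = 0 := by
  have hT := S.T_ge
  rw [forced_h hp hd ht (h 0) (S.T - 1) (by omega) _ b (fun _ => 0) h3,
    forced_h hp hd ht (h 1) (S.T - 1) (by omega) _ b (fun _ => 1) h3,
    forced_h hp hd ht (h 2) (S.T - 1) (by omega) _ b (fun _ => 2) h3,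
    forced_h hp hd ht (h 3) (S.T - 1) (by omega) _ b (fun _ => 3) h3]
  · rfl
  all_goals intro j; simp [hp, colc, port, sport]

theorem forced_x (hp : C.port = S.port) (hd : C.dep = S.dep) (ht : C.tw = S.tw) {r : P}
    {a : G → D} (h : S.Tr r a) : Forced C fun j => .x r j (a (S.gam j)) := by
  induction h with
  | mk ρ r a hh hg _ ih =>
    have hT := S.T_ge
    intro c b ps h1 h2
    obtain ⟨b', h3, h4⟩ := h1.move S.hK (c' := colc ρ 0 S.T le_rfl a) (ps' := fun _ => 4) h2
      (fun j => by simp [hp, colc, port, sport, hh, hg]) fun j hj => by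
        have := (port_x (hp ▸ h2 j)).2
        simp only [hj, colc] at this
        omega
    simp only [← h4]
    set c' := colc ρ 0 S.T le_rfl a with hc
    have h5 : ∀ j, C.val 1 (c' j) (b' j) 4 = C.val 1 (c' j) (b' j) 0 + C.val 1 (c' j) (b' j) 1 +
        C.val 1 (c' j) (b' j) 2 + C.val 1 (c' j) (b' j) 3 := by
      intro j
      have := C.val_sum (c' j) (b' j) (by simp [hp, hd, hc, colc, port, dep, sport, hh, hg])
      rw [Fin.sum_univ_five] at this
      have e : ∀ p, (C.port (c' j) p).isSome := by
        intro p; fin_cases p <;> simp [hp, hc, colc, port, sport, hh, hg]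
      have e5 : C.tw (c' j) = 0 := by simp [ht, hc, colc, tw, hh]
      simp only [e, e5, if_true] at this
      grind
    simp only [h5, sum_add_distrib]
    exact sum_four hp hd ht ih h3

theorem complete (hAcc : S.Accept) (C : CFI S.Cell (Var R P D))
    (hp : C.port = S.port) (hd : C.dep = S.dep) (ht : C.tw = S.tw) :
    ¬ WLEquiv S.K (C.graph 0) (C.graph 1) := by
  intro hW
  obtain ⟨ρ, a, hh, hpr⟩ := hAcc
  obtain ⟨b, h3⟩ := CFI.pos_init S.hK hW (colc ρ 0 S.T le_rfl a)
  set c' := colc ρ 0 S.T le_rfl a with hc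
  have h5 : ∀ j, C.val 1 (c' j) (b j) 0 + C.val 1 (c' j) (b j) 1 +
      C.val 1 (c' j) (b j) 2 + C.val 1 (c' j) (b j) 3 = if j.val = 0 then 1 else 0 := by
    intro j
    have := C.val_sum (c' j) (b j) (by simp [hp, hd, hc, colc, port, dep, sport, hh])
    rw [Fin.sum_univ_five] at this
    have e : ∀ p, p ≠ 4 → (C.port (c' j) p).isSome := by
      intro p; fin_cases p <;> simp [hp, hc, colc, port, sport]
    have e4 : ¬ (C.port (c' j) 4).isSome := by simp [hp, hc, colc, port, sport, hh]
    have e5 : C.tw (c' j) = if j.val = 0 then 1 else 0 := by simp [ht, hc, colc, tw, hh]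
    rw [if_pos (e 0 (by decide)), if_pos (e 1 (by decide)), if_pos (e 2 (by decide)),
      if_pos (e 3 (by decide)), if_neg e4, e5, add_zero] at this
    exact this
  have h6 := sum_congr (s₁ := univ) rfl fun j _ => h5 j
  simp only [sum_add_distrib] at h6
  rw [sum_four hp hd ht (fun i p hs => forced_x hp hd ht (hpr i p hs)) h3,
    sum_eq_single ⟨0, by have := S.hK; omega⟩] at h6
  · simp at h6
  · intro j _ hj
    rw [if_neg fun h => hj (Fin.ext h)]
  · simp

end Sys

end

end Vale.Agent.P310
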