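import Mathlib

namespace Vale.Agent.P310

/-- The type of colours after `r` rounds of `k`-dimensional refinement. -/
def Col (k : ℕ) : ℕ → Type
  | 0 => Fin k → Fin k → Prop × Prop
  | r + 1 => Col k r × Multiset (Fin k → Col k r)

/-- The colour `C_r(x)` of the tuple `x` in the graph `G` (joint update). -/
def col {V : Type} [Fintype V] {k : ℕ} (G : SimpleGraph V) : (r : ℕ) → (Fin k → V) → Col k r
  | 0, x => fun i j => (x i = x j, G.Adj (x i) (x j))
  | r + 1, x =>
    (col G r x, Finset.univ.val.map fun y : V => fun i : Fin k => col G r (Function.update x i y))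

/-- `k`-WL equivalence: the colour multisets agree in every round. -/
def WLEquiv {V : Type} [Fintype V] (k : ℕ) (G H : SimpleGraph V) : Prop :=
  ∀ r : ℕ, (Finset.univ : Finset (Fin k → V)).val.map (col G r) =
    (Finset.univ : Finset (Fin k → V)).val.map (col H r)

open Classical in
/-- The adjacency matrix, row by row. -/
noncomputable def adjBits {n : ℕ} (G : SimpleGraph (Fin n)) : List Bool :=
  (List.finRange n).flatMap fun i => (List.finRange n).map fun j => decide (G.Adj i j)

open Classical in
/-- Started on the two adjacency matrices, `A` reaches within `t` steps a halting configuration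
whose output stack has on top the symbol saying whether `G` and `H` are `k`-WL equivalent. -/
def Answers (k : ℕ) (A : Turing.FinTM2) (ei : Bool → A.Γ A.k₀) (eo : Bool → A.Γ A.k₁) {n : ℕ}
    (G H : SimpleGraph (Fin n)) (t : ℕ) : Prop :=
  ∃ c : A.Cfg, Nonempty (StateTransition.EvalsToInTime A.step
      (Turing.initList A ((adjBits G ++ adjBits H).map ei)) (some c) t) ∧
    c.l = none ∧ (c.stk A.k₁).head? = some (eo (decide (WLEquiv k G H)))

/-- Every machine deciding `k`-WL equivalence needs, for every sufficiently large order `n`,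
at least `n ^ e` steps on some pair of graphs of order `n`. -/
def TimeLB (k : ℕ) (e : ℝ) : Prop :=
  ∀ (A : Turing.FinTM2) (ei : Bool → A.Γ A.k₀) (eo : Bool → A.Γ A.k₁), Function.Injective eo →
    (∀ (n : ℕ) (G H : SimpleGraph (Fin n)), ∃ t, Answers k A ei eo G H t) →
    ∃ n₀ : ℕ, ∀ n ≥ n₀, ∃ G H : SimpleGraph (Fin n),
      ∀ t : ℕ, Answers k A ei eo G H t → (n : ℝ) ^ e ≤ t

end Vale.Agent.P310
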