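import Vale.Agent.P310.Expr

/-! Derived operations on expressions. -/

namespace Vale.Agent.P310

open Classical Finset

noncomputable section

namespace Ex

def zero : Ex := par 0
def one : Ex := par 2
def num : ℕ → Ex
  | 0 => zero
  | n + 1 => add (num n) one
def emod (a b : Ex) : Ex := sub a (mul b (div a b))
def emin (a b : Ex) : Ex := sub a (sub a b)
def eeq (a b : Ex) : Ex := sub one (add (sub a b) (sub b a))
def elt (a b : Ex) : Ex := sub b a
def enot (a : Ex) : Ex := sub one a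
def eimp (a b : Ex) : Ex := add (enot a) b
def eif (c a b : Ex) : Ex := add (mul (enot (enot c)) a) (mul (enot c) b)
def sel (a : Ex) : ℕ → Ex
  | 0 => zero
  | n + 1 => eif (eeq a (num n)) (par n) (sel a n)
def sum5 (f : Fin 5 → Ex) : Ex := add (add (add (add (f 0) (f 1)) (f 2)) (f 3)) (f 4)
def all5 (f : Fin 5 → Ex) : Ex := mul (mul (mul (mul (f 0) (f 1)) (f 2)) (f 3)) (f 4)

abbrev E6 := Ex × Ex × Ex × Ex × Ex × Ex
abbrev N6 := ℕ × ℕ × ℕ × ℕ × ℕ × ℕ

def eif6 (c : Ex) (a b : E6) : E6 :=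
  (eif c a.1 b.1, eif c a.2.1 b.2.1, eif c a.2.2.1 b.2.2.1, eif c a.2.2.2.1 b.2.2.2.1,
    eif c a.2.2.2.2.1 b.2.2.2.2.1, eif c a.2.2.2.2.2 b.2.2.2.2.2)

def eq6 (a b : E6) : Ex :=
  mul (eeq a.1 b.1) (mul (eeq a.2.1 b.2.1) (mul (eeq a.2.2.1 b.2.2.1) (mul (eeq a.2.2.2.1 b.2.2.2.1)
    (mul (eeq a.2.2.2.2.1 b.2.2.2.2.1) (eeq a.2.2.2.2.2 b.2.2.2.2.2)))))

def ev6 (cv : ℕ → ℕ) (x : ℕ) (a : E6) : N6 :=
  (eval cv x a.1, eval cv x a.2.1, eval cv x a.2.2.1, eval cv x a.2.2.2.1, eval cv x a.2.2.2.2.1,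
    eval cv x a.2.2.2.2.2)

def Tt (cv : ℕ → ℕ) (x : ℕ) (e : Ex) : Prop := eval cv x e ≠ 0

class Base (cv : ℕ → ℕ) : Prop where
  h0 : cv 0 = 0
  h2 : cv 2 = 1

variable {cv : ℕ → ℕ} {x : ℕ}

@[simp] theorem eval_par (j : ℕ) : eval cv x (par j) = cv j := rfl
@[simp] theorem eval_inp : eval cv x inp = x := rfl
@[simp] theorem eval_add (a b : Ex) : eval cv x (add a b) = eval cv x a + eval cv x b := rfl
@[simp] theorem eval_sub (a b : Ex) : eval cv x (sub a b) = eval cv x a - eval cv x b := rfl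
@[simp] theorem eval_mul (a b : Ex) : eval cv x (mul a b) = eval cv x a * eval cv x b := rfl
@[simp] theorem eval_div (a b : Ex) : eval cv x (div a b) = eval cv x a / eval cv x b := rfl
@[simp] theorem eval_emod (a b : Ex) : eval cv x (emod a b) = eval cv x a % eval cv x b :=
  (Nat.mod_def _ _).symm
@[simp] theorem eval_emin (a b : Ex) : eval cv x (emin a b) = min (eval cv x a) (eval cv x b) := by
  simp only [emin, eval]; omega
@[simp] theorem eval_sum5 (f : Fin 5 → Ex) : eval cv x (sum5 f) = ∑ p, eval cv x (f p) := by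
  simp [sum5, Fin.sum_univ_five]
@[simp] theorem Tt_elt (a b : Ex) : Tt cv x (elt a b) ↔ eval cv x a < eval cv x b := by
  simp only [Tt, elt, eval]; omega
@[simp] theorem Tt_mul (a b : Ex) : Tt cv x (mul a b) ↔ Tt cv x a ∧ Tt cv x b := by
  simp [Tt]
@[simp] theorem Tt_add (a b : Ex) : Tt cv x (add a b) ↔ Tt cv x a ∨ Tt cv x b := by
  simp only [Tt, eval]; omega
@[simp] theorem Tt_all5 (f : Fin 5 → Ex) : Tt cv x (all5 f) ↔ ∀ p, Tt cv x (f p) := by
  simp only [all5, Tt_mul]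
  exact ⟨fun ⟨⟨⟨⟨a, b⟩, c⟩, d⟩, e⟩ p => by fin_cases p <;> assumption,
    fun h => ⟨⟨⟨⟨h 0, h 1⟩, h 2⟩, h 3⟩, h 4⟩⟩
@[simp] theorem ev6_mk (a b c d e f : Ex) : ev6 cv x (a, b, c, d, e, f) =
    (eval cv x a, eval cv x b, eval cv x c, eval cv x d, eval cv x e, eval cv x f) := rfl

variable [hb : Base cv]

@[simp] theorem eval_zero : eval cv x zero = 0 := hb.h0
@[simp] theorem eval_one : eval cv x one = 1 := hb.h2
@[simp] theorem eval_num (n : ℕ) : eval cv x (num n) = n := by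
  induction n with
  | zero => exact eval_zero
  | succ n ih => simp [num, ih]
@[simp] theorem Tt_eeq (a b : Ex) : Tt cv x (eeq a b) ↔ eval cv x a = eval cv x b := by
  simp only [Tt, eeq, eval_sub, eval_add, eval_one]; omega
@[simp] theorem Tt_enot (a : Ex) : Tt cv x (enot a) ↔ ¬ Tt cv x a := by
  simp only [Tt, enot, eval_sub, eval_one]; omega
@[simp] theorem Tt_eimp (a b : Ex) : Tt cv x (eimp a b) ↔ (Tt cv x a → Tt cv x b) := by
  simp only [eimp, Tt_add, Tt_enot]; tauto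
@[simp] theorem Tt_zero : ¬ Tt cv x zero := by simp [Tt]
@[simp] theorem eval_eif (c a b : Ex) :
    eval cv x (eif c a b) = if Tt cv x c then eval cv x a else eval cv x b := by
  simp only [eif, enot, eval_add, eval_mul, eval_sub, eval_one]
  split_ifs with h
  · rw [show 1 - eval cv x c = 0 by unfold Tt at h; omega]; simp
  · rw [show eval cv x c = 0 from not_not.1 h]; simp
@[simp] theorem Tt_eif (c a b : Ex) :
    Tt cv x (eif c a b) ↔ if Tt cv x c then Tt cv x a else Tt cv x b := by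
  conv_lhs => rw [Tt, eval_eif]
  split_ifs <;> rfl
@[simp] theorem eval_sel (a : Ex) (n : ℕ) :
    eval cv x (sel a n) = if eval cv x a < n then cv (eval cv x a) else 0 := by
  induction n with
  | zero => simp [sel]
  | succ n ih =>
    simp only [sel, eval_eif, Tt_eeq, eval_num, eval_par, ih]
    split_ifs <;> first | rfl | omega | simp [*]
@[simp] theorem ev6_eif6 (c : Ex) (a b : E6) :
    ev6 cv x (eif6 c a b) = if Tt cv x c then ev6 cv x a else ev6 cv x b := by
  simp only [eif6, ev6, eval_eif]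
  split_ifs <;> rfl
@[simp] theorem Tt_eq6 (a b : E6) : Tt cv x (eq6 a b) ↔ ev6 cv x a = ev6 cv x b := by
  simp [eq6, ev6]

end Ex

end

end Vale.Agent.P310
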