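import Vale.Agent.P310.Reg

/-! Arithmetic expressions compiled to register programs. -/

namespace Vale.Agent.P310

open Classical Prog Function

noncomputable section

variable {B : Type}

def loop (y : ℕ) (P : Prog RA B) : Prog RA B := .seq (.star (.seq (.act (.dec y)) P)) (.act (.z y))
def move (y x : ℕ) : Prog RA B := loop y (.act (.inc x))
def clear (y : ℕ) : Prog RA B := loop y skip
def copy (y x w : ℕ) : Prog RA B := .seq (loop y (.seq (.act (.inc x)) (.act (.inc w)))) (move w y)

variable {cap cv : ℕ → ℕ} {J : B → (ℕ → ℕ) → Prop}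

theorem loop_unfold {y : ℕ} {P : Prog RA B} {s s' : ℕ → ℕ} :
    Run (step2 cap cv) J (loop y P) s s' ↔ (s y = 0 ∧ s' = s) ∨ (0 < s y ∧ ∃ s1,
      Run (step2 cap cv) J P (update s y (s y - 1)) s1 ∧ Run (step2 cap cv) J (loop y P) s1 s') := by
  constructor
  · rintro ⟨s1, h1, h2⟩
    rcases Relation.ReflTransGen.cases_head h1 with rfl | ⟨s2, ⟨s3, ⟨h3, rfl⟩, h4⟩, h5⟩
    · exact Or.inl h2
    · exact Or.inr ⟨h3, s2, h4, s1, h5, h2⟩
  · rintro (h | ⟨h1, s1, h2, s2, h3, h4⟩)
    · exact ⟨s, Relation.ReflTransGen.refl, h⟩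
    · exact ⟨s2, Relation.ReflTransGen.head ⟨_, ⟨h1, rfl⟩, h2⟩ h3, h4⟩

theorem loop_spec {y : ℕ} {P : Prog RA B} (N : ℕ) (g : ℕ → ℕ → ℕ) (ok : ℕ → Prop)
    (h1 : ∀ i, i ≤ N → g i y = N - i)
    (h2 : ∀ i, i < N → ∀ s', Run (step2 cap cv) J P (update (g i) y (N - i - 1)) s' ↔
      ok i ∧ s' = g (i + 1)) (s' : ℕ → ℕ) :
    Run (step2 cap cv) J (loop y P) (g 0) s' ↔ (∀ i, i < N → ok i) ∧ s' = g N := by
  have key : ∀ n i, i + n = N → (Run (step2 cap cv) J (loop y P) (g i) s' ↔
      (∀ l, i ≤ l → l < N → ok l) ∧ s' = g N) := by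
    intro n
    induction n with
    | zero =>
      intro i hi
      obtain rfl : i = N := hi
      rw [loop_unfold, h1 i le_rfl]
      simp only [Nat.sub_self, true_and, lt_self_iff_false, false_and, or_false, iff_and_self]
      intro _ l h3 h4; omega
    | succ n ih =>
      intro i hi
      rw [loop_unfold, h1 i (by omega)]
      simp only [h2 i (by omega), show N - i ≠ 0 by omega, false_and, false_or,
        show 0 < N - i by omega, true_and]
      constructor
      · rintro ⟨_, ⟨h3, rfl⟩, h4⟩
        obtain ⟨h5, h6⟩ := (ih (i + 1) (by omega)).1 h4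
        refine ⟨fun l h7 h8 => ?_, h6⟩
        rcases h7.eq_or_lt with rfl | h7
        · exact h3
        · exact h5 l h7 h8
      · rintro ⟨h3, h4⟩
        exact ⟨_, ⟨h3 i le_rfl (by omega), rfl⟩,
          (ih (i + 1) (by omega)).2 ⟨fun l h5 h6 => h3 l (by omega) h6, h4⟩⟩
  simpa using key N 0 (by simp)

theorem move_iff {y x : ℕ} (hxy : x ≠ y) (s s' : ℕ → ℕ) :
    Run (step2 cap cv) J (move y x) s s' ↔ (∀ i, i < s y → s x + i + 1 < cap x) ∧
      s' = update (update s y 0) x (s x + s y) := by
  have := loop_spec (cap := cap) (cv := cv) (J := J) (y := y) (P := .act (.inc x)) (s y)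
    (fun i => update (update s y (s y - i)) x (s x + i)) (fun i => s x + i + 1 < cap x)
    (fun i _ => by simp [hxy.symm]) (fun i _ s' => by
      simp only [Run, step2, update_of_ne hxy, update_self]
      refine and_congr Iff.rfl (Eq.congr_right ?_)
      funext q; simp only [update_apply]; split_ifs <;> omega) s'
  simpa [move] using this

theorem move_spec {y x : ℕ} (hxy : x ≠ y) {s : ℕ → ℕ} (h : s x + s y < cap x) (s' : ℕ → ℕ) :
    Run (step2 cap cv) J (move y x) s s' ↔ s' = update (update s y 0) x (s x + s y) := by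
  rw [move_iff hxy, and_iff_right]
  intro i hi; omega

theorem clear_spec {y : ℕ} (s s' : ℕ → ℕ) :
    Run (step2 cap cv) J (clear y) s s' ↔ s' = update s y 0 := by
  have := loop_spec (cap := cap) (cv := cv) (J := J) (y := y) (P := skip) (s y)
    (fun i => update s y (s y - i)) (fun _ => True)
    (fun i _ => by simp) (fun i _ s' => by simp [run_skip, Nat.sub_sub]) s'
  simpa [clear] using this

theorem geq_iff {y x : ℕ} (hxy : x ≠ y) (s s' : ℕ → ℕ) :
    Run (step2 cap cv) J (loop y (.act (.dec x))) s s' ↔ s y ≤ s x ∧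
      s' = update (update s y 0) x (s x - s y) := by
  have := loop_spec (cap := cap) (cv := cv) (J := J) (y := y) (P := .act (.dec x)) (s y)
    (fun i => update (update s y (s y - i)) x (s x - i)) (fun i => i < s x)
    (fun i _ => by simp [hxy.symm]) (fun i _ s' => by
      simp only [Run, step2, update_of_ne hxy, update_self, Nat.sub_pos_iff_lt]
      refine and_congr Iff.rfl (Eq.congr_right ?_)
      funext q; simp only [update_apply]; split_ifs <;> omega) s'
  simp only [Nat.sub_zero, update_eq_self, Nat.sub_self] at this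
  rw [this]
  refine and_congr ⟨fun h => ?_, fun h i hi => by omega⟩ Iff.rfl
  by_contra hc
  have := h (s x) (by omega)
  omega

theorem monus_spec {y x : ℕ} (hxy : x ≠ y) (s s' : ℕ → ℕ) :
    Run (step2 cap cv) J (loop y (.alt (.act (.dec x)) (.act (.z x)))) s s' ↔
      s' = update (update s y 0) x (s x - s y) := by
  have := loop_spec (cap := cap) (cv := cv) (J := J) (y := y)
    (P := .alt (.act (.dec x)) (.act (.z x))) (s y)
    (fun i => update (update s y (s y - i)) x (s x - i)) (fun _ => True)
    (fun i _ => by simp [hxy.symm]) (fun i _ s' => by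
      simp only [Run, step2, update_of_ne hxy, update_self, true_and]
      by_cases c : s x - i = 0
      · simp only [c, lt_self_iff_false, false_and, true_and, false_or]
        refine Eq.congr_right ?_
        funext q; simp only [update_apply]; split_ifs <;> omega
      · simp only [c, show 0 < s x - i by omega, false_and, true_and, or_false]
        refine Eq.congr_right ?_
        funext q; simp only [update_apply]; split_ifs <;> omega) s'
  simpa using this

theorem copy_spec {y x w : ℕ} (hxy : x ≠ y) (hxw : x ≠ w) (hyw : y ≠ w) {s : ℕ → ℕ} (h0 : s w = 0)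
    (h1 : s x + s y < cap x) (h2 : s y < cap w) (h3 : s y < cap y) (s' : ℕ → ℕ) :
    Run (step2 cap cv) J (copy y x w) s s' ↔ s' = update s x (s x + s y) := by
  have := fun s' => loop_spec (cap := cap) (cv := cv) (J := J) (y := y)
    (P := .seq (.act (.inc x)) (.act (.inc w))) (s y)
    (fun i => update (update (update s y (s y - i)) x (s x + i)) w i) (fun _ => True)
    (fun i _ => by simp [hxy.symm, hyw]) (fun i hi s' => by
      simp only [Run, step2, update_of_ne hxy, update_of_ne hxw, update_self, true_and,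
        show s x + i + 1 < cap x by omega, exists_eq_left, update_of_ne hxw.symm,
        update_of_ne hyw.symm, show i + 1 < cap w by omega]
      refine Eq.congr_right ?_
      funext q; simp only [update_apply]; split_ifs <;> omega) s'
  simp only [Nat.sub_zero, update_eq_self, Nat.sub_self, add_zero, implies_true, true_and] at this
  rw [update_eq_self_iff.2 h0.symm] at this
  simp only [copy, Run, this, exists_eq_left]
  rw [move_spec hyw (by simp [hyw, hxy.symm, h3])]
  refine Eq.congr_right ?_
  funext q; simp only [update_apply]; split_ifs <;> subst_vars <;> omega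

theorem mul_spec {r : ℕ} {s : ℕ → ℕ} (h0 : s r = 0) (h3 : s (r + 3) = 0)
    (h1 : s (r + 2) * s (r + 1) < cap r) (h2 : s (r + 1) < cap (r + 3))
    (h4 : s (r + 1) < cap (r + 1)) (s' : ℕ → ℕ) :
    Run (step2 cap cv) J (loop (r + 2) (copy (r + 1) r (r + 3))) s s' ↔
      s' = update (update s (r + 2) 0) r (s (r + 2) * s (r + 1)) := by
  have := loop_spec (cap := cap) (cv := cv) (J := J) (y := r + 2)
    (P := copy (r + 1) r (r + 3)) (s (r + 2))
    (fun i => update (update s (r + 2) (s (r + 2) - i)) r (i * s (r + 1))) (fun _ => True)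
    (fun i _ => by simp) (fun i hi s' => by
      rw [copy_spec (by omega) (by omega) (by omega) (by simp [h3]) (by
        simp only [ne_eq, Nat.left_eq_add, OfNat.ofNat_ne_zero, not_false_eq_true, update_of_ne,
          update_self, Nat.add_right_inj, OfNat.one_ne_ofNat, Nat.add_eq_left, one_ne_zero]
        have := Nat.mul_le_mul_right (s (r + 1)) (show i + 1 ≤ s (r + 2) from hi)
        rw [Nat.succ_mul] at this
        omega) (by simpa using h2) (by simpa using h4), true_and]
      refine Eq.congr_right ?_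
      funext q; simp only [update_apply, Nat.succ_mul]; split_ifs <;> omega) s'
  simp only [Nat.sub_zero, update_eq_self, Nat.sub_self, zero_mul, implies_true, true_and] at this
  rwa [update_eq_self_iff.2 h0.symm] at this

theorem div_succ {b : ℕ} (hb : 0 < b) (i : ℕ) :
    (i % b + 1 < b → (i + 1) / b = i / b ∧ (i + 1) % b = i % b + 1) ∧
    (i % b + 1 = b → (i + 1) / b = i / b + 1 ∧ (i + 1) % b = 0) := by
  have := Nat.mod_add_div i b
  constructor
  · intro h
    exact (Nat.div_mod_unique hb).2 ⟨by omega, h⟩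
  · intro h
    exact (Nat.div_mod_unique hb).2 ⟨by rw [Nat.mul_succ]; omega, hb⟩

def divStep (r : ℕ) : Prog RA B :=
  .alt (.seq (.act (.dec (r + 1))) (.act (.inc (r + 3))))
    (.seq (.act (.z (r + 1))) (.seq (move (r + 3) (r + 1)) (.act (.inc r))))

theorem div_spec {r : ℕ} {s : ℕ → ℕ} (h0 : s r = 0) (h3 : s (r + 3) = 0)
    (h1 : s (r + 2) < cap r) (h2 : s (r + 1) < cap (r + 3))
    (h4 : s (r + 1) < cap (r + 1)) (s' : ℕ → ℕ) :
    Run (step2 cap cv) J (loop (r + 2) (divStep r)) s s' ↔
      s' = update (update (update (update s (r + 2) 0) r (s (r + 2) / (s (r + 1) + 1))) (r + 1)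
        (s (r + 1) - s (r + 2) % (s (r + 1) + 1))) (r + 3) (s (r + 2) % (s (r + 1) + 1)) := by
  have := loop_spec (cap := cap) (cv := cv) (J := J) (y := r + 2)
    (P := divStep r) (s (r + 2))
    (fun i => update (update (update (update s (r + 2) (s (r + 2) - i)) r (i / (s (r + 1) + 1)))
      (r + 1) (s (r + 1) - i % (s (r + 1) + 1))) (r + 3) (i % (s (r + 1) + 1))) (fun _ => True)
    (fun i _ => by simp) (fun i hi s' => by
      have a1 := div_succ (Nat.succ_pos (s (r + 1))) i
      have a2 := Nat.mod_lt i (Nat.succ_pos (s (r + 1)))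
      have a3 := Nat.div_le_self (i + 1) (s (r + 1) + 1)
      simp only [Nat.succ_eq_add_one] at a1 a2
      generalize i % (s (r + 1) + 1) = m at *
      generalize (i + 1) % (s (r + 1) + 1) = m' at *
      generalize i / (s (r + 1) + 1) = d at *
      generalize (i + 1) / (s (r + 1) + 1) = d' at *
      simp only [divStep, Run, step2, true_and]
      constructor
      · rintro (⟨_, ⟨b1, rfl⟩, b2, rfl⟩ | ⟨_, ⟨b1, rfl⟩, s2, b2, b3, rfl⟩)
        · simp at b1
          funext q; simp only [update_apply]; split_ifs <;> omega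
        · simp at b1
          rw [move_spec (by omega) (by simp; omega)] at b2
          subst b2
          funext q; simp only [update_apply]; split_ifs <;> omega
      · rintro rfl
        by_cases c : m < s (r + 1)
        · refine Or.inl ⟨_, ⟨by simp; omega, rfl⟩, by simp; omega, ?_⟩
          funext q; simp only [update_apply]; split_ifs <;> omega
        · refine Or.inr ⟨_, ⟨by simp; omega, rfl⟩, _,
            (move_spec (by omega) (by simp; omega) _).2 rfl, by simp; omega, ?_⟩
          funext q; simp only [update_apply]; split_ifs <;> omega) s'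
  simp only [Nat.sub_zero, update_eq_self, Nat.sub_self, Nat.zero_div, Nat.zero_mod, implies_true,
    true_and] at this
  rwa [(update_eq_self_iff (a := r)).2 h0.symm, update_eq_self,
    (update_eq_self_iff (a := r + 3)).2 h3.symm] at this

inductive Ex
  | par (j : ℕ)
  | inp
  | add (a b : Ex)
  | sub (a b : Ex)
  | mul (a b : Ex)
  | div (a b : Ex)

namespace Ex

def eval (cv : ℕ → ℕ) (x : ℕ) : Ex → ℕ
  | par j => cv j
  | inp => x
  | add a b => eval cv x a + eval cv x b
  | sub a b => eval cv x a - eval cv x b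
  | mul a b => eval cv x a * eval cv x b
  | div a b => eval cv x a / eval cv x b

def deg : Ex → ℕ
  | par _ => 1
  | inp => 1
  | add a b => deg a + deg b
  | sub a b => deg a + deg b
  | mul a b => deg a + deg b
  | div a b => deg a + deg b

theorem deg_pos (e : Ex) : 0 < e.deg := by
  induction e <;> simp only [deg] <;> omega

theorem eval_le {X x : ℕ} (hX : 2 ≤ X) (hc : ∀ j, cv j ≤ X) (hx : x ≤ X) (e : Ex) :
    e.eval cv x ≤ X ^ e.deg := by
  induction e with
  | par j => simpa [eval, deg] using hc j
  | inp => simpa [eval, deg] using hx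
  | add a b iha ihb =>
    have h1 : 2 ≤ X ^ a.deg := hX.trans (Nat.le_self_pow a.deg_pos.ne' X)
    have h2 : 2 ≤ X ^ b.deg := hX.trans (Nat.le_self_pow b.deg_pos.ne' X)
    simp only [eval, deg, pow_add]
    nlinarith
  | sub a b iha _ =>
    exact (Nat.sub_le _ _).trans (iha.trans (Nat.pow_le_pow_right (by omega) (by simp [deg])))
  | mul a b iha ihb => simp only [eval, deg, pow_add]; exact Nat.mul_le_mul iha ihb
  | div a b iha _ =>
    exact (Nat.div_le_self _ _).trans (iha.trans (Nat.pow_le_pow_right (by omega) (by simp [deg])))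

def cmp : Ex → ℕ → Prog RA B
  | par j, r => .act (.ld r j)
  | inp, r => copy 2 r (r + 1)
  | add a b, r => .seq (cmp a r) (.seq (cmp b (r + 1)) (move (r + 1) r))
  | sub a b, r => .seq (cmp a r) (.seq (cmp b (r + 1))
      (loop (r + 1) (.alt (.act (.dec r)) (.act (.z r)))))
  | mul a b, r => .seq (cmp b (r + 1)) (.seq (cmp a (r + 2))
      (.seq (loop (r + 2) (copy (r + 1) r (r + 3))) (clear (r + 1))))
  | div a b, r => .seq (cmp b (r + 1)) (.seq (cmp a (r + 2))
      (.alt (.seq (.act (.z (r + 1))) (clear (r + 2))) (.seq (.act (.dec (r + 1)))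
        (.seq (loop (r + 2) (divStep r)) (.seq (clear (r + 1)) (clear (r + 3)))))))

theorem cmp_spec {X Bd : ℕ} (hX : 2 ≤ X) (hc : ∀ j, cv j ≤ X) (e : Ex) : ∀ (r : ℕ) (s : ℕ → ℕ),
    3 ≤ r → (∀ q, r ≤ q → q < r + 2 * e.deg → s q = 0 ∧ Bd < cap q) → s 2 < cap 2 → s 2 ≤ X →
    X ^ e.deg ≤ Bd → ∀ s', Run (step2 cap cv) J (e.cmp r) s s' ↔
      s' = update s r (e.eval cv (s 2)) := by
  have two : ∀ {a b : Ex} {r : ℕ} {s : ℕ → ℕ}, s 2 ≤ X →
      (∀ q, r ≤ q → q < r + 2 * (a.deg + b.deg) → s q = 0 ∧ Bd < cap q) →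
      X ^ (a.deg + b.deg) ≤ Bd → (X ^ a.deg ≤ Bd ∧ X ^ b.deg ≤ Bd) ∧
      (a.eval cv (s 2) ≤ Bd ∧ b.eval cv (s 2) ≤ Bd) ∧ (0 < a.deg ∧ 0 < b.deg) ∧
      (s r = 0 ∧ Bd < cap r) ∧ (s (r + 1) = 0 ∧ Bd < cap (r + 1)) ∧
      (s (r + 2) = 0 ∧ Bd < cap (r + 2)) ∧ (s (r + 3) = 0 ∧ Bd < cap (r + 3)) := by
    intro a b r s h1 h2 h3
    have a1 := a.deg_pos
    have a2 := b.deg_pos
    have a3 : X ^ a.deg ≤ Bd := (Nat.pow_le_pow_right (by omega) (by omega)).trans h3
    have a4 : X ^ b.deg ≤ Bd := (Nat.pow_le_pow_right (by omega) (by omega)).trans h3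
    exact ⟨⟨a3, a4⟩, ⟨(eval_le hX hc h1 a).trans a3, (eval_le hX hc h1 b).trans a4⟩, ⟨a1, a2⟩,
      h2 _ (by omega) (by omega), h2 _ (by omega) (by omega), h2 _ (by omega) (by omega),
      h2 _ (by omega) (by omega)⟩
  have upd : ∀ {s : ℕ → ℕ} {r r' n n' v : ℕ}, (∀ q, r ≤ q → q < r + n → s q = 0 ∧ Bd < cap q) →
      r ≤ r' → r' + 1 + n' ≤ r + n →
      ∀ q, r' + 1 ≤ q → q < r' + 1 + n' → update s r' v q = 0 ∧ Bd < cap q := by
    intro s r r' n n' v h h1 h2 q h3 h4
    rw [update_of_ne (by omega)]
    exact h q (by omega) (by omega)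
  induction e with
  | par j =>
    intro r s _ h1 _ _ h4 s'
    obtain ⟨a1, a2⟩ := h1 r le_rfl (by simp [deg])
    simp only [deg, pow_one] at h4
    simp only [cmp, Run, step2, a1, eval, true_and, show 1 < cap r by omega]
  | inp =>
    intro r s h0 h1 h2 h3 h4 s'
    obtain ⟨a1, a2⟩ := h1 r le_rfl (by simp [deg])
    obtain ⟨a3, a4⟩ := h1 (r + 1) (by omega) (by simp [deg])
    simp only [deg, pow_one] at h4
    rw [cmp, copy_spec (by omega) (by omega) (by omega) a3 (by omega) (by omega) h2, a1, zero_add,
      eval]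
  | add a b iha ihb =>
    intro r s h0 h1 h2 h3 h4 s'
    have h5 := eval_le hX hc h3 (add a b)
    simp only [deg, eval] at h1 h4 h5
    obtain ⟨a1, a2, a3, a4, a5, a6, a7⟩ := two h3 h1 h4
    have n2 : ∀ v, update s r v 2 = s 2 := fun v => update_of_ne (by omega) _ _
    simp only [cmp, Run, iha r s h0 (fun q b1 b2 => h1 q b1 (by omega)) h2 h3 a1.1, exists_eq_left,
      ihb (r + 1) (update s r (eval cv (s 2) a)) (by omega) (upd h1 le_rfl (by omega))
        (by rwa [n2]) (by rwa [n2]) a1.2, n2]
    rw [move_spec (by omega) (by simp; omega)]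
    refine Eq.congr_right ?_
    funext q; simp only [update_apply, eval]; split_ifs <;> subst_vars <;> omega
  | sub a b iha ihb =>
    intro r s h0 h1 h2 h3 h4 s'
    simp only [deg] at h1 h4
    obtain ⟨a1, a2, a3, a4, a5, a6, a7⟩ := two h3 h1 h4
    have n2 : ∀ v, update s r v 2 = s 2 := fun v => update_of_ne (by omega) _ _
    simp only [cmp, Run, iha r s h0 (fun q b1 b2 => h1 q b1 (by omega)) h2 h3 a1.1, exists_eq_left,
      ihb (r + 1) (update s r (eval cv (s 2) a)) (by omega) (upd h1 le_rfl (by omega))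
        (by rwa [n2]) (by rwa [n2]) a1.2, n2]
    rw [monus_spec (by omega)]
    refine Eq.congr_right ?_
    funext q; simp only [update_apply, eval]; split_ifs <;> subst_vars <;> omega
  | mul a b iha ihb =>
    intro r s h0 h1 h2 h3 h4 s'
    have h5 := eval_le hX hc h3 (mul a b)
    simp only [deg, eval] at h1 h4 h5
    obtain ⟨a1, a2, a3, a4, a5, a6, a7⟩ := two h3 h1 h4
    have n2 : ∀ v, update s (r + 1) v 2 = s 2 := fun v => update_of_ne (by omega) _ _
    simp only [cmp, Run, ihb (r + 1) s (by omega) (fun q b1 b2 => h1 q (by omega) (by omega)) h2 h3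
      a1.2, exists_eq_left, clear_spec,
      iha (r + 2) (update s (r + 1) (eval cv (s 2) b)) (by omega) (upd h1 (by omega) (by omega))
        (by rwa [n2]) (by rwa [n2]) a1.1, n2]
    simp only [mul_spec (cap := cap) (cv := cv) (J := J) (r := r)
      (s := update (update s (r + 1) (eval cv (s 2) b)) (r + 2) (eval cv (s 2) a))
      (by simp; omega) (by simp; omega) (by simp; omega) (by simp; omega) (by simp; omega),
      exists_eq_left]
    refine Eq.congr_right ?_
    funext q; simp only [update_apply, eval]; split_ifs <;> subst_vars <;> omega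
  | div a b iha ihb =>
    intro r s h0 h1 h2 h3 h4 s'
    simp only [deg] at h1 h4
    obtain ⟨a1, a2, a3, a4, a5, a6, a7⟩ := two h3 h1 h4
    have n2 : ∀ v, update s (r + 1) v 2 = s 2 := fun v => update_of_ne (by omega) _ _
    simp only [cmp, Run, ihb (r + 1) s (by omega) (fun q b1 b2 => h1 q (by omega) (by omega)) h2 h3
      a1.2, exists_eq_left, clear_spec, step2,
      iha (r + 2) (update s (r + 1) (eval cv (s 2) b)) (by omega) (upd h1 (by omega) (by omega))
        (by rwa [n2]) (by rwa [n2]) a1.1, n2,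
      eval]
    generalize eval cv (s 2) a = va at *
    generalize eval cv (s 2) b = vb at *
    have e1 : update (update s (r + 1) vb) (r + 2) va (r + 1) = vb := by simp
    rw [e1]
    rcases vb with _ | vb
    · simp only [true_and, exists_eq_left, lt_self_iff_false, false_and, exists_false, or_false]
      refine Eq.congr_right ?_
      funext q; simp only [update_apply, Nat.div_zero]; split_ifs <;> subst_vars <;> omega
    · simp only [Nat.add_eq_zero_iff, one_ne_zero, and_false, false_and, exists_false, false_or,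
        Nat.succ_pos, true_and, exists_eq_left, Nat.add_sub_cancel]
      simp only [div_spec (cap := cap) (cv := cv) (J := J) (r := r)
        (s := update (update (update s (r + 1) (vb + 1)) (r + 2) va) (r + 1) vb)
        (by simp; omega) (by simp; omega) (by simp; omega) (by simp; omega) (by simp; omega),
        exists_eq_left]
      refine Eq.congr_right ?_
      funext q; simp only [update_apply]; split_ifs <;> subst_vars <;> omega

end Ex

end

end Vale.Agent.P310
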