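import Vale.Agent.P310.Sys

/-! Location lemmas: a nonzero coefficient points to a pebble. -/

namespace Vale.Agent.P310

open Classical Finset

noncomputable section

namespace Sys

variable {R P G D : Type} {S : Sys R P G D}

theorem T_ge : 8 ≤ S.T := by have := S.hK; unfold T; omega

theorem port_h {z : S.Cell} {p : Fin 5} {ρ : R} {i : Fin 4} {t j : ℕ} {d : D}
    (hp : S.port z p = some (.h ρ i t j d)) : z.ρ = ρ ∧ z.j = j ∧ z.d = d ∧
      ((z.t < S.T ∧ z.i = i ∧ ((z.t = t ∧ p = 3) ∨ (z.t = t + 1 ∧ p = 0))) ∨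
        (z.t = S.T ∧ t + 1 = S.T ∧ p = i.castSucc)) := by
  have h1 := z.ht
  have h2 := S.T_ge
  unfold port at hp
  split_ifs at hp with ht
  · fin_cases p <;> simp only [mport] at hp
    · split_ifs at hp with h0
      · cases hs : S.src z.ρ z.i <;> simp [hs] at hp
      · simp only [Option.some.injEq, Var.h.injEq] at hp
        obtain ⟨rfl, rfl, h3, rfl, rfl⟩ := hp
        exact ⟨rfl, rfl, rfl, Or.inl ⟨ht, rfl, Or.inr ⟨by omega, rfl⟩⟩⟩
    · split_ifs at hp <;> simp at hp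
    · split_ifs at hp <;> simp at hp
    · simp only [Option.some.injEq, Var.h.injEq] at hp
      obtain ⟨rfl, rfl, h3, rfl, rfl⟩ := hp
      exact ⟨rfl, rfl, rfl, Or.inl ⟨ht, rfl, Or.inl ⟨h3, rfl⟩⟩⟩
    · simp at hp
  · fin_cases p <;> simp only [sport] at hp
    iterate 4
      simp only [Option.some.injEq, Var.h.injEq] at hp
      obtain ⟨rfl, rfl, h3, rfl, rfl⟩ := hp
      exact ⟨rfl, rfl, rfl, Or.inr ⟨by omega, by omega, rfl⟩⟩
    split_ifs at hp
    · cases hs : S.head z.ρ <;> simp [hs] at hp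

theorem port_x {z : S.Cell} {p : Fin 5} {r : P} {j : ℕ} {d : D}
    (hp : S.port z p = some (.x r j d)) : z.j = j ∧
      ((z.t = 0 ∧ S.src z.ρ z.i = some r ∧ S.sh z.ρ (S.gam j) z.d = d ∧ p = 0) ∨
        (z.t = S.T ∧ S.head z.ρ = some r ∧ S.guard z.ρ (S.gam j) d ∧ z.d = d ∧ p = 4)) := by
  have h1 := z.ht
  unfold port at hp
  split_ifs at hp with ht
  · fin_cases p <;> simp only [mport] at hp
    · split_ifs at hp with h0
      · cases hs : S.src z.ρ z.i with
        | none => simp [hs] at hp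
        | some r' =>
          simp only [hs, Option.map_some, Option.some.injEq, Var.x.injEq] at hp
          obtain ⟨rfl, rfl, rfl⟩ := hp
          exact ⟨rfl, Or.inl ⟨h0, rfl, rfl, rfl⟩⟩
      · simp at hp
    · split_ifs at hp <;> simp at hp
    · split_ifs at hp <;> simp at hp
    · simp at hp
    · simp at hp
  · fin_cases p <;> simp only [sport] at hp
    iterate 4 simp at hp
    split_ifs at hp with hg
    · cases hs : S.head z.ρ with
      | none => simp [hs] at hp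
      | some r' =>
        simp only [hs, Option.map_some, Option.some.injEq, Var.x.injEq] at hp
        obtain ⟨rfl, rfl, rfl⟩ := hp
        exact ⟨rfl, Or.inr ⟨by omega, rfl, hg, rfl, rfl⟩⟩

theorem port_v {z : S.Cell} {p : Fin 5} {ρ : R} {i : Fin 4} {t j : ℕ} {e : D}
    (hp : S.port z p = some (.v ρ i t j e)) : z.ρ = ρ ∧ z.i = i ∧ z.t = t := by
  unfold port at hp
  split_ifs at hp with ht
  · fin_cases p <;> simp only [mport] at hp
    · split_ifs at hp with h0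
      · cases hs : S.src z.ρ z.i <;> simp [hs] at hp
      · simp at hp
    · split_ifs at hp
      simp only [Option.some.injEq, Var.v.injEq] at hp
      exact ⟨hp.1, hp.2.1, hp.2.2.1⟩
    · split_ifs at hp
      simp only [Option.some.injEq, Var.v.injEq] at hp
      exact ⟨hp.1, hp.2.1, hp.2.2.1⟩
    · simp at hp
    · simp at hp
  · fin_cases p <;> simp only [sport] at hp
    iterate 4 simp at hp
    split_ifs at hp
    · cases hs : S.head z.ρ <;> simp [hs] at hp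

variable [Fintype R] [Fintype D] {X : Finset S.Cell} {U : UU R D} {r : Option P} {a : G → D}
  {αx : F} {αm : R → Fin 4 → F}

theorem locI (h : S.Sub X (S.bd U + S.sg r a αx αm)) {ρ : R} {i : Fin 4} {t1 t2 j : ℕ} {d : D}
    (h12 : t1 ≤ t2) (h2 : t2 < S.T) (hj : j < S.K) (hne : U.u ρ i t1 j d ≠ U.u ρ i t2 j d) :
    ∃ z ∈ X, z.ρ = ρ ∧ z.i = i ∧ t1 ≤ z.t ∧ z.t ≤ t2 ∧ z.j = j ∧ z.d = d := by
  induction t2, h12 using Nat.le_induction with
  | base => exact absurd rfl hne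
  | succ t ht ih =>
    by_cases he : U.u ρ i t1 j d = U.u ρ i t j d
    · have : (S.bd U + S.sg r a αx αm) (.h ρ i t j d) ≠ 0 := by
        simp only [Pi.add_apply, bd, sg]
        rw [if_pos ⟨by omega, hj⟩, if_pos h2, if_neg (by omega), add_zero, Ne, F_add_eq0, ← he]
        exact hne
      obtain ⟨z, hz, p, hp⟩ := h _ this
      obtain ⟨h1, h3, h4, h5⟩ := port_h hp
      refine ⟨z, hz, h1, ?_⟩
      rcases h5 with ⟨_, h6, h7⟩ | h5
      · exact ⟨h6, by omega, by omega, h3, h4⟩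
      · omega
    · obtain ⟨z, hz, h1, h3, h4, h5, h6⟩ := ih (by omega) he
      exact ⟨z, hz, h1, h3, h4, by omega, h6⟩

theorem locR (h : S.Sub X (S.bd U + S.sg r a αx αm)) {ρ : R} {i : Fin 4} {t j : ℕ} {d : D}
    (ht : t < S.T) (hj : j < S.K)
    (hne : U.u ρ i t j d + U.s ρ j d + (if d = a (S.gam j) then αm ρ i else 0) ≠ 0) :
    ∃ z ∈ X, z.ρ = ρ ∧ z.j = j ∧ z.d = d ∧ (z.t = S.T ∨ (z.i = i ∧ t ≤ z.t)) := by
  by_cases he : U.u ρ i t j d = U.u ρ i (S.T - 1) j d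
  · have : (S.bd U + S.sg r a αx αm) (.h ρ i (S.T - 1) j d) ≠ 0 := by
      simp only [Pi.add_apply, bd, sg]
      rw [if_pos ⟨by omega, hj⟩, if_neg (by omega), ← he]
      convert hne using 2
      by_cases hd : d = a (S.gam j)
      · rw [if_pos ⟨by omega, hj, hd⟩, if_pos hd]
      · rw [if_neg (by tauto), if_neg hd]
    obtain ⟨z, hz, p, hp⟩ := h _ this
    obtain ⟨h1, h3, h4, h5⟩ := port_h hp
    refine ⟨z, hz, h1, h3, h4, ?_⟩
    rcases h5 with ⟨_, h6, h7⟩ | h5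
    · exact Or.inr ⟨h6, by omega⟩
    · exact Or.inl h5.1
  · obtain ⟨z, hz, h1, h3, h4, h5, h6, h7⟩ := locI h (by omega) (by omega) hj he
    exact ⟨z, hz, h1, h6, h7, Or.inr ⟨h3, h4⟩⟩

theorem locX (h : S.Sub X (S.bd U + S.sg r a αx αm)) {g : R → Fin 4 → ℕ} (hg : ∀ ρ i, g ρ i < S.T)
    {r' : P} {j : ℕ} {d : D} (hj : j < S.K)
    (hne : (∑ ρ, if S.head ρ = some r' then U.s ρ j d else 0) +
      (∑ ρ, ∑ i, if S.src ρ i = some r' then U.u ρ i (g ρ i) j ((S.sh ρ (S.gam j)).symm d) else 0)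
      + (if r = some r' ∧ d = a (S.gam j) then αx else 0) ≠ 0) :
    ∃ z ∈ X, z.j = j ∧
      ((z.t ≤ g z.ρ z.i ∧ S.src z.ρ z.i = some r' ∧ S.sh z.ρ (S.gam j) z.d = d) ∨
        (z.t = S.T ∧ S.head z.ρ = some r' ∧ S.guard z.ρ (S.gam j) d ∧ z.d = d)) := by
  by_cases he : ∀ ρ i, S.src ρ i = some r' → U.u ρ i 0 j ((S.sh ρ (S.gam j)).symm d) =
      U.u ρ i (g ρ i) j ((S.sh ρ (S.gam j)).symm d)
  · have : (S.bd U + S.sg r a αx αm) (.x r' j d) ≠ 0 := by
      simp only [Pi.add_apply, bd, sg]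
      rw [if_pos hj]
      convert hne using 3
      · refine sum_congr rfl fun ρ _ => sum_congr rfl fun i _ => ?_
        split_ifs with h1
        · exact he ρ i h1
        · rfl
      · simp [hj]
    obtain ⟨z, hz, p, hp⟩ := h _ this
    obtain ⟨h1, h2⟩ := port_x hp
    refine ⟨z, hz, h1, ?_⟩
    rcases h2 with h2 | h2
    · exact Or.inl ⟨by omega, h2.2.1, h2.2.2.1⟩
    · exact Or.inr ⟨h2.1, h2.2.1, h2.2.2.1, h2.2.2.2.1⟩
  · push Not at he
    obtain ⟨ρ, i, h1, h2⟩ := he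
    obtain ⟨z, hz, rfl, rfl, h4, h5, h6, h7⟩ := locI h (Nat.zero_le _) (hg ρ i) hj h2
    exact ⟨z, hz, h6, Or.inl ⟨h5, h1, by rw [h7]; simp⟩⟩

def Free (X : Finset S.Cell) (τ : R → Fin 4 → ℕ) : Prop :=
  ∀ z ∈ X, z.t ≠ τ z.ρ z.i ∧ z.t ≠ τ z.ρ z.i + 1

theorem free_step (h : S.Sub X (S.bd U + S.sg r a αx αm)) {τ : R → Fin 4 → ℕ} (hτ : S.Gap τ)
    (hf : Free X τ) (ρ : R) (i : Fin 4) {j : ℕ} (hj : j < S.K) :
    U.u ρ i (τ ρ i + 1) j = U.u ρ i (τ ρ i) j := by
  funext d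
  by_contra hne
  obtain ⟨z, hz, rfl, rfl, h4, h5, -⟩ := locI h (Nat.le_succ _) (hτ ρ i) hj (Ne.symm hne)
  have := hf z hz
  omega

theorem free_link (h : S.Sub X (S.bd U + S.sg r a αx αm)) {τ : R → Fin 4 → ℕ} (hτ : S.Gap τ)
    (hf : Free X τ) (ρ : R) (i : Fin 4) {j : ℕ} (hj : j + 1 < S.K) (e : D) :
    (∑ d, if S.key j d = e then U.u ρ i (τ ρ i) j d + U.u ρ i (τ ρ i) (j + 1) d else 0) = 0 := by
  by_contra hne
  have h1 := hτ ρ i
  have : (S.bd U + S.sg r a αx αm) (.v ρ i (τ ρ i) j e) ≠ 0 := by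
    simp only [Pi.add_apply, bd, sg]
    rwa [if_pos ⟨by omega, hj⟩, add_zero]
  obtain ⟨z, hz, p, hp⟩ := h _ this
  obtain ⟨rfl, rfl, h3⟩ := port_v hp
  exact (hf z hz).1 h3

theorem free_GC (h : S.Sub X (S.bd U + S.sg r a αx αm)) {τ : R → Fin 4 → ℕ} (hτ : S.Gap τ)
    (hf : Free X τ) (ρ : R) (i : Fin 4) : S.GC (U.u ρ i (τ ρ i)) := by
  have key : ∀ j j', j ≤ j' → j' < S.K → S.gam j = S.gam j' →
      U.u ρ i (τ ρ i) j = U.u ρ i (τ ρ i) j' := by
    intro j j' hle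
    induction j', hle using Nat.le_induction with
    | base => intro _ _; rfl
    | succ l hl ih =>
      intro h1 h2
      have h3 : S.gam l = S.gam j := S.cont j l (l + 1) hl (by omega) h1 h2
      rw [ih (by omega) h3.symm]
      funext e
      have := free_link h hτ hf ρ i h1 e
      simp only [key, if_pos (h3.trans h2)] at this
      rw [sum_ite_eq' univ e, if_pos (mem_univ _)] at this
      exact F_add_eq0.1 this
  intro j j' hj hj' hg
  rcases le_total j j' with h1 | h1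
  · exact key j j' h1 hj' hg
  · exact (key j' j h1 hj hg.symm).symm

theorem free_par (h : S.Sub X (S.bd U + S.sg r a αx αm)) {τ : R → Fin 4 → ℕ} (hτ : S.Gap τ)
    (hf : Free X τ) (ρ : R) (i : Fin 4) {j : ℕ} (hj : j < S.K) :
    ∑ d, U.u ρ i (τ ρ i) j d = ∑ d, U.u ρ i (τ ρ i) 0 d := by
  induction j with
  | zero => rfl
  | succ l ih =>
    rw [← ih (by omega)]
    have : ∑ e, (∑ d, if S.key l d = e then
        U.u ρ i (τ ρ i) l d + U.u ρ i (τ ρ i) (l + 1) d else 0) = 0 :=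
      sum_eq_zero fun e _ => free_link h hτ hf ρ i hj e
    rw [sum_comm] at this
    simp only [sum_ite_eq, mem_univ, if_true, sum_add_distrib] at this
    exact (F_add_eq0.1 this).symm

omit [Fintype R] [Fintype D] in
theorem exists_free (X : Finset S.Cell) (hX : X.card ≤ S.K + 1) :
    ∃ τ, S.Gap τ ∧ Free X τ := by
  have : ∃ c < S.K + 2, ∀ z ∈ X, z.t / 2 ≠ c := by
    by_contra hc
    push Not at hc
    have : range (S.K + 2) ⊆ X.image fun z => z.t / 2 := by
      intro c hc'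
      obtain ⟨z, hz, h⟩ := hc c (mem_range.1 hc')
      exact mem_image.2 ⟨z, hz, h⟩
    have h1 := card_le_card this
    have h2 := card_image_le (s := X) (f := fun z => z.t / 2)
    rw [card_range] at h1
    omega
  obtain ⟨c, hc, h⟩ := this
  refine ⟨fun _ _ => 2 * c, fun _ _ => by unfold T; dsimp only; omega, fun z hz => ?_⟩
  have := h z hz
  dsimp only
  omega

def Sing (X : Finset S.Cell) : Prop :=
  ∀ m, ∃ j, j < S.K ∧ S.gam j = m ∧ ∃ z0 : S.Cell, ∀ z ∈ X, z.j = j → z = z0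

omit [Fintype R] [Fintype D] in
theorem sing_of_rows {X : Finset S.Cell} (hX : X.card ≤ S.K + 1)
    (h : ∀ j, j < S.K → ∃ z ∈ X, z.j = j) : Sing X := by
  intro m
  obtain ⟨j1, j2, hne, h1, h2, g1, g2⟩ := S.two m
  by_contra hc
  push Not at hc
  have big : ∀ j, j < S.K → S.gam j = m → 2 ≤ (X.filter fun z => z.j = j).card := by
    intro j hj hg
    obtain ⟨z, hz, hzj⟩ := h j hj
    obtain ⟨z', hz', hz'j, hn⟩ := hc j hj hg z
    exact one_lt_card.2 ⟨z', mem_filter.2 ⟨hz', hz'j⟩, z, mem_filter.2 ⟨hz, hzj⟩, hn⟩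
  have hsum := card_eq_sum_card_fiberwise (s := X) (t := range S.K) (f := fun z => z.j)
    (fun z _ => mem_coe.2 (mem_range.2 z.hj))
  have hle : ∑ j ∈ range S.K, (1 + ((if j = j1 then 1 else 0) + (if j = j2 then 1 else 0))) ≤
      ∑ j ∈ range S.K, (X.filter fun z => z.j = j).card := by
    refine sum_le_sum fun j hj => ?_
    have hj' := mem_range.1 hj
    split_ifs with c1 c2 c2
    · omega
    · subst c1; exact big _ h1 g1
    · subst c2; exact big _ h2 g2
    · obtain ⟨z, hz, hzj⟩ := h j hj'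
      exact card_pos.2 ⟨z, mem_filter.2 ⟨hz, hzj⟩⟩
  rw [sum_add_distrib, sum_add_distrib, sum_ite_eq', sum_ite_eq', if_pos (mem_range.2 h1),
    if_pos (mem_range.2 h2)] at hle
  simp only [sum_const, card_range, smul_eq_mul, mul_one] at hle
  omega

end Sys

end

end Vale.Agent.P310
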