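import Vale.Agent.P310.Tab

/-! A bundled stack machine, run one instruction at a time. -/

namespace Vale.Agent.P310

open Classical Function Turing Turing.TM2 Turing.TM2.Stmt

noncomputable section

variable (A : FinTM2)

abbrev MQ := Option (TM2.Stmt A.Γ A.Λ A.σ) × A.σ
abbrev MC := Σ κ : A.K, Option (A.Γ κ)
abbrev MS := MQ A × ∀ κ, List (A.Γ κ)

def mstep : MS A → MS A
  | ((some (push k f q), v), S) => ((some q, v), update S k (f v :: S k))
  | ((some (peek k f q), v), S) => ((some q, f v (S k).head?), S)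
  | ((some (pop k f q), v), S) => ((some q, f v (S k).head?), update S k (S k).tail)
  | ((some (load a q), v), S) => ((some q, a v), S)
  | ((some (branch f q₁ q₂), v), S) => ((some (cond (f v) q₁ q₂), v), S)
  | ((some (goto f), v), S) => ((some (A.m (f v)), v), S)
  | ((some halt, v), S) => ((none, v), S)
  | ((none, v), S) => ((none, v), S)

def emb (c : A.Cfg) : MS A := ((c.l.map A.m, c.var), c.stk)

def depth : TM2.Stmt A.Γ A.Λ A.σ → ℕ
  | push _ _ q => depth q + 1
  | peek _ _ q => depth q + 1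
  | pop _ _ q => depth q + 1
  | load _ q => depth q + 1
  | branch _ q₁ q₂ => depth q₁ + depth q₂ + 1
  | goto _ => 1
  | halt => 1

theorem micro_aux (q : TM2.Stmt A.Γ A.Λ A.σ) : ∀ v S, ∃ n ≤ depth A q,
    (mstep A)^[n] ((some q, v), S) = emb A (stepAux q v S) := by
  induction q with
  | push k f q ih =>
    intro v S; obtain ⟨n, h1, h2⟩ := ih v (update S k (f v :: S k))
    exact ⟨n + 1, by simpa [depth] using h1, h2⟩
  | peek k f q ih =>
    intro v S; obtain ⟨n, h1, h2⟩ := ih (f v (S k).head?) S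
    exact ⟨n + 1, by simpa [depth] using h1, h2⟩
  | pop k f q ih =>
    intro v S; obtain ⟨n, h1, h2⟩ := ih (f v (S k).head?) (update S k (S k).tail)
    exact ⟨n + 1, by simpa [depth] using h1, h2⟩
  | load a q ih =>
    intro v S; obtain ⟨n, h1, h2⟩ := ih (a v) S
    exact ⟨n + 1, by simpa [depth] using h1, h2⟩
  | branch f q₁ q₂ ih₁ ih₂ =>
    intro v S
    cases h : f v
    · obtain ⟨n, h1, h2⟩ := ih₂ v S
      refine ⟨n + 1, by simp only [depth]; omega, ?_⟩
      simp only [iterate_succ_apply, mstep, h, cond_false, stepAux, h2]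
    · obtain ⟨n, h1, h2⟩ := ih₁ v S
      refine ⟨n + 1, by simp only [depth]; omega, ?_⟩
      simp only [iterate_succ_apply, mstep, h, cond_true, stepAux, h2]
  | goto f => exact fun v S => ⟨1, le_rfl, rfl⟩
  | halt => exact fun v S => ⟨1, le_rfl, rfl⟩

def slow : ℕ := haveI := A.ΛFin; Finset.univ.sup fun l => depth A (A.m l)

theorem micro_run (t : ℕ) : ∀ c c' : A.Cfg, (flip bind A.step)^[t] (some c) = some c' →
    ∃ n ≤ slow A * t, (mstep A)^[n] (emb A c) = emb A c' := by
  have hn : ∀ t, (flip bind A.step)^[t] none = none := fun t => iterate_fixed rfl t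
  induction t with
  | zero => rintro c c' ⟨⟩; exact ⟨0, le_rfl, rfl⟩
  | succ t ih =>
    rintro ⟨l, v, S⟩ c' h
    rw [iterate_succ_apply] at h
    cases l with
    | none => exact absurd ((hn t).symm.trans h) (by simp)
    | some l =>
      obtain ⟨n, h1, h2⟩ := ih _ _ h
      obtain ⟨n', h3, h4⟩ := micro_aux A (A.m l) v S
      have h5 : depth A (A.m l) ≤ slow A := by
        letI := A.ΛFin
        exact Finset.le_sup (f := fun l => depth A (A.m l)) (Finset.mem_univ l)
      refine ⟨n + n', by rw [Nat.mul_succ]; omega, ?_⟩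
      rw [iterate_add_apply, ← h2, ← h4]
      rfl

def mrd : MQ A → A.K
  | (some (peek k _ _), _) => k
  | (some (pop k _ _), _) => k
  | _ => A.k₀

def mnx : MQ A → MC A → MQ A
  | (some (push _ _ q), v), _ => (some q, v)
  | (some (peek k f q), v), c => (some q, if h : c.1 = k then f v (h ▸ c.2) else v)
  | (some (pop k f q), v), c => (some q, if h : c.1 = k then f v (h ▸ c.2) else v)
  | (some (load a q), v), _ => (some q, a v)
  | (some (branch f q₁ q₂), v), _ => (some (cond (f v) q₁ q₂), v)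
  | (some (goto f), v), _ => (some (A.m (f v)), v)
  | (some halt, v), _ => (none, v)
  | (none, v), _ => (none, v)

def mef : MQ A → A.K → Option (Option (MC A))
  | (some (push k f _), v), κ => if κ = k then some (some ⟨k, some (f v)⟩) else none
  | (some (pop k _ _), _), κ => if κ = k then some none else none
  | _, _ => none

def pushed : MQ A → Option (MC A)
  | (some (push k f _), v) => some ⟨k, some (f v)⟩
  | _ => none

def allQ : List (MQ A) :=
  haveI := A.ΛFin; haveI := A.σFin; (stmts A.m Finset.univ ×ˢ Finset.univ).toList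

theorem mem_allQ {q : MQ A} : q ∈ allQ A ↔ ∀ s, q.1 = some s → ∃ l, s ∈ stmts₁ (A.m l) := by
  simp [allQ, stmts]

variable (ei : Bool → A.Γ A.k₀) (eo : Bool → A.Γ A.k₁)

def mach : Mach (MQ A) A.K (MC A) where
  rd := mrd A
  nx := mnx A
  ef := mef A
  Qs := allQ A
  Ks := haveI := A.kFin; Finset.univ.toList
  Cs := haveI := A.kFin; (Finset.univ.toList.map fun κ => ⟨κ, none⟩) ++
    [⟨A.k₀, some (ei false)⟩, ⟨A.k₀, some (ei true)⟩] ++ (allQ A).filterMap (pushed A)
  q0 := (some (A.m A.main), A.initialState)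
  k0 := A.k₀
  k1 := A.k₁
  emp κ := ⟨κ, none⟩
  sym b := ⟨A.k₀, some (ei b)⟩
  acc := haveI := A.σFin; Finset.univ.toList.map fun v => ((none, v), ⟨A.k₁, some (eo true)⟩)

variable (l : List Bool)

def cfg (τ : ℕ) : MS A := (mstep A)^[τ] (emb A (initList A (l.map ei)))
def ctrl (τ : ℕ) : MQ A := (cfg A ei l τ).1
def cell (τ : ℕ) (κ : A.K) (i : ℕ) : MC A := ⟨κ, ((cfg A ei l τ).2 κ)[i]?⟩

theorem cfg_succ (τ : ℕ) : cfg A ei l (τ + 1) = mstep A (cfg A ei l τ) := iterate_succ_apply' _ _ _

theorem trace : (mach A ei eo).Trace l.length (fun i => l.getD i false) (ctrl A ei l)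
    (cell A ei l) := by
  have l0 : ∀ κ i, cell A ei l 0 κ i = if κ = A.k₀ ∧ i < l.length then
      ⟨A.k₀, some (ei (l.getD i false))⟩ else ⟨κ, none⟩ := by
    intro κ i
    by_cases c : κ = A.k₀
    · subst c
      by_cases c1 : i < l.length <;> simp [cell, cfg, emb, initList, c1]
    · simp [cell, cfg, emb, initList, c]
  have ls : ∀ τ κ i, cell A ei l (τ + 1) κ i = match mef A (ctrl A ei l τ) κ with
      | none => cell A ei l τ κ i
      | some none => cell A ei l τ κ (i + 1)
      | some (some c) => if i = 0 then c else cell A ei l τ κ (i - 1) := by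
    intro τ κ i
    simp only [cell, ctrl, cfg_succ]
    rcases cfg A ei l τ with ⟨⟨_ | q, v⟩, S⟩
    · rfl
    · cases q with
      | push k f q =>
        by_cases c : κ = k
        · subst c
          cases i <;> simp [mstep, mef]
        · simp [mstep, mef, c]
      | pop k f q =>
        by_cases c : κ = k
        · subst c
          simp [mstep, mef]
        · simp [mstep, mef, c]
      | _ => rfl
  have mq : ∀ τ, ctrl A ei l τ ∈ allQ A := by
    intro τ
    induction τ with
    | zero =>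
      refine (mem_allQ A).2 ?_
      rintro s ⟨⟩
      exact ⟨A.main, stmts₁_self⟩
    | succ τ ih =>
      rw [mem_allQ] at ih ⊢
      simp only [ctrl, cfg_succ] at ih ⊢
      revert ih
      rcases cfg A ei l τ with ⟨⟨_ | q, v⟩, S⟩
      · exact id
      · intro ih
        obtain ⟨l', h⟩ := ih q rfl
        have h' := stmts₁_trans h
        cases q with
        | branch f q₁ q₂ =>
          rintro s ⟨⟩
          refine ⟨l', h' ?_⟩
          cases f v <;> simp [stmts₁, stmts₁_self]
        | goto f => rintro s ⟨⟩; exact ⟨_, stmts₁_self⟩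
        | halt => rintro s ⟨⟩
        | _ => rintro s ⟨⟩; exact ⟨l', h' (by simp [stmts₁, stmts₁_self])⟩
  refine ⟨rfl, fun κ i => by rw [l0]; congr, fun τ => ?_, fun τ κ i => ?_, mq, fun κ => by simp [mach], fun τ => ?_⟩
  · have : ∀ x : MS A, (mstep A x).1 = mnx A x.1 ⟨mrd A x.1, (x.2 (mrd A x.1)).head?⟩ := by
      rintro ⟨⟨_ | q, v⟩, S⟩
      · rfl
      · cases q <;> simp [mstep, mnx, mrd]
    simp only [cell, ctrl, cfg_succ, mach, this, List.head?_eq_getElem?]
    rfl
  · rw [ls]
    rw [show (mach A ei eo).ef = mef A from rfl]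
    rcases mef A (ctrl A ei l τ) κ with _ | _ | c <;> rfl
  · induction τ with
    | zero =>
      intro κ i
      rw [l0]
      split_ifs
      · cases l.getD i false <;> simp [mach]
      · simp [mach]
    | succ τ ih =>
      intro κ i
      rw [ls]
      rcases hq : mef A (ctrl A ei l τ) κ with _ | _ | c' <;> dsimp only
      · exact ih _ _
      · exact ih _ _
      · split_ifs
        · refine List.mem_append_right _ (List.mem_filterMap.2 ⟨_, mq τ, ?_⟩)
          revert hq
          rcases ctrl A ei l τ with ⟨_ | q, v⟩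
          · simp [mef]
          · cases q <;> simp [mef, pushed]
        · exact ih _ _

theorem stay {τ : ℕ} (h : (cfg A ei l τ).1.1 = none) (n : ℕ) :
    cfg A ei l (τ + n) = cfg A ei l τ := by
  induction n with
  | zero => rfl
  | succ n ih =>
    rw [← add_assoc, cfg_succ, ih]
    revert h
    rcases cfg A ei l τ with ⟨⟨_ | q, v⟩, S⟩
    · intro; rfl
    · simp

def Outs (b : Bool) (t : ℕ) : Prop :=
  ∃ c : A.Cfg, Nonempty (StateTransition.EvalsToInTime A.step (initList A (l.map ei)) (some c) t) ∧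
    c.l = none ∧ (c.stk A.k₁).head? = some (eo b)

theorem final {b : Bool} {t : ℕ} (h : Outs A ei eo l b t) (τ : ℕ) (hτ : slow A * t ≤ τ) :
    (∃ v, ctrl A ei l τ = (none, v)) ∧ cell A ei l τ A.k₁ 0 = ⟨A.k₁, some (eo b)⟩ := by
  obtain ⟨c, ⟨⟨⟨s, h1⟩, h2⟩⟩, h7, h8⟩ := h
  obtain ⟨n, h3, h4⟩ := micro_run A s _ _ h1
  have h5 : n ≤ τ := h3.trans ((Nat.mul_le_mul_left _ h2).trans hτ)
  obtain ⟨n', rfl⟩ := Nat.exists_eq_add_of_le h5
  have h6 : cfg A ei l n = emb A c := h4
  simp only [ctrl, cell, stay A ei l (τ := n) (by rw [h6]; simp [emb, h7]), h6]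
  rw [List.head?_eq_getElem?] at h8
  simp [emb, h7, h8]

theorem acc_of_true {t : ℕ} (h : Outs A ei eo l true t) (τ : ℕ) (hτ : slow A * t ≤ τ) :
    (ctrl A ei l τ, cell A ei l τ (mach A ei eo).k1 0) ∈ (mach A ei eo).acc := by
  obtain ⟨⟨v, h1⟩, h2⟩ := final A ei eo l h τ hτ
  simp [mach, h1, h2]

theorem not_acc_of_false (heo : Injective eo) {t : ℕ} (h : Outs A ei eo l false t) (τ : ℕ) :
    (ctrl A ei l τ, cell A ei l τ (mach A ei eo).k1 0) ∉ (mach A ei eo).acc := by
  intro hc
  simp only [mach, List.mem_map, Prod.mk.injEq] at hc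
  obtain ⟨v, -, h1, h2⟩ := hc
  obtain ⟨-, h3⟩ := final A ei eo l h (τ + slow A * t) (by omega)
  have h4 := stay A ei l (τ := τ) (congrArg Prod.fst h1).symm (slow A * t)
  simp only [cell, h4] at h2 h3
  rw [h3] at h2
  simp only [Sigma.mk.injEq, heq_eq_eq, Option.some.injEq, true_and] at h2
  exact absurd (heo h2) (by decide)

theorem trace_agree {Q Kt C : Type} {M : Mach Q Kt C} {N m : ℕ} {bit bit' : ℕ → Bool}
    {c c' : ℕ → Q} {d d' : ℕ → Kt → ℕ → C} (h : M.Trace N bit c d) (h' : M.Trace N bit' c' d')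
    (hb : ∀ i, i < m → bit i = bit' i) (τ : ℕ) :
    (τ ≤ m → c τ = c' τ) ∧ ∀ κ i, i + τ < m → d τ κ i = d' τ κ i := by
  induction τ with
  | zero => exact ⟨fun _ => h.c0.trans h'.c0.symm, fun κ i hi => by rw [h.l0, h'.l0, hb i hi]⟩
  | succ τ ih =>
    refine ⟨fun h1 => ?_, fun κ i hi => ?_⟩
    · rw [h.cs, h'.cs, ih.1 (by omega), ih.2 _ 0 (by omega)]
    · rw [h.ls, h'.ls, ih.1 (by omega), ih.2 κ i (by omega), ih.2 κ (i + 1) (by omega),
        ih.2 κ (i - 1) (by omega)]

theorem must_read (heo : Injective eo) {l l' : List Bool} (hl : l.length = l'.length) {m : ℕ}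
    (hb : ∀ i, i < m → l.getD i false = l'.getD i false) {t t' : ℕ} (h : Outs A ei eo l true t)
    (h' : Outs A ei eo l' false t') : m ≤ slow A * t := by
  by_contra hc
  have h1 := trace_agree (trace A ei eo l) (hl ▸ trace A ei eo l') hb (slow A * t)
  refine not_acc_of_false A ei eo l' heo h' (slow A * t) ?_
  rw [← h1.1 (by omega), ← h1.2 _ _ (by omega)]
  exact acc_of_true A ei eo l h _ le_rfl

end

end Vale.Agent.P310
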