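import Vale.Agent.P310.Close
import Vale.Agent.P310.Game

/-! If the system does not accept, the two graphs are equivalent. -/

namespace Vale.Agent.P310

open Classical Finset

noncomputable section

theorem lin_ext {V : Type} (𝒟 : (V → F) × F → Prop) (A A' : Finset V) (hAA : A ⊆ A')
    (hcl : ∀ e e', 𝒟 e → 𝒟 e' → (∀ v, e.1 v ≠ 0 → v ∈ A') → (∀ v, e'.1 v ≠ 0 → v ∈ A') →
      𝒟 (e + e')) (h0 : 𝒟 0) (ν : V → F)
    (hν : ∀ e, 𝒟 e → (∀ v, e.1 v ≠ 0 → v ∈ A) → ∑ v ∈ A, e.1 v * ν v = e.2) :
    ∃ ν' : V → F, (∀ v ∈ A, ν' v = ν v) ∧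
      ∀ e, 𝒟 e → (∀ v, e.1 v ≠ 0 → v ∈ A') → ∑ v ∈ A', e.1 v * ν' v = e.2 := by
  let W : Submodule F ((V → F) × F) :=
    { carrier := {e | ∃ e0, 𝒟 e0 ∧ (∀ v, e0.1 v ≠ 0 → v ∈ A') ∧ ∃ β : V → F,
        (∀ v, β v ≠ 0 → v ∈ A) ∧ e = e0 + (β, ∑ v ∈ A, β v * ν v)}
      add_mem' := by
        rintro _ _ ⟨e, h1, h2, β, h3, rfl⟩ ⟨e', h1', h2', β', h3', rfl⟩
        refine ⟨e + e', hcl e e' h1 h1' h2 h2', fun v hv => ?_, β + β', fun v hv => ?_, ?_⟩
        · by_cases c : e.1 v = 0
          · exact h2' v (by simpa [c] using hv)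
          · exact h2 v c
        · by_cases c : β v = 0
          · exact h3' v (by simpa [c] using hv)
          · exact h3 v c
        · rw [add_add_add_comm]
          simp [add_mul, sum_add_distrib]
      zero_mem' := ⟨0, h0, by simp, 0, by simp, by simp [Prod.ext_iff]⟩
      smul_mem' := by
        intro c e he
        rcases F01 c with rfl | rfl
        · rw [zero_smul]; exact ⟨0, h0, by simp, 0, by simp, by simp [Prod.ext_iff]⟩
        · rwa [one_smul] }
  have hW : ((0 : V → F), (1 : F)) ∉ W := by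
    rintro ⟨e, h1, -, β, h3, h4⟩
    obtain ⟨h5, h6⟩ := Prod.ext_iff.1 h4
    have h7 : e.1 = β := funext fun v => F_add_eq0.1 (congrFun h5 v).symm
    have := hν e h1 (by rwa [h7])
    simp only [Prod.snd_add, ← this, h7, F_add_self] at h6
    exact one_ne_zero h6
  obtain ⟨f, hf1, hf2⟩ := Submodule.exists_le_ker_of_notMem hW
  replace hf1 := F_ne0 hf1
  have hf : ∀ (l : V → F) (c : F), (∀ v, l v ≠ 0 → v ∈ A') →
      f (l, c) = ∑ v ∈ A', l v * f (Pi.single v 1, 0) + c := by
    intro l c hl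
    have : (l, c) = ∑ v ∈ A', l v • ((Pi.single v 1, 0) : (V → F) × F) + c • (0, 1) := by
      refine Prod.ext (funext fun v => ?_) ?_
      · simp only [Prod.fst_add, Prod.fst_sum, Prod.smul_fst, Pi.add_apply, Finset.sum_apply,
          Pi.smul_apply, Pi.single_apply, smul_eq_mul, mul_ite, mul_one, mul_zero, Pi.zero_apply,
          add_zero, sum_ite_eq]
        split_ifs with h
        · rfl
        · by_contra h'; exact h (hl v h')
      · simp [Prod.snd_sum]
    rw [this, map_add, map_sum]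
    simp only [map_smul, smul_eq_mul, hf1, mul_one]
  refine ⟨fun v => f (Pi.single v 1, 0), fun v hv => ?_, fun e h1 h2 => ?_⟩
  · have : ((Pi.single v 1 : V → F), ν v) ∈ W := by
      refine ⟨0, h0, by simp, Pi.single v 1, fun v' h => ?_, ?_⟩
      · by_cases c : v' = v
        · rwa [c]
        · simp [c] at h
      · simp [Pi.single_apply, hv]
    have h2 : f _ = 0 := hf2 this
    rw [hf _ _ fun v' h => by
      by_cases c : v' = v
      · exact c ▸ hAA hv
      · simp [c] at h] at h2
    simp only [Pi.single_apply, ite_mul, one_mul, zero_mul, sum_ite_eq', hAA hv, if_true] at h2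
    exact F_add_eq0.1 h2
  · have : e ∈ W := ⟨e, h1, h2, 0, by simp, by simp⟩
    have h3 : f (e.1, e.2) = 0 := hf2 this
    rw [hf _ _ h2] at h3
    exact F_add_eq0.1 h3

namespace Sys

variable {R P G D : Type} {S : Sys R P G D}

def VarX (X : Finset S.Cell) : Finset (Var R P D) :=
  X.biUnion fun z => univ.biUnion fun p => (S.port z p).toFinset

theorem mem_VarX {X : Finset S.Cell} {v : Var R P D} :
    v ∈ VarX X ↔ ∃ z ∈ X, ∃ p, S.port z p = some v := by
  simp [VarX]

variable [Fintype R] [Fintype D]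

def Good (X : Finset S.Cell) (ν : Var R P D → F) : Prop :=
  ∀ e, S.InD e → (∀ v, e.1 v ≠ 0 → v ∈ VarX X) → ∑ v ∈ VarX X, e.1 v * ν v = e.2

def one (z : S.Cell) : UU R D :=
  ⟨fun ρ i t j d => if z.t < S.T ∧ ρ = z.ρ ∧ i = z.i ∧ t = z.t ∧ j = z.j ∧ d = z.d then 1 else 0,
    fun ρ j d => if ¬ z.t < S.T ∧ ρ = z.ρ ∧ j = z.j ∧ d = z.d then 1 else 0⟩

theorem bd_one_mixer (z : S.Cell) (ht : z.t < S.T) (v : Var R P D) :
    S.bd (one z) v = ∑ p, if S.port z p = some v then 1 else 0 := by
  have hj := z.hj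
  simp only [port, ht, if_true, Fin.sum_univ_five]
  have e4 : ¬ S.mport z 4 = some v := by simp [mport]
  cases v with
  | h ρ i t j d =>
    have e0 : S.mport z 0 = some (.h ρ i t j d) ↔
        ρ = z.ρ ∧ i = z.i ∧ t + 1 = z.t ∧ j = z.j ∧ d = z.d := by
      simp only [mport]
      split_ifs with c
      · cases S.src z.ρ z.i <;> simp [c]
      · simp only [Option.some.injEq, Var.h.injEq]
        constructor
        · rintro ⟨rfl, rfl, h, rfl, rfl⟩; exact ⟨rfl, rfl, by omega, rfl, rfl⟩
        · rintro ⟨rfl, rfl, h, rfl, rfl⟩; exact ⟨rfl, rfl, by omega, rfl, rfl⟩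
    have e1 : ¬ S.mport z 1 = some (.h ρ i t j d) := by simp only [mport]; split_ifs <;> simp
    have e2 : ¬ S.mport z 2 = some (.h ρ i t j d) := by simp only [mport]; split_ifs <;> simp
    have e3 : S.mport z 3 = some (.h ρ i t j d) ↔
        ρ = z.ρ ∧ i = z.i ∧ t = z.t ∧ j = z.j ∧ d = z.d := by
      simp only [mport, Option.some.injEq, Var.h.injEq]
      constructor <;> rintro ⟨rfl, rfl, rfl, rfl, rfl⟩ <;> simp
    simp only [bd, one, ht, true_and, not_true, false_and, if_false, e0, e1, e2, e3, e4, add_zero]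
    rw [add_comm]
    by_cases c : ρ = z.ρ ∧ i = z.i ∧ j = z.j ∧ d = z.d
    · obtain ⟨rfl, rfl, rfl, rfl⟩ := c
      simp only [true_and, and_true, hj]
      split_ifs <;> first | rfl | omega | simp
    · have c1 : ∀ t', ¬ (ρ = z.ρ ∧ i = z.i ∧ t' = z.t ∧ j = z.j ∧ d = z.d) :=
        fun t' h => c ⟨h.1, h.2.1, h.2.2.2⟩
      simp only [c1, if_false, ite_self, add_zero]
  | x r j d =>
    have e0 : S.mport z 0 = some (.x r j d) ↔
        S.src z.ρ z.i = some r ∧ 0 = z.t ∧ j = z.j ∧ d = S.sh z.ρ (S.gam j) z.d := by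
      simp only [mport]
      split_ifs with c
      · cases S.src z.ρ z.i with
        | none => simp
        | some r' =>
          simp only [Option.map_some, Option.some.injEq, Var.x.injEq, c, true_and]
          constructor <;> rintro ⟨rfl, rfl, rfl⟩ <;> simp
      · simp [Ne.symm c]
    have e1 : ¬ S.mport z 1 = some (.x r j d) := by simp only [mport]; split_ifs <;> simp
    have e2 : ¬ S.mport z 2 = some (.x r j d) := by simp only [mport]; split_ifs <;> simp
    have e3 : ¬ S.mport z 3 = some (.x r j d) := by simp [mport]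
    simp only [bd, one, ht, true_and, not_true, false_and, if_false, ite_self, sum_const_zero,
      zero_add, e0, e1, e2, e3, e4, add_zero]
    rw [sum_eq_single z.ρ (by intro ρ _ h; simp [h]) (by simp),
      sum_eq_single z.i (by intro ρ _ h; simp [h]) (by simp)]
    simp only [true_and, Equiv.symm_apply_eq]
    by_cases c : j = z.j
    · subst c
      simp only [hj, if_true, ← ite_and, true_and]
    · simp [c]
  | v ρ i t j e =>
    have e0 : ¬ S.mport z 0 = some (.v ρ i t j e) := by
      simp only [mport]; cases S.src z.ρ z.i <;> split_ifs <;> simp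
    have e1 : S.mport z 1 = some (.v ρ i t j e) ↔
        (ρ = z.ρ ∧ i = z.i ∧ t = z.t) ∧ j + 1 = z.j ∧ S.key j z.d = e := by
      simp only [mport]
      split_ifs with c
      · simp [c]
      · simp only [Option.some.injEq, Var.v.injEq]
        constructor
        · rintro ⟨rfl, rfl, rfl, rfl, rfl⟩; exact ⟨⟨rfl, rfl, rfl⟩, by omega, rfl⟩
        · rintro ⟨⟨rfl, rfl, rfl⟩, h, rfl⟩; rw [← h]; simp
    have e2 : S.mport z 2 = some (.v ρ i t j e) ↔
        (ρ = z.ρ ∧ i = z.i ∧ t = z.t) ∧ j + 1 < S.K ∧ j = z.j ∧ S.key j z.d = e := by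
      simp only [mport]
      split_ifs with c
      · simp only [Option.some.injEq, Var.v.injEq]
        constructor
        · rintro ⟨rfl, rfl, rfl, rfl, rfl⟩; exact ⟨⟨rfl, rfl, rfl⟩, c, rfl, rfl⟩
        · rintro ⟨⟨rfl, rfl, rfl⟩, -, rfl, rfl⟩; simp
      · simp only [false_iff]
        rintro ⟨-, h, rfl, -⟩; exact c h
    have e3 : ¬ S.mport z 3 = some (.v ρ i t j e) := by simp [mport]
    simp only [bd, one, ht, true_and, e0, e1, e2, e3, e4, if_false, add_zero, zero_add]
    by_cases c : ρ = z.ρ ∧ i = z.i ∧ t = z.t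
    · obtain ⟨rfl, rfl, rfl⟩ := c
      have : ∀ d, (if S.key j d = e then (if j = z.j ∧ d = z.d then (1 : F) else 0) +
          (if j + 1 = z.j ∧ d = z.d then 1 else 0) else 0) = if d = z.d then
          (if S.key j d = e then (if j = z.j then 1 else 0) + (if j + 1 = z.j then 1 else 0)
            else 0) else 0 := by
        intro d; by_cases c : d = z.d <;> simp [c]
      simp only [true_and, ht, this, sum_ite_eq', mem_univ, if_true, and_self]
      by_cases c1 : S.key j z.d = e
      · simp only [c1, if_true, and_true]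
        split_ifs <;> first | rfl | omega | simp
      · simp [c1]
    · have c1 : ∀ j' d, ¬ (ρ = z.ρ ∧ i = z.i ∧ t = z.t ∧ j' = z.j ∧ d = z.d) :=
        fun j' d h => c ⟨h.1, h.2.1, h.2.2.1⟩
      simp only [c1, c, if_false, ite_self, add_zero, sum_const_zero, false_and]

theorem bd_one_sum (z : S.Cell) (ht : ¬ z.t < S.T) (he : S.Eqn z.ρ (S.gam z.j) z.d)
    (v : Var R P D) : S.bd (one z) v = ∑ p, if S.port z p = some v then 1 else 0 := by
  have hj := z.hj
  have hT := S.T_ge
  simp only [port, ht, if_false, Fin.sum_univ_five, sport]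
  cases v with
  | h ρ i t j d =>
    have e0 : (if S.guard z.ρ (S.gam z.j) z.d then
        Option.map (fun r => Var.x r z.j z.d) (S.head z.ρ) else none) ≠
          some (Var.h ρ i t j d) := by
      cases S.head z.ρ <;> split_ifs <;> simp
    simp only [bd, one, ht, false_and, if_false, not_false_iff, true_and, e0, zero_add, add_zero]
    by_cases c : ρ = z.ρ ∧ j = z.j ∧ d = z.d ∧ t + 1 = S.T
    · obtain ⟨rfl, rfl, rfl, c⟩ := c
      have c1 : S.T - 1 = t := by omega
      fin_cases i <;> simp [hj, c1, show t < S.T by omega, show ¬ t + 1 < S.T by omega]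
    · have c2 : ∀ i', ¬ (z.ρ = ρ ∧ i' = i ∧ S.T - 1 = t ∧ z.j = j ∧ z.d = d) := by
        rintro i' ⟨rfl, -, h, rfl, rfl⟩; exact c ⟨rfl, rfl, rfl, by omega⟩
      simp only [Option.some.injEq, Var.h.injEq, c2, if_false, add_zero]
      split_ifs with c3 c4 c5
      · rfl
      · exact absurd ⟨c5.1, c5.2.1, c5.2.2, by omega⟩ c
      · rfl
      · rfl
  | x r j d =>
    simp only [bd, one, ht, false_and, if_false, not_false_iff, true_and, ite_self,
      sum_const_zero, add_zero]
    rw [sum_eq_single z.ρ (by intro ρ _ h; simp [h]) (by simp)]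
    cases hs : S.head z.ρ with
    | none => simp
    | some r' =>
      have hg := he.resolve_left (by simp [hs])
      by_cases c : j = z.j
      · subst c
        by_cases c1 : r' = r <;> by_cases c2 : d = z.d <;> simp [hg, hj, c1, c2, Ne.symm]
      · simp [hg, c, Ne.symm c]
  | v ρ i t j e =>
    have e0 : (if S.guard z.ρ (S.gam z.j) z.d then
        Option.map (fun r => Var.x r z.j z.d) (S.head z.ρ) else none) ≠
          some (Var.v ρ i t j e) := by
      cases S.head z.ρ <;> split_ifs <;> simp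
    simp [bd, one, ht, e0]

theorem one_spec (z : S.Cell) (h : (S.port z (S.dep z)).isSome) :
    S.InD (S.bd (one z), S.tw z) ∧
      ∀ v, S.bd (one z) v = ∑ p, if S.port z p = some v then 1 else 0 := by
  have hT := S.T_ge
  have he : ¬ z.t < S.T → S.Eqn z.ρ (S.gam z.j) z.d := by
    intro ht
    by_cases hh : S.head z.ρ = none
    · exact Or.inl hh
    · simp only [port, dep, ht, hh, or_self, if_false, sport] at h
      split_ifs at h with hg
      · exact Or.inr hg
      · simp at h
  refine ⟨⟨fun _ _ => if z.t ≤ 1 then 2 else 0, fun _ _ => by dsimp only; split_ifs <;> omega,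
    Or.inl ⟨one z, ?_, Zero.typeA fun ρ i j _ => ?_, ?_⟩⟩, fun v => ?_⟩
  · intro ρ j d _ hne
    simp only [one] at hne
    split_ifs at hne with c
    · obtain ⟨c, rfl, rfl, rfl⟩ := c; exact he c
    · exact absurd rfl hne
  · constructor <;> funext d <;> simp only [one, Pi.zero_apply] <;> rw [if_neg] <;>
      split_ifs <;> omega
  · congr 1
    have := z.ht
    simp only [cst, one, tw]
    rw [sum_eq_single z.ρ (by intro ρ _ h; simp [h]) (by simp)]
    by_cases c1 : z.t = S.T <;> by_cases c2 : S.head z.ρ = none <;> by_cases c3 : z.j = 0 <;>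
      simp [c1, c2, c3, Ne.symm, show z.t ≠ S.T → z.t < S.T by omega]
  · by_cases ht : z.t < S.T
    · exact bd_one_mixer z ht v
    · exact bd_one_sum z ht (he ht) v

theorem strat (hAcc : ¬ S.Accept) (C : CFI S.Cell (Var R P D)) (hp : C.port = S.port)
    (hd : C.dep = S.dep) (ht : C.tw = S.tw) : C.Strat S.K Good := by
  have h0 : S.InD 0 := by
    have hT := S.T_ge
    refine ⟨fun _ _ => 0, fun _ _ => by dsimp only; omega, Or.inl ⟨⟨0, 0⟩, fun _ _ _ _ h =>
      absurd rfl h, Zero.typeA fun _ _ _ _ => ⟨rfl, rfl⟩, Prod.ext (funext fun v => ?_) ?_⟩⟩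
    · cases v <;> simp [bd]
    · simp [cst]
  refine ⟨⟨0, fun e h1 h2 => ?_⟩, fun X X' ν hX h e h1 h2 => ?_, fun X ν z hX h => ?_,
    fun X ν z h hz h1 => ?_⟩
  · have : e.1 = 0 := funext fun v => by
      by_contra hc; simpa [VarX] using h2 v hc
    rcases F01 e.2 with h3 | h3
    · simp [h3]
    · exact absurd (by rwa [← this, ← h3]) (not01 (S := S))
  · have hs : VarX X ⊆ VarX X' := biUnion_subset_biUnion_of_subset_left _ hX
    rw [← h e h1 fun v hv => hs (h2 v hv)]
    refine sum_subset hs fun v _ hv => ?_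
    have : e.1 v = 0 := by by_contra hc; exact hv (h2 v hc)
    rw [this, zero_mul]
  · obtain ⟨ν', h1, h2⟩ := lin_ext S.InD (VarX X) (VarX (insert z X))
      (biUnion_subset_biUnion_of_subset_left _ (subset_insert _ _))
      (fun e e' a1 a2 a3 a4 => closure (X := insert z X) hAcc
        ((card_insert_le _ _).trans (by omega)) a1 a2 (fun v hv => mem_VarX.1 (a3 v hv))
        fun v hv => mem_VarX.1 (a4 v hv)) h0 ν h
    exact ⟨ν', h2, fun z' hz' p v hv => h1 v (mem_VarX.2 ⟨z', hz', p, hp ▸ hv⟩)⟩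
  · rw [hp, hd] at h1
    obtain ⟨h2, h3⟩ := one_spec z h1
    have := h _ h2 fun v hv => by
      dsimp only at hv
      rw [h3] at hv
      obtain ⟨p, -, h4⟩ := exists_ne_zero_of_sum_ne_zero hv
      exact mem_VarX.2 ⟨z, hz, p, by by_contra hc; simp [hc] at h4⟩
    rw [ht, ← show _ = S.tw z from this]
    simp only [h3, sum_mul, ite_mul, one_mul, zero_mul]
    rw [sum_comm]
    refine sum_congr rfl fun p _ => ?_
    unfold CFI.dlt
    rw [hp]
    cases h4 : S.port z p with
    | none => simp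
    | some v => simp [mem_VarX.2 ⟨z, hz, p, h4⟩]

theorem sound [Fintype S.Cell] (hAcc : ¬ S.Accept) (C : CFI S.Cell (Var R P D))
    (hp : C.port = S.port) (hd : C.dep = S.dep) (ht : C.tw = S.tw) :
    WLEquiv S.K (C.graph 0) (C.graph 1) :=
  CFI.wl_of_strat (strat hAcc C hp hd ht)

end Sys

end

end Vale.Agent.P310
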