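import Vale.Agent.P310.Num
import Vale.Agent.P310.Micro
import Vale.Agent.P310.Sound
import Vale.Agent.P310.Complete

/-! The diagonal argument. -/

namespace Vale.Agent.P310

open Classical Finset Ex

noncomputable section

theorem exists_code {Q : Type} (L : List (Rule Q)) :
    ∃ code : Q → ℕ, ∀ q q', Used L q → Used L q' → code q = code q' → q = q' := by
  let U : List (Option Q) := L.flatMap fun ρ => [ρ.head, ρ.s1, ρ.s2]
  refine ⟨fun q => U.idxOf (some q), fun q q' h _ h' => ?_⟩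
  have : some q ∈ U := by
    obtain ⟨ρ, h1, h2⟩ := h
    refine List.mem_flatMap.2 ⟨ρ, h1, ?_⟩
    rcases h2 with h2 | h2 | h2 <;> simp [h2]
  exact Option.some.inj ((List.idxOf_inj this).1 h')

theorem exists_beta (g : ℕ → ℕ) (n : ℕ) : ∃ a b, ∀ i, i < n → a % ((i + 1) * b + 1) = g i := by
  refine ⟨(Nat.unbeta (List.ofFn fun i : Fin n => g i)).unpair.1,
    (Nat.unbeta (List.ofFn fun i : Fin n => g i)).unpair.2, fun i hi => ?_⟩
  simpa [Nat.beta] using Nat.beta_unbeta_coe (List.ofFn fun i : Fin n => g i) ⟨i, by simpa using hi⟩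

theorem exists_root (D0 n : ℕ) (h : D0 ^ 3 ≤ n) : ∃ D, D0 ≤ D ∧ D ^ 3 ≤ n ∧ n < (D + 1) ^ 3 := by
  have h1 : D0 ≤ n := (Nat.le_self_pow (by omega) D0).trans h
  refine ⟨Nat.findGreatest (fun D => D ^ 3 ≤ n) n, Nat.le_findGreatest h1 h,
    Nat.findGreatest_spec (P := fun D => D ^ 3 ≤ n) h1 h, ?_⟩
  by_contra hc
  have h2 := not_lt.1 hc
  exact Nat.findGreatest_is_greatest (P := fun D => D ^ 3 ≤ n) (Nat.lt_succ_self _)
    ((Nat.le_self_pow (by omega) _).trans h2) h2

theorem adjBits_eq {n : ℕ} (G : SimpleGraph (Fin n)) :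
    adjBits G = List.ofFn fun i : Fin (n * n) => decide (G.Adj i.divNat i.modNat) := by
  rw [List.ofFn_mul, adjBits, List.flatMap_def, List.finRange, List.map_ofFn]
  congr 2
  funext i
  simp only [Function.comp_apply, List.map_ofFn]
  congr 1
  funext j
  have h := (Nat.div_mod_unique (a := i * n + j) (c := j) (d := i) j.pos).2 ⟨by ring, j.2⟩
  have e1 : (⟨i * n + j, by nlinarith [i.2, j.2]⟩ : Fin (n * n)).divNat = i := Fin.ext h.1
  have e2 : (⟨i * n + j, by nlinarith [i.2, j.2]⟩ : Fin (n * n)).modNat = j := Fin.ext h.2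
  simp only [Function.comp_apply, e1, e2]

def dg : ℕ := eE.deg + eN.deg

def wid (k : ℕ) (r : ℕ) : ℕ :=
  if r < 2 then k / 5 + 1 else if r = 2 then 9 else if r < 3 + 2 * dg then 9 * dg + 9 else 0

theorem wid_le {k : ℕ} (hk : 10 * ((3 + 2 * dg) * (9 * dg + 9) + 3) ≤ k) (r : ℕ) :
    off (wid k) r + wid k r ≤ k / 2 := by
  have h1 : ∀ a b m : ℕ, ∑ r ∈ range m, (if r < a then b else 0) ≤ a * b := by
    intro a b m
    rw [← sum_filter, sum_const, smul_eq_mul]
    refine Nat.mul_le_mul_right _ ((card_le_card fun r hr => ?_).trans (card_range a).le)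
    exact mem_range.2 (mem_filter.1 hr).2
  have h2 : off (wid k) r + wid k r ≤ ∑ r ∈ range (r + 1), ((if r < 2 then k / 5 + 1 else 0) +
      if r < 3 + 2 * dg then 9 * dg + 9 else 0) := by
    rw [off, ← sum_range_succ]
    refine sum_le_sum fun r _ => ?_
    unfold wid
    split_ifs <;> omega
  rw [sum_add_distrib] at h2
  have h3 := h1 2 (k / 5 + 1) (r + 1)
  have h4 := h1 (3 + 2 * dg) (9 * dg + 9) (r + 1)
  omega

def cvals (D K S a b n : ℕ) : ℕ → ℕ
  | 1 => D - 1
  | 2 => 1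
  | 3 => K
  | 4 => S
  | 5 => a
  | 6 => b
  | 7 => n % D
  | 8 => n / D % D
  | 9 => n / D / D % D
  | 10 => n / D / D / D
  | _ => 0

theorem cvals_lt {D K S a b n : ℕ} (h1 : 1 < D) (h2 : K < D) (h3 : S < D) (h4 : a < D) (h5 : b < D)
    (h6 : n < D ^ 4) (j : ℕ) : cvals D K S a b n j < D := by
  unfold cvals
  split <;> first | omega | exact Nat.mod_lt _ (by omega) | skip
  rw [Nat.div_div_eq_div_mul, Nat.div_div_eq_div_mul]
  exact Nat.div_lt_of_lt_mul (by rw [show D * (D * D) * D = D ^ 4 by ring]; exact h6)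

theorem specs {Q TQ Kt C : Type} {D : ℕ} [NeZero D] {L : List (Rule Q)} {c : ℕ → Fin D} {k : ℕ}
    {hK : 2 ≤ k} {code : Q → ℕ} (h : Par L c k code) {N : ℕ}
    {hN : 32 * cM L.length D k * (cM L.length D k + 1) ≤ N} {n : ℕ}
    (hn : ∀ x, eval (fun j => (c j).val) x en = n) (hn4 : n < D ^ 4)
    (e : Fin n ≃ (cfi L c hK N hN).Vt) (he : ∀ u, enc (e u) = u.val) (l : List Bool)
    (hl : l = adjBits (((cfi L c hK N hN).graph 0).comap e) ++
      adjBits (((cfi L c hK N hN).graph 1).comap e)) :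
    Mach.Specs (Q := TQ) (Kt := Kt) (C := C) (fun r => D ^ wid k r) (fun j => c j) l.length
      (fun i => l.getD i false) (eN.cmp 3) (eE.cmp 3) (2 * dg + 1) := by
  haveI := h.base
  have hD : 1 < D := by have := h.h2; have := (c 2).2; omega
  have hlen : l.length = n * n + n * n := by simp [hl, adjBits_eq]
  have hX : 2 ≤ D ^ 9 := hD.trans_le (Nat.le_self_pow (by omega) D)
  have hc : ∀ j, (c j).val ≤ D ^ 9 := fun j => (c j).2.le.trans (Nat.le_self_pow (by omega) D)
  have hcap : ∀ q, 3 ≤ q → q < 3 + 2 * dg → (D ^ 9) ^ dg < D ^ wid k q := by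
    intro q h1 h2
    rw [← pow_mul, wid, if_neg (by omega), if_neg (by omega), if_pos h2]
    exact Nat.pow_lt_pow_right hD (by omega)
  have hw2 : wid k 2 = 9 := by simp [wid]
  have eN' : ∀ x, eval (fun j => (c j).val) x eN = l.length := fun x => by simp [eN, hn, hlen]
  refine ⟨fun J s hs s' => ?_, fun J s hs h2 s' => ?_, ?_, by omega⟩
  · have h2 := hs 2 le_rfl (by omega)
    rw [cmp_spec (Bd := (D ^ 9) ^ dg) hX hc eN 3 s le_rfl (fun q h3 h4 =>
      ⟨hs q (by omega) (by unfold dg; omega), hcap q h3 (by unfold dg; omega)⟩)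
      (by rw [h2]; positivity) (by omega) (Nat.pow_le_pow_right (by omega) (by unfold dg; omega)),
      eN']
  · rw [cmp_spec (Bd := (D ^ 9) ^ dg) hX hc eE 3 s le_rfl (fun q h3 h4 =>
      ⟨hs q (by omega) (by unfold dg; omega), hcap q h3 (by unfold dg; omega)⟩)
      h2 (by rw [hw2] at h2; omega) (Nat.pow_le_pow_right (by omega) (by unfold dg; omega))]
    refine Eq.congr_right (congrArg _ ?_)
    simp only [eE, eval_eif, Tt_elt, eval_inp, eN', eval_add, eval_one, eval_zero]
    by_cases hx : s 2 < l.length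
    · rw [if_pos hx, if_pos hx]
      congr 1
      generalize s 2 = x at hx
      have hx' := hlen ▸ hx
      have hn0 : 0 < n := by
        rcases n with _ | n
        · omega
        · omega
      have key : ∀ fl : F, ((x / (n * n) : ℕ) : F) = fl →
          (Tt (fun j => (c j).val) x (adjE (.div .inp (.mul en en)) (emod (.div .inp en) en)
            (emod .inp en)) ↔ (((cfi L c hK N hN).graph fl).comap e).Adj
              ⟨x / n % n, Nat.mod_lt _ hn0⟩ ⟨x % n, Nat.mod_lt _ hn0⟩) := by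
        intro fl hfl
        exact Tt_adjE h (by simpa [hn] using hfl) (by simp [hn, he]) (by simp [hn, he])
      by_cases c1 : x < n * n
      · rw [key 0 (by rw [Nat.div_eq_of_lt c1]; rfl), hl, List.getD_append _ _ _ _
          (by simpa [adjBits_eq] using c1), adjBits_eq, List.getD_eq_getElem _ _ (by simpa using c1)]
        have e1 : (⟨x, c1⟩ : Fin (n * n)).divNat = ⟨x / n % n, Nat.mod_lt _ hn0⟩ :=
          Fin.ext (Nat.mod_eq_of_lt (Nat.div_lt_of_lt_mul c1)).symm
        have e2 : (⟨x, c1⟩ : Fin (n * n)).modNat = ⟨x % n, Nat.mod_lt _ hn0⟩ := rfl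
        simp only [List.getElem_ofFn, e1, e2]
        split_ifs with c2 <;> simp only [c2, decide_true, decide_false] <;> rfl
      · obtain ⟨y, rfl⟩ := Nat.exists_eq_add_of_le (not_lt.1 c1)
        have c2 : y < n * n := by omega
        rw [key 1 (by rw [Nat.add_div_left _ (by omega), Nat.div_eq_of_lt c2]; rfl), hl, List.getD_append_right _ _ _ _
          (by simp [adjBits_eq]), adjBits_eq, adjBits_eq, List.length_ofFn, Nat.add_sub_cancel_left,
          List.getD_eq_getElem _ _ (by simpa using c2)]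
        have e1 : (⟨y, c2⟩ : Fin (n * n)).divNat = ⟨(n * n + y) / n % n, Nat.mod_lt _ hn0⟩ := by
          refine Fin.ext ?_
          simp only [Fin.coe_divNat, Nat.mul_add_div hn0, Nat.add_mod_left]
          exact (Nat.mod_eq_of_lt (Nat.div_lt_of_lt_mul c2)).symm
        have e2 : (⟨y, c2⟩ : Fin (n * n)).modNat = ⟨(n * n + y) % n, Nat.mod_lt _ hn0⟩ :=
          Fin.ext (by simp)
        simp only [List.getElem_ofFn, e1, e2]
        split_ifs with c2 <;> simp only [c2, decide_true, decide_false] <;> rfl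
    · rw [if_neg hx, if_neg hx]
  · rw [hlen, hw2]
    have := Nat.mul_lt_mul'' hn4 hn4
    have h2 : D ^ 9 = D * (D ^ 4 * D ^ 4) := by ring
    rw [h2]
    nlinarith

theorem lower (k : ℕ) (hk : 10 * ((3 + 2 * dg) * (9 * dg + 9) + 3) ≤ k) (A : Turing.FinTM2)
    (ei : Bool → A.Γ A.k₀) (eo : Bool → A.Γ A.k₁) (heo : Function.Injective eo) :
    ∃ n₀, ∀ n ≥ n₀, ∃ G H : SimpleGraph (Fin n), ∀ t, Answers k A ei eo G H t →
      n ^ (k / 20) ≤ t := by
  have hK : 2 ≤ k := by omega
  obtain ⟨defs, hdefs⟩ := (mach A ei eo).exists_defs (eN.cmp 3) (eE.cmp 3) (2 * dg + 1)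
  set L := rules2 (wid k) defs with hL
  obtain ⟨code, hcode⟩ := exists_code L
  obtain ⟨a, b, hab⟩ := exists_beta
    (fun i => if h : i / 6 < L.length then fld code L[i / 6] (i % 6) else 0) (6 * L.length)
  set m0 := k * ((2 * (k + 2) + 1) * (4 * L.length)) with hm0
  refine ⟨(k + L.length + a + b + slow A + 32 * m0 * (m0 + 2) + 3) ^ 3, fun n hn => ?_⟩
  obtain ⟨D, hD0, hD1, hD2⟩ := exists_root _ n hn
  haveI : NeZero D := ⟨by omega⟩
  have hn4 : n < D ^ 4 := by
    refine hD2.trans_le ?_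
    obtain ⟨D', rfl⟩ := Nat.exists_eq_add_of_le (show 3 ≤ D by omega)
    ring_nf
    omega
  let c : ℕ → Fin D := fun j => ⟨cvals D k L.length a b n j,
    cvals_lt (by omega) (by omega) (by omega) (by omega) (by omega) hn4 j⟩
  have hP : Par L c k code := by
    refine ⟨rfl, by simp only [c, cvals]; omega, rfl, rfl, rfl, fun ρ f hf => ?_, fun j hj => ?_,
      hcode⟩
    · have := hab (6 * ρ + f) (by have := ρ.2; omega)
      have e1 : (6 * ρ.val + f) / 6 = ρ := by omega
      have e2 : (6 * ρ.val + f) % 6 = f := by omega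
      simp only [e1, e2, ρ.2, dif_pos] at this
      exact this
    · refine Fin.ext ?_
      simp only [c]
      unfold cvals
      split <;> first | omega | rfl
  have hM : cM L.length D k = D * m0 := rfl
  have hsz : 32 * cM L.length D k * (cM L.length D k + 1) + 32 * cM L.length D k ≤ n := by
    rw [hM]
    refine le_trans ?_ hD1
    have h1 : 32 * m0 * (m0 + 2) ≤ D := by omega
    have h2 : 1 ≤ D := by omega
    calc 32 * (D * m0) * (D * m0 + 1) + 32 * (D * m0) = 32 * (D * m0) * (D * m0 + 2 * 1) := by ring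
      _ ≤ 32 * (D * m0) * (D * m0 + 2 * D) := by gcongr
      _ = D ^ 2 * (32 * m0 * (m0 + 2)) := by ring
      _ ≤ D ^ 2 * D := by gcongr
      _ = D ^ 3 := by ring
  have hN : 32 * cM L.length D k * (cM L.length D k + 1) ≤ n - 32 * cM L.length D k := by omega
  obtain ⟨e, he⟩ := exists_equiv (L := L) (c := c) (hK := hK) (hN := hN) (n := n) (by omega)
  refine ⟨((cfi L c hK _ hN).graph 0).comap e, ((cfi L c hK _ hN).graph 1).comap e,
    fun t ht => ?_⟩
  have hen : ∀ x, eval (fun j => (c j).val) x en = n := by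
    intro x
    simp only [en, eval_add, eval_mul, eval_par, eval_eD hP]
    simp only [c, cvals, Nat.mod_add_div]
  have hS := specs (TQ := MQ A) (Kt := A.K) (C := MC A) hP hen hn4 e he _ rfl
  have hT := trace A ei eo (adjBits (((cfi L c hK _ hN).graph 0).comap e) ++
    adjBits (((cfi L c hK _ hN).graph 1).comap e))
  have h0 : c 0 = 0 := Fin.ext rfl
  unfold Answers at ht
  by_cases hW : WLEquiv k (((cfi L c hK _ hN).graph 0).comap e)
    (((cfi L c hK _ hN).graph 1).comap e)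
  · rw [decide_eq_true hW] at ht
    by_contra hlt
    have hcap : slow A * t < D ^ (k / 5 + 1) := by
      have h1 : n ^ (k / 20) ≤ D ^ (k / 5) :=
        (Nat.pow_le_pow_left hn4.le _).trans
          (by rw [← pow_mul]; exact Nat.pow_le_pow_right (by omega) (by omega))
      rw [pow_succ']
      exact Nat.mul_lt_mul'' (by omega) (by omega)
    obtain ⟨J, hJ1, hJ2⟩ := complete2 (hK := hK) h0 hP.h1 hP.h2 (wid_le hk) defs
    obtain ⟨P, hP1, s', hP2⟩ := Mach.tab_complete hT hS
      (fun p P h => hJ1 p P ((hdefs _).2 h)) (Tm := slow A * t) (by simpa [wid] using hcap)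
      (by simpa [wid] using hcap) (acc_of_true A ei eo _ ht _ le_rfl)
    exact Sys.complete (hJ2 P ((hdefs _).2 hP1) s' hP2) (cfi L c hK _ hN) rfl rfl rfl
      ((wl_comap e).1 hW)
  · rw [decide_eq_false hW] at ht
    have hAcc : (sys L c k hK).Accept := by
      by_contra hc
      exact hW ((wl_comap e).2 (Sys.sound hc (cfi L c hK _ hN) rfl rfl rfl))
    obtain ⟨τ, hτ⟩ := accept_sound2 h0 hP.h1 hP.h2 (wid_le hk) defs _ _
      (fun d hd => Mach.tab_sound hT hS d ((hdefs d).1 hd)) hAcc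
    exact absurd hτ (not_acc_of_false A ei eo _ heo ht τ)

theorem small (k : ℕ) (hk : 2 ≤ k) (A : Turing.FinTM2) (ei : Bool → A.Γ A.k₀)
    (eo : Bool → A.Γ A.k₁) (heo : Function.Injective eo)
    (hA : ∀ (n : ℕ) (G H : SimpleGraph (Fin n)), ∃ t, Answers k A ei eo G H t) (n : ℕ)
    (hn : slow A + 2 ≤ n) (t : ℕ) (ht : Answers k A ei eo (⊥ : SimpleGraph (Fin n)) ⊥ t) :
    n ≤ t := by
  obtain ⟨t', ht'⟩ := hA n ⊥ ⊤
  have h1 : ¬ WLEquiv k (⊥ : SimpleGraph (Fin n)) ⊤ := by
    intro h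
    obtain ⟨y, hy⟩ := h.init fun _ => ⟨0, by omega⟩
    have h2 := hy.deg hk ⟨0, by omega⟩
    haveI : Nontrivial (Fin n) := Fin.nontrivial_iff_two_le.2 (by omega)
    obtain ⟨z, hz⟩ := exists_ne (y ⟨0, by omega⟩)
    simp only [SimpleGraph.bot_adj, filter_false, card_empty, SimpleGraph.top_adj] at h2
    have h3 := card_eq_zero.1 h2.symm
    exact filter_eq_empty_iff.1 h3 (mem_univ z) hz.symm
  unfold Answers at ht ht'
  rw [decide_eq_false h1] at ht'
  rw [decide_eq_true (show WLEquiv k (⊥ : SimpleGraph (Fin n)) ⊥ from fun _ => rfl)] at ht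
  have h3 := must_read A ei eo heo (m := n * n) (by simp [adjBits_eq]) (fun i hi => by
    rw [List.getD_append _ _ _ _ (by simpa [adjBits_eq] using hi),
      List.getD_append _ _ _ _ (by simpa [adjBits_eq] using hi)]) ht ht'
  by_contra hc
  have := Nat.mul_lt_mul'' (show slow A < n by omega) (not_le.1 hc)
  omega

theorem timeLB_large : ∃ k₀ : ℕ, ∀ k ≥ k₀, TimeLB k ((k / 20 : ℕ) : ℝ) := by
  refine ⟨10 * ((3 + 2 * dg) * (9 * dg + 9) + 3), fun k hk A ei eo heo _ => ?_⟩
  obtain ⟨n₀, h⟩ := lower k hk A ei eo heo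
  refine ⟨n₀, fun n hn => ?_⟩
  obtain ⟨G, H, h1⟩ := h n hn
  refine ⟨G, H, fun t ht => ?_⟩
  rw [Real.rpow_natCast]
  exact_mod_cast h1 t ht

theorem TimeLB.mono {k : ℕ} {e e' : ℝ} (h : TimeLB k e) (he : e' ≤ e) : TimeLB k e' := by
  intro A ei eo heo hA
  obtain ⟨n₀, h⟩ := h A ei eo heo hA
  refine ⟨n₀ + 1, fun n hn => ?_⟩
  obtain ⟨G, H, h1⟩ := h n (by omega)
  refine ⟨G, H, fun t ht => le_trans ?_ (h1 t ht)⟩
  exact Real.rpow_le_rpow_of_exponent_le (by exact_mod_cast (show 1 ≤ n by omega)) he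

theorem timeLB_all : ∃ c : ℝ, 0 < c ∧ ∀ k ≥ 2, TimeLB k (c * k) := by
  obtain ⟨k₀, h⟩ := timeLB_large
  refine ⟨1 / (k₀ + 40 : ℕ), by positivity, fun k hk => ?_⟩
  by_cases c1 : k₀ + 40 ≤ k
  · refine (h k (by omega)).mono ?_
    rw [div_mul_eq_mul_div, one_mul, div_le_iff₀ (by positivity)]
    have h1 : k ≤ k / 20 * 40 := by omega
    exact_mod_cast h1.trans (Nat.mul_le_mul_left _ (by omega))
  · refine TimeLB.mono (e := 1)
      (fun A ei eo heo hA => ⟨slow A + 2, fun n hn => ⟨⊥, ⊥, fun t ht => ?_⟩⟩) ?_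
    · rw [Real.rpow_one]
      exact_mod_cast small k hk A ei eo heo hA n hn t ht
    · rw [div_mul_eq_mul_div, one_mul, div_le_one (by positivity)]
      exact_mod_cast (not_le.1 c1).le

end

end Vale.Agent.P310
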