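import Vale.Agent.P310.Loc

/-! Killing closed cylinders, absorbing sum cells. -/

namespace Vale.Agent.P310

open Classical Finset

noncomputable section

namespace Sys

variable {R P G D : Type} {S : Sys R P G D} [Fintype R] [Fintype D]

omit [Fintype R] in
theorem par_kill (f : D → F) (d1 : D) (h : ∑ d, f d = 0) (h' : ∀ d, d ≠ d1 → f d = 0) (d : D) :
    f d = 0 := by
  by_cases hd : d = d1
  · rw [hd, ← h, sum_eq_single d1 (fun d _ hd => h' d hd) (by simp)]
  · exact h' d hd

omit [Fintype D] in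
theorem pairs (f : R → F) (r' : P) :
    (∑ ρ, ∑ i, if S.src ρ i = some r' then f ρ else 0) = 0 := by
  refine sum_eq_zero fun ρ _ => ?_
  rw [Fin.sum_univ_four, S.src01, S.src23, add_assoc, F_add_self, F_add_self, add_zero]

omit [Fintype D] in
theorem sum_head {r : Option P} {β : R → F} (h : ∀ ρ, β ρ ≠ 0 → S.head ρ = r) :
    (∑ ρ, if S.head ρ = r then β ρ else 0) = ∑ ρ, β ρ := by
  refine sum_congr rfl fun ρ _ => ?_
  split_ifs with h1
  · rfl
  · by_contra h2
    exact h1 (h ρ (Ne.symm h2))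

omit [Fintype R] [Fintype D] in
theorem twin (ρ : R) (i : Fin 4) : ∃ i', i' ≠ i ∧ S.src ρ i' = S.src ρ i := by
  fin_cases i
  · exact ⟨1, by decide, (S.src01 ρ).symm⟩
  · exact ⟨0, by decide, S.src01 ρ⟩
  · exact ⟨3, by decide, (S.src23 ρ).symm⟩
  · exact ⟨2, by decide, S.src23 ρ⟩

variable {X : Finset S.Cell} {U : UU R D} {r : Option P} {a : G → D}
  {αx : F} {αm : R → Fin 4 → F}

theorem zeroable_row {g : R → Fin 4 → ℕ} (hV : S.Valid U) (hg : S.Gap g) (hA : S.TypeA g U)
    (h : S.Sub X (S.bd U)) {j : ℕ} (hj : j < S.K) {z0 : S.Cell} (hz : ∀ z ∈ X, z.j = j → z = z0) :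
    (∀ ρ i, U.u ρ i (g ρ i) j = U.u ρ 0 (g ρ 0) j) ∧
    (∀ ρ d, U.u ρ 0 (g ρ 0) j d ≠ 0 → S.Eqn ρ (S.gam j) d) ∧
    ∀ r' d, (∑ ρ, if S.head ρ = some r' then U.u ρ 0 (g ρ 0) j d else 0) = 0 := by
  have h' : S.Sub X (S.bd U + S.sg none (fun _ => S.d0) 0 0) := by rwa [sg_zero, add_zero]
  have hR : ∀ ρ i d, U.u ρ i (g ρ i) j d ≠ U.s ρ j d →
      z0.ρ = ρ ∧ z0.d = d ∧ (z0.t = S.T ∨ z0.i = i) := by
    intro ρ i d hne
    obtain ⟨z, hzX, h1, h2, h3, h4⟩ := locR h' (ρ := ρ) (i := i) (d := d) (hg ρ i) hj (by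
      rw [(hA ρ i).1 j hj]
      simpa [F_add_eq0] using hne)
    obtain rfl := hz z hzX h2
    exact ⟨h1, h3, h4.imp id fun h => h.1⟩
  have h1 : ∀ ρ i, U.u ρ i (g ρ i) j = U.u ρ 0 (g ρ 0) j := by
    intro ρ i
    funext d
    rw [← F_add_eq0]
    refine par_kill (fun d => U.u ρ i (g ρ i) j d + U.u ρ 0 (g ρ 0) j d) z0.d ?_ ?_ d
    · rw [sum_add_distrib, (hA ρ i).2.2 j hj, (hA ρ 0).2.2 j hj, add_zero]
    · intro d hd
      have e1 : U.u ρ i (g ρ i) j d = U.s ρ j d := by
        by_contra hc; exact hd (hR ρ i d hc).2.1.symm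
      have e2 : U.u ρ 0 (g ρ 0) j d = U.s ρ j d := by
        by_contra hc; exact hd (hR ρ 0 d hc).2.1.symm
      rw [e1, e2, F_add_self]
  have hR' : ∀ ρ d, U.u ρ 0 (g ρ 0) j d ≠ U.s ρ j d → z0.ρ = ρ ∧ z0.d = d ∧ z0.t = S.T := by
    intro ρ d hne
    obtain ⟨a1, a2, a3⟩ := hR ρ 0 d hne
    obtain ⟨-, -, a4⟩ := hR ρ 1 d (by rwa [h1 ρ 1])
    refine ⟨a1, a2, ?_⟩
    rcases a3 with a3 | a3
    · exact a3
    · rcases a4 with a4 | a4
      · exact a4
      · rw [a3] at a4; exact absurd a4 (by decide)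
  have hX : ∀ r' d, (∑ ρ, if S.head ρ = some r' then U.s ρ j d else 0) ≠ 0 →
      (z0.t < S.T ∧ S.sh z0.ρ (S.gam j) z0.d = d) ∨
        (z0.t = S.T ∧ S.guard z0.ρ (S.gam j) d ∧ z0.d = d) := by
    intro r' d hne
    obtain ⟨z, hzX, h2, h3⟩ := locX h' (g := g) (fun ρ i => by have := hg ρ i; omega)
      (r' := r') (d := d) hj (by
        simp only [h1]
        rw [pairs (fun ρ => U.u ρ 0 (g ρ 0) j ((S.sh ρ (S.gam j)).symm d))]
        simpa using hne)
    obtain rfl := hz z hzX h2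
    rcases h3 with h3 | h3
    · exact Or.inl ⟨by have := hg z.ρ z.i; omega, h3.2.2⟩
    · exact Or.inr ⟨h3.1, h3.2.2⟩
  have h3 : ∀ r' d, (∑ ρ, if S.head ρ = some r' then U.u ρ 0 (g ρ 0) j d else 0) = 0 := by
    intro r'
    refine par_kill _ (if z0.t = S.T then z0.d else S.sh z0.ρ (S.gam j) z0.d) ?_ ?_
    · rw [sum_comm]
      refine sum_eq_zero fun ρ _ => ?_
      split_ifs
      · exact (hA ρ 0).2.2 j hj
      · simp
    · intro d hd
      have e : ∀ ρ, U.u ρ 0 (g ρ 0) j d = U.s ρ j d := by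
        intro ρ
        by_contra hc
        obtain ⟨-, a2, a3⟩ := hR' ρ d hc
        rw [if_pos a3] at hd
        exact hd a2.symm
      simp only [e]
      by_contra hc
      rcases hX r' d hc with ⟨a1, a2⟩ | ⟨a1, -, a2⟩
      · rw [if_neg (by omega)] at hd; exact hd a2.symm
      · rw [if_pos a1] at hd; exact hd a2.symm
  refine ⟨h1, fun ρ d hne => ?_, h3⟩
  by_cases hs : U.s ρ j d = 0
  · obtain ⟨a1, a2, a3⟩ := hR' ρ d (by rwa [hs])
    cases hh : S.head ρ with
    | none => exact Or.inl hh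
    | some r' =>
      have : (∑ ρ', if S.head ρ' = some r' then U.s ρ' j d else 0) ≠ 0 := by
        intro hc
        have := F_add_eq0.2 ((h3 r' d).trans hc.symm)
        rw [← sum_add_distrib, sum_eq_single ρ] at this
        · rw [if_pos hh, if_pos hh, hs, add_zero] at this
          exact hne this
        · intro ρ' _ hρ
          have : U.u ρ' 0 (g ρ' 0) j d = U.s ρ' j d := by
            by_contra hc
            exact hρ ((hR' ρ' d hc).1.symm.trans a1)
          rw [this, F_add_self]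
        · simp
      rcases hX r' d this with ⟨b1, -⟩ | ⟨-, b2, -⟩
      · omega
      · exact Or.inr (a1 ▸ b2)
  · exact hV ρ j d hj hs

theorem zeroable {g : R → Fin 4 → ℕ} (hV : S.Valid U) (hg : S.Gap g) (hA : S.TypeA g U)
    (h : S.Sub X (S.bd U)) (hS : Sing X) :
    ∃ U', S.Valid U' ∧ S.Zero g U' ∧ S.bd U' = S.bd U ∧ S.cst U' = S.cst U := by
  have row : ∀ j, j < S.K → (∀ ρ i, U.u ρ i (g ρ i) j = U.u ρ 0 (g ρ 0) j) ∧
      (∀ ρ d, U.u ρ 0 (g ρ 0) j d ≠ 0 → S.Eqn ρ (S.gam j) d) ∧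
      ∀ r' d, (∑ ρ, if S.head ρ = some r' then U.u ρ 0 (g ρ 0) j d else 0) = 0 := by
    intro j hj
    obtain ⟨j', hj', hg', z0, hz⟩ := hS (S.gam j)
    have := zeroable_row hV hg hA h hj' hz
    have e : ∀ ρ i, U.u ρ i (g ρ i) j = U.u ρ i (g ρ i) j' :=
      fun ρ i => (hA ρ i).2.1 j j' hj hj' hg'.symm
    simpa only [e, hg'] using this
  let Z : UU R D := ⟨fun ρ _ _ j d => U.u ρ 0 (g ρ 0) j d, fun ρ j d => U.u ρ 0 (g ρ 0) j d⟩
  have hZ : S.bd Z = 0 := by
    funext v
    cases v with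
    | h ρ i t j d => simp [bd, Z, F_add_self]
    | x r' j d =>
      simp only [bd, Z, Pi.zero_apply]
      split_ifs with hj
      · rw [(row j hj).2.2, pairs (fun ρ => U.u ρ 0 (g ρ 0) j ((S.sh ρ (S.gam j)).symm d)),
          add_zero]
      · rfl
    | v ρ i t j e =>
      simp only [bd, Z, Pi.zero_apply]
      split_ifs with hj
      · by_cases hgm : S.gam j = S.gam (j + 1)
        · rw [(hA ρ 0).2.1 j (j + 1) (by omega) hj.2 hgm]
          simp [F_add_self]
        · simp only [key, if_neg hgm]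
          split_ifs
          · rw [sum_add_distrib, (hA ρ 0).2.2 j (by omega), (hA ρ 0).2.2 (j + 1) hj.2, add_zero]
          · simp
      · rfl
  have hK := S.hK
  refine ⟨U + Z, hV.add fun ρ j d hj hne => (row j hj).2.1 ρ d hne, fun ρ i j hj => ?_, ?_, ?_⟩
  · constructor
    · funext d
      simp only [add_u, Z, (hA ρ i).1 j hj, (row j hj).1 ρ i, F_add_self, Pi.zero_apply]
    · funext d
      simp only [add_u, Z, (row j hj).1 ρ i, F_add_self, Pi.zero_apply]
  · rw [bd_add, hZ, add_zero]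
  · rw [cst_add]
    have : S.cst Z = 0 := by
      refine sum_eq_zero fun ρ _ => ?_
      split_ifs
      · exact (hA ρ 0).2.2 0 (by omega)
      · rfl
    rw [this, add_zero]

def dl (ρ0 : R) (i0 : Fin 4) : R → Fin 4 → F := fun ρ i => if ρ = ρ0 ∧ i = i0 then 1 else 0

variable (S) in
def cyl (ρ0 : R) (i0 : Fin 4) (b : G → D) : UU R D :=
  ⟨fun ρ i _ j d => if ρ = ρ0 ∧ i = i0 ∧ d = b (S.gam j) then 1 else 0, fun _ _ _ => 0⟩

variable (S) in
def SC (a : G → D) (αm : R → Fin 4 → F) : UU R D :=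
  ⟨fun _ _ _ _ _ => 0, fun ρ j d => if d = a (S.gam j) then αm ρ 0 else 0⟩

theorem bd_cyl (ρ0 : R) (i0 : Fin 4) (b : G → D) (r' : Option P) :
    S.bd (S.cyl ρ0 i0 b) = S.sg r' b 0 (dl ρ0 i0) + S.sg (S.src ρ0 i0) (S.act ρ0 b) 1 0 := by
  funext v
  cases v with
  | h ρ i t j d =>
    simp only [bd, cyl, sg, dl, Pi.add_apply, Pi.zero_apply, ite_self, add_zero]
    by_cases h1 : t + 1 < S.T
    · rw [if_pos h1, F_add_self, ite_self, if_neg (by omega)]
    · rw [if_neg h1, add_zero]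
      by_cases h2 : t + 1 = S.T
      · by_cases h3 : j < S.K
        · rw [if_pos ⟨by omega, h3⟩]
          by_cases h4 : d = b (S.gam j) <;> simp [h2, h3, h4]
        · simp [h3]
      · rw [if_neg (by omega), if_neg (by omega)]
  | x r j d =>
    simp only [bd, cyl, sg, Pi.add_apply, ite_self, zero_add, sum_const_zero]
    by_cases hj : j < S.K
    · rw [if_pos hj, sum_eq_single ρ0, sum_eq_single i0]
      · simp only [hj, true_and, act, Equiv.symm_apply_eq]
        by_cases h1 : S.src ρ0 i0 = some r <;> simp [h1]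
      · intro i _ hi; simp [hi]
      · simp
      · intro ρ _ hρ; simp [hρ]
      · simp
    · simp [hj]
  | v ρ i t j e =>
    simp only [bd, cyl, sg, Pi.add_apply, add_zero]
    split_ifs with hj
    · by_cases h1 : ρ = ρ0 ∧ i = i0
      · simp only [h1, true_and]
        have : ∀ d, (if S.key j d = e then (if d = b (S.gam j) then (1 : F) else 0) +
            (if d = b (S.gam (j + 1)) then 1 else 0) else 0) =
            (if d = b (S.gam j) then (if S.key j d = e then 1 else 0) else 0) +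
            (if d = b (S.gam (j + 1)) then (if S.key j d = e then 1 else 0) else 0) := by
          intro d; split_ifs <;> simp
        simp only [this, sum_add_distrib, sum_ite_eq', mem_univ, if_true]
        have : S.key j (b (S.gam j)) = S.key j (b (S.gam (j + 1))) := by
          unfold key; split_ifs with h2
          · rw [h2]
          · rfl
        rw [this, F_add_self]
      · refine sum_eq_zero fun d _ => ?_
        rw [if_neg (c := ρ = ρ0 ∧ i = i0 ∧ d = b (S.gam j)) (by tauto),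
          if_neg (c := ρ = ρ0 ∧ i = i0 ∧ d = b (S.gam (j + 1))) (by tauto)]
        simp
    · rfl

theorem cst_cyl (ρ0 : R) (i0 : Fin 4) (b : G → D) : S.cst (S.cyl ρ0 i0 b) = 0 := by
  simp [cst, cyl]

omit [Fintype R] [Fintype D] in
theorem valid_cyl (ρ0 : R) (i0 : Fin 4) (b : G → D) : S.Valid (S.cyl ρ0 i0 b) := by
  intro ρ j d _ h; simp [cyl] at h

theorem bd_SC (hc : ∀ ρ i, αm ρ i = αm ρ 0) (hh : ∀ ρ, αm ρ 0 ≠ 0 → S.head ρ = r) :
    S.bd (S.SC a αm) = S.sg r a (∑ ρ, αm ρ 0) αm := by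
  funext v
  cases v with
  | h ρ i t j d =>
    simp only [bd, SC, sg, zero_add, hc ρ i]
    by_cases h1 : t + 1 < S.T
    · rw [if_pos h1, ite_self, if_neg (by omega)]
    · rw [if_neg h1]
      by_cases h2 : t + 1 = S.T
      · by_cases h3 : j < S.K
        · rw [if_pos ⟨by omega, h3⟩]
          by_cases h4 : d = a (S.gam j) <;> simp [h2, h3, h4]
        · simp [h3]
      · rw [if_neg (by omega), if_neg (by omega)]
  | x r' j d =>
    simp only [bd, SC, sg, ite_self, add_zero, sum_const_zero]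
    by_cases hj : j < S.K
    · by_cases h4 : d = a (S.gam j)
      · by_cases h5 : r = some r'
        · simp only [hj, h4, h5, if_true, and_self]
          exact sum_head fun ρ h => (hh ρ h).trans h5
        · simp only [hj, h4, h5, if_true, false_and, and_false, if_false]
          refine sum_eq_zero fun ρ _ => ?_
          split_ifs with h6
          · by_contra h7
            exact h5 ((hh ρ h7).symm.trans h6)
          · rfl
      · simp [h4]
    · simp [hj]
  | v ρ i t j e => simp [bd, SC, sg]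

theorem cst_SC (hAcc : ¬ S.Accept) (hc : ∀ ρ i, αm ρ i = αm ρ 0)
    (hp : ∀ ρ i, αm ρ i ≠ 0 → S.Prem ρ i a) : S.cst (S.SC a αm) = 0 := by
  refine sum_eq_zero fun ρ _ => ?_
  split_ifs with h
  · simp only [SC, sum_ite_eq', mem_univ, if_true]
    by_contra h1
    exact hAcc ⟨ρ, a, h, fun i => hp ρ i (by rwa [hc])⟩
  · rfl

omit [Fintype R] [Fintype D] in
theorem valid_SC (he : ∀ ρ m, αm ρ 0 ≠ 0 → S.Eqn ρ m (a m)) : S.Valid (S.SC a αm) := by
  intro ρ j d _ h
  simp only [SC] at h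
  split_ifs at h with h1
  · rw [h1]; exact he ρ _ h
  · exact absurd rfl h

omit [Fintype R] [Fintype D] in
theorem sg_congr {βx : F} (h : r ≠ none → αx = βx) : S.sg r a αx αm = S.sg r a βx αm := by
  cases r with
  | none => funext v; cases v <;> simp [sg]
  | some r' => rw [h (by simp)]

theorem absorb (hAcc : ¬ S.Accept) {τ : R → Fin 4 → ℕ} (hτ : S.Gap τ) (hV : S.Valid U)
    (hZ : S.Zero τ U) (hT : S.TS r a αx αm) (hN : NonEss r αx αm) (hS : Sing X)
    (h : S.Sub X (S.bd U + S.sg r a αx αm)) : S.InA τ (S.bd U + S.sg r a αx αm, S.cst U) := by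
  have he : ∀ ρ m, αm ρ 0 ≠ 0 → S.Eqn ρ m (a m) := by
    intro ρ m hne
    obtain ⟨j, hj, rfl, z0, hz⟩ := hS m
    have hR : ∀ ρ' i, U.s ρ' j (a (S.gam j)) ≠ αm ρ' 0 →
        z0.ρ = ρ' ∧ z0.d = a (S.gam j) ∧ (z0.t = S.T ∨ z0.i = i) := by
      intro ρ' i hne
      obtain ⟨z, hzX, h1, h2, h3, h4⟩ := locR h (ρ := ρ') (i := i) (d := a (S.gam j)) (hτ ρ' i) hj
        (by rw [(hZ ρ' i j hj).1, hN.1]; simpa [F_add_eq0] using hne)
      obtain rfl := hz z hzX h2
      exact ⟨h1, h3, h4.imp id fun h => h.1⟩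
    by_cases hs : U.s ρ j (a (S.gam j)) = 0
    · obtain ⟨a1, a2, a3⟩ := hR ρ 0 (by rw [hs]; exact hne.symm)
      obtain ⟨-, -, a4⟩ := hR ρ 1 (by rw [hs]; exact hne.symm)
      have a5 : z0.t = S.T := by
        rcases a3 with a3 | a3
        · exact a3
        · rcases a4 with a4 | a4
          · exact a4
          · rw [a3] at a4; exact absurd a4 (by decide)
      cases hh : S.head ρ with
      | none => exact Or.inl hh
      | some r' =>
        have hr : r = some r' := (hT.2 ρ 0 hne).1.symm.trans hh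
        obtain ⟨z, hzX, h2, h3⟩ := locX h (g := τ) (fun ρ i => by have := hτ ρ i; omega)
          (r' := r') (d := a (S.gam j)) hj (by
            simp only [fun ρ i => (hZ ρ i j hj).2, Pi.zero_apply, ite_self, sum_const_zero,
              add_zero, hr, and_self, if_true]
            rw [hN.2 (by simp [hr]), ← sum_head (S := S) (r := some r') (β := fun ρ => αm ρ 0)
              (fun ρ h => (hT.2 ρ 0 h).1.trans hr), ← sum_add_distrib, sum_eq_single ρ]
            · rwa [if_pos hh, if_pos hh, hs, zero_add]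
            · intro ρ' _ hρ
              have : U.s ρ' j (a (S.gam j)) = αm ρ' 0 := by
                by_contra hc
                exact hρ ((hR ρ' 0 hc).1.symm.trans a1)
              rw [this, F_add_self]
            · simp)
        obtain rfl := hz z hzX h2
        rcases h3 with h3 | h3
        · have := hτ z.ρ z.i; omega
        · exact Or.inr (a1 ▸ h3.2.2.1)
    · exact hV ρ j _ hj hs
  refine ⟨U + S.SC a αm, hV.add (valid_SC he), Zero.typeA fun ρ i j hj => ?_, ?_⟩
  · constructor <;> funext d <;> simp [SC, hZ ρ i j hj]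
  · rw [bd_add, cst_add, bd_SC hN.1 fun ρ h => (hT.2 ρ 0 h).1,
      cst_SC hAcc hN.1 fun ρ i h => (hT.2 ρ i h).2, add_zero, sg_congr hN.2]

end Sys

end

end Vale.Agent.P310
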