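import Vale.Agent.P310.ExLib
import Vale.Agent.P310.Loc
import Vale.Agent.P310.CFI

/-! The adjacency relation as an arithmetic expression. -/

namespace Vale.Agent.P310

open Classical Finset Ex

noncomputable section

structure CE where
  ρ : Ex
  i : Ex
  t : Ex
  j : Ex
  d : Ex

def eD : Ex := .add (.par 1) one
def eT : Ex := .mul (num 2) (.add (.par 3) (num 2))
def fldE (ρ : Ex) (f : ℕ) : Ex :=
  emod (.par 5) (.add (.mul (.add (.mul (num 6) ρ) (num (f + 1))) (.par 6)) one)
def gamE (j : Ex) : Ex := emin (.div j (num 2)) (.sub (.div (.par 3) (num 2)) one)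
def srcE (e : CE) : Ex := eif (elt e.i (num 2)) (fldE e.ρ 1) (fldE e.ρ 2)
def shE (e : CE) : Ex :=
  emod (.add e.d (eif (eeq (gamE e.j) (fldE e.ρ 3)) (sel (fldE e.ρ 4) 11) zero)) eD
def keyE (j d : Ex) : Ex := eif (eeq (gamE j) (gamE (.add j one))) d zero
def gdE (gk d : Ex) : Ex :=
  .mul (eimp (eeq gk (num 1)) (eeq d zero)) (.mul (eimp (eeq gk (num 2)) (enot (eeq d zero)))
    (.mul (eimp (eeq gk (num 3)) (eeq (.add d one) eD))
      (eimp (eeq gk (num 4)) (enot (eeq (.add d one) eD)))))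
def guardE (e : CE) : Ex := eimp (eeq (gamE e.j) (fldE e.ρ 3)) (gdE (fldE e.ρ 5) e.d)
def none6 : E6 := (zero, zero, zero, zero, zero, zero)

def mportE (e : CE) : Fin 5 → E6
  | 0 => eif6 (eeq e.t zero)
      (eif6 (eeq (srcE e) zero) none6 (num 2, srcE e, zero, zero, e.j, shE e))
      (one, e.ρ, e.i, .sub e.t one, e.j, e.d)
  | 1 => eif6 (eeq e.j zero) none6
      (num 3, e.ρ, e.i, e.t, .sub e.j one, keyE (.sub e.j one) e.d)
  | 2 => eif6 (elt (.add e.j one) (.par 3)) (num 3, e.ρ, e.i, e.t, e.j, keyE e.j e.d) none6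
  | 3 => (one, e.ρ, e.i, e.t, e.j, e.d)
  | 4 => none6

def sportE (e : CE) : Fin 5 → E6
  | 0 => (one, e.ρ, num 0, .sub eT one, e.j, e.d)
  | 1 => (one, e.ρ, num 1, .sub eT one, e.j, e.d)
  | 2 => (one, e.ρ, num 2, .sub eT one, e.j, e.d)
  | 3 => (one, e.ρ, num 3, .sub eT one, e.j, e.d)
  | 4 => eif6 (guardE e)
      (eif6 (eeq (fldE e.ρ 0) zero) none6 (num 2, fldE e.ρ 0, zero, zero, e.j, e.d)) none6

def portE (e : CE) (p : Fin 5) : E6 := eif6 (elt e.t eT) (mportE e p) (sportE e p)
def depE (e : CE) : Ex := eif (.add (elt e.t eT) (eeq (fldE e.ρ 0) zero)) (num 3) (num 4)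
def twE (e : CE) : Ex :=
  eif (.mul (eeq e.t eT) (.mul (eeq (fldE e.ρ 0) zero) (eeq e.j zero))) one zero
def bitE (b : Ex) (p : Fin 5) : Ex := .div b (num (2 ^ p.val))
def valE (fl : Ex) (e : CE) (b : Ex) (p : Fin 5) : Ex :=
  eif (eeq (num p) (depE e))
    (.add (sum5 fun p' => if p' ≠ p then eif (portE e p').1 (bitE b p') zero else zero)
      (.mul fl (twE e))) (bitE b p)
def decE (z : Ex) : CE :=
  ⟨.div (.div (.div (.div z eD) (.par 3)) (.add eT one)) (num 4),
    emod (.div (.div (.div z eD) (.par 3)) (.add eT one)) (num 4),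
    emod (.div (.div z eD) (.par 3)) (.add eT one), emod (.div z eD) (.par 3), emod z eD⟩
def cadjE (fl z b z' b' : Ex) : Ex :=
  .mul (enot (eeq z z')) (all5 fun p => all5 fun p' =>
    eimp (.mul (portE (decE z) p).1 (eq6 (portE (decE z) p) (portE (decE z') p')))
      (eeq (emod (valE fl (decE z) b p) (num 2)) (emod (valE fl (decE z') b' p') (num 2))))
def eL : Ex := .mul (num 32) (.mul eD (.mul (.par 3) (.mul (.add eT one) (.mul (num 4) (.par 4)))))
def markE (u w : Ex) : Ex := elt (.sub w eL) (.mul eL (.add (.div u (num 32)) (num 2)))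
def adjE (fl u w : Ex) : Ex :=
  eif (elt u eL)
    (eif (elt w eL)
      (cadjE fl (.div u (num 32)) (emod u (num 32)) (.div w (num 32)) (emod w (num 32)))
      (markE u w))
    (eif (elt w eL) (markE w u) zero)
def en : Ex := .add (.par 7) (.mul eD (.add (.par 8) (.mul eD (.add (.par 9) (.mul eD (.par 10))))))
def eN : Ex := .add (.mul en en) (.mul en en)
def eE : Ex :=
  eif (elt .inp eN) (.add (eif (adjE (.div .inp (.mul en en)) (emod (.div .inp en) en)
    (emod .inp en)) one zero) one) zero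

variable {Q : Type}

def oc (code : Q → ℕ) : Option Q → ℕ
  | none => 0
  | some q => code q + 1

def fld (code : Q → ℕ) (ρ : Rule Q) : ℕ → ℕ
  | 0 => oc code ρ.head
  | 1 => oc code ρ.s1
  | 2 => oc code ρ.s2
  | 3 => ρ.x.grp
  | 4 => ρ.x.shp
  | _ => ρ.x.gk

def Used (L : List (Rule Q)) (q : Q) : Prop :=
  ∃ ρ ∈ L, ρ.head = some q ∨ ρ.s1 = some q ∨ ρ.s2 = some q

variable {D : ℕ} [NeZero D]

structure Par (L : List (Rule Q)) (c : ℕ → Fin D) (K : ℕ) (code : Q → ℕ) : Prop where
  h0 : (c 0).val = 0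
  h1 : (c 1).val + 1 = D
  h2 : (c 2).val = 1
  h3 : (c 3).val = K
  h4 : (c 4).val = L.length
  h5 : ∀ (ρ : Fin L.length) f, f < 6 →
    (c 5).val % ((6 * ρ + (f + 1)) * (c 6).val + 1) = fld code L[ρ] f
  h11 : ∀ j, 11 ≤ j → c j = 0
  inj : ∀ q q', Used L q → Used L q' → code q = code q' → q = q'

def vc {n : ℕ} (code : Q → ℕ) : Option (Var (Fin n) Q (Fin D)) → N6
  | none => (0, 0, 0, 0, 0, 0)
  | some (.h ρ i t j d) => (1, ρ, i, t, j, d)
  | some (.x r j d) => (2, code r + 1, 0, 0, j, d)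
  | some (.v ρ i t j d) => (3, ρ, i, t, j, d)

variable {L : List (Rule Q)} {c : ℕ → Fin D} {K : ℕ} {hK : 2 ≤ K} {code : Q → ℕ} {x : ℕ}

theorem Par.base (h : Par L c K code) : Base fun j => (c j).val := ⟨h.h0, h.h2⟩

structure Rep (x : ℕ) (z : (sys L c K hK).Cell) (e : CE) : Prop where
  ρ : eval (fun j => (c j).val) x e.ρ = z.ρ.val
  i : eval (fun j => (c j).val) x e.i = z.i.val
  t : eval (fun j => (c j).val) x e.t = z.t
  j : eval (fun j => (c j).val) x e.j = z.j
  d : eval (fun j => (c j).val) x e.d = z.d.val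

omit [NeZero D] in
theorem oc_zero (o : Option Q) : oc code o = 0 ↔ o = none := by cases o <;> simp [oc]

section
variable (h : Par L c K code)
include h

theorem eval_eD : eval (fun j => (c j).val) x eD = D := by
  haveI := h.base; simp [eD, h.h1]

theorem eval_eT : eval (fun j => (c j).val) x eT = (sys L c K hK).T := by
  haveI := h.base; simp [eT, h.h3, Sys.T, sys]

theorem eval_gamE (j : Ex) :
    eval (fun j => (c j).val) x (gamE j) = (gam K hK (eval (fun j => (c j).val) x j)).val := by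
  haveI := h.base; simp [gamE, h.h3, gam]

theorem eval_keyE (j : Ex) {d : Ex} {d' : Fin D} (hd : eval (fun j => (c j).val) x d = d') :
    eval (fun j => (c j).val) x (keyE j d) =
      ((sys L c K hK).key (eval (fun j => (c j).val) x j) d').val := by
  haveI := h.base
  simp only [keyE, eval_eif, Tt_eeq, eval_gamE (hK := hK) h, eval_add, eval_one, hd, eval_zero,
    Fin.val_inj]
  unfold Sys.key
  split_ifs with c1 c2 c2
  · rfl
  · exact absurd c1 c2
  · exact absurd c2 c1
  · rfl

variable {z : (sys L c K hK).Cell} {e : CE} (hr : Rep x z e)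
include hr

theorem eval_fldE {f : ℕ} (hf : f < 6) :
    eval (fun j => (c j).val) x (fldE e.ρ f) = fld code L[z.ρ] f := by
  haveI := h.base
  simp only [fldE, eval_emod, eval_par, eval_add, eval_mul, eval_num, eval_one, hr.ρ]
  exact h.h5 z.ρ f hf

theorem eval_srcE : eval (fun j => (c j).val) x (srcE e) = oc code ((sys L c K hK).src z.ρ z.i) := by
  haveI := h.base
  simp only [srcE, eval_eif, Tt_elt, hr.i, eval_num, eval_fldE h hr (show 1 < 6 by omega),
    eval_fldE h hr (show 2 < 6 by omega), fld, sys]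
  split_ifs <;> rfl

theorem eval_shE : eval (fun j => (c j).val) x (shE e) =
    ((sys L c K hK).sh z.ρ ((sys L c K hK).gam z.j) z.d).val := by
  haveI := h.base
  simp only [shE, eval_emod, eval_add, eval_eif, Tt_eeq, hr.d, hr.j, eval_gamE (hK := hK) h,
    eval_fldE h hr (show 3 < 6 by omega), eval_fldE h hr (show 4 < 6 by omega), fld, sys,
    eval_sel, eval_zero, eval_eD h, Equiv.coe_addRight, Fin.val_add]
  split_ifs with c1 c2
  · rfl
  · rw [h.h11 _ (not_lt.1 c2)]; rfl
  · rfl

theorem Tt_guardE : Tt (fun j => (c j).val) x (guardE e) ↔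
    (sys L c K hK).guard z.ρ ((sys L c K hK).gam z.j) z.d := by
  haveI := h.base
  simp only [guardE, gdE, Tt_eimp, Tt_mul, Tt_enot, Tt_eeq, eval_add, hr.d, hr.j,
    eval_gamE (hK := hK) h, eval_fldE h hr (show 3 < 6 by omega),
    eval_fldE h hr (show 5 < 6 by omega), fld, sys, eval_zero, eval_eD h, eval_num, eval_one, gd]

theorem ev6_portE (p : Fin 5) :
    ev6 (fun j => (c j).val) x (portE e p) = vc code ((sys L c K hK).port z p) := by
  haveI := h.base
  have hK' : (c 3).val = (sys L c K hK).K := h.h3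
  have hh : fld code L[z.ρ] 0 = oc code ((sys L c K hK).head z.ρ) := rfl
  simp only [portE, ev6_eif6, Tt_elt, hr.t, eval_eT (hK := hK) h, Sys.port]
  split_ifs
  · fin_cases p <;>
      simp only [mportE, Sys.mport, ev6_eif6, Tt_eeq, Tt_elt, ev6_mk, none6, eval_zero, eval_one,
        eval_num, hr.ρ, hr.i, hr.t, hr.j, hr.d, eval_sub, eval_add, eval_par, hK',
        eval_srcE h hr, eval_shE h hr, eval_keyE (hK := hK) h _ hr.d, oc_zero]
    · split_ifs with c1 c2
      · rw [c2]; rfl
      · obtain ⟨r, hr⟩ := Option.ne_none_iff_exists'.1 c2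
        rw [hr]; rfl
      · rfl
    · split_ifs <;> rfl
    · split_ifs <;> rfl
    · rfl
    · rfl
  · fin_cases p <;>
      simp only [sportE, Sys.sport, ev6_eif6, Tt_eeq, ev6_mk, none6, eval_zero, eval_one,
        eval_num, hr.ρ, hr.j, hr.d, eval_sub, eval_eT (hK := hK) h, Tt_guardE h hr,
        eval_fldE h hr (show 0 < 6 by omega), hh, oc_zero]
    iterate 4 rfl
    split_ifs with c1 c2
    · rw [c2]; rfl
    · obtain ⟨r, hr⟩ := Option.ne_none_iff_exists'.1 c2
      rw [hr]; rfl
    · rfl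

theorem Tt_has (p : Fin 5) :
    Tt (fun j => (c j).val) x (portE e p).1 ↔ ((sys L c K hK).port z p).isSome := by
  have := congrArg Prod.fst (ev6_portE h hr p)
  unfold Tt
  rw [show eval _ x (portE e p).1 = _ from this]
  rcases (sys L c K hK).port z p with _ | _ | _ | _ <;> simp [vc]

theorem eval_valE {C : CFI (sys L c K hK).Cell (Var (Fin L.length) Q (Fin D))}
    (hp : C.port = (sys L c K hK).port) (hd : C.dep = (sys L c K hK).dep)
    (ht : C.tw = (sys L c K hK).tw) {fl : F} {flE : Ex}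
    (hf : (eval (fun j => (c j).val) x flE : F) = fl) {b : Fin 5 → F} {bE : Ex}
    (hb : ∀ p, (eval (fun j => (c j).val) x (bitE bE p) : F) = b p) (p : Fin 5) :
    (eval (fun j => (c j).val) x (valE flE e bE p) : F) = C.val fl z b p := by
  haveI := h.base
  have hh : fld code L[z.ρ] 0 = oc code ((sys L c K hK).head z.ρ) := rfl
  have e1 : eval (fun j => (c j).val) x (depE e) = (C.dep z).val := by
    simp only [depE, eval_eif, Tt_add, Tt_elt, Tt_eeq, hr.t, eval_eT (hK := hK) h,
      eval_fldE h hr (show 0 < 6 by omega), hh, oc_zero, eval_zero, eval_num, hd, Sys.dep]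
    split_ifs <;> rfl
  have e2 : (eval (fun j => (c j).val) x (twE e) : F) = C.tw z := by
    simp only [twE, eval_eif, Tt_mul, Tt_eeq, hr.t, hr.j, eval_eT (hK := hK) h,
      eval_fldE h hr (show 0 < 6 by omega), hh, oc_zero, eval_zero, eval_one, ht, Sys.tw]
    split_ifs <;> rfl
  simp only [valE, eval_eif, Tt_eeq, eval_num, e1, Fin.val_inj, CFI.val]
  split_ifs
  · simp only [eval_add, eval_mul, eval_sum5, Nat.cast_add, Nat.cast_mul, Nat.cast_sum, hf, e2]
    congr 1
    refine sum_congr rfl fun p' _ => ?_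
    by_cases c1 : p' = p
    · simp [c1]
    · simp only [ne_eq, c1, not_false_eq_true, if_true, eval_eif, Tt_has h hr, true_and, hp]
      split_ifs
      · exact hb p'
      · simp
  · exact hb p

end

def OkV {n : ℕ} (L : List (Rule Q)) : Option (Var (Fin n) Q (Fin D)) → Prop
  | some (.x r _ _) => Used L r
  | _ => True

theorem port_ok (z : (sys L c K hK).Cell) (p : Fin 5) : OkV L ((sys L c K hK).port z p) := by
  rcases hp : (sys L c K hK).port z p with _ | _ | ⟨r, j, d⟩ | _
  · trivial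
  · trivial
  · refine ⟨L[z.ρ], List.getElem_mem _, ?_⟩
    rcases (Sys.port_x hp).2 with h | h
    · have := h.2.1
      simp only [sys] at this
      split_ifs at this
      · exact Or.inr (Or.inl this)
      · exact Or.inr (Or.inr this)
    · exact Or.inl h.2.1
  · trivial

theorem vc_inj (h : Par L c K code) {n : ℕ} {a b : Option (Var (Fin n) Q (Fin D))}
    (ha : OkV L a) (hb : OkV L b) (hab : vc code a = vc code b) : a = b := by
  rcases a with _ | _ | _ | _ <;> rcases b with _ | _ | _ | _ <;>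
    simp only [vc, Prod.mk.injEq, Fin.val_inj, Nat.add_right_cancel_iff] at hab <;>
    first | omega | rfl | skip
  · simp [hab]
  · rw [h.inj _ _ ha hb hab.2.1]; simp [hab]
  · simp [hab]

def cnum (z : (sys L c K hK).Cell) : ℕ :=
  z.d + D * (z.j + K * (z.t + ((sys L c K hK).T + 1) * (z.i + 4 * z.ρ)))

theorem rep_decE (h : Par L c K code) {z : (sys L c K hK).Cell} {zE : Ex}
    (hz : eval (fun j => (c j).val) x zE = cnum z) : Rep x z (decE zE) := by
  haveI := h.base
  have hD : 0 < D := Nat.pos_of_ne_zero (NeZero.ne D)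
  have a1 : ∀ a b m : ℕ, a < m → (a + m * b) / m = b ∧ (a + m * b) % m = a := by
    intro a b m hm
    exact (Nat.div_mod_unique (by omega)).2 ⟨rfl, hm⟩
  have h1 := z.ht
  have h2 : z.j < K := z.hj
  constructor <;>
    simp only [decE, eval_div, eval_emod, eval_par, eval_add, eval_one, eval_num, hz, cnum,
      eval_eD h, eval_eT (hK := hK) h, h.h3, a1 _ _ _ z.d.2, a1 _ _ _ h2,
      a1 _ _ _ (Nat.lt_succ_of_le h1), a1 _ _ _ z.i.2]

theorem cnum_inj : Function.Injective (cnum (L := L) (c := c) (hK := hK)) := by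
  have a1 : ∀ {a b a' b' m : ℕ}, a < m → a' < m → a + m * b = a' + m * b' → a = a' ∧ b = b' := by
    intro a b a' b' m h1 h2 h
    have e1 := (Nat.div_mod_unique (a := a + m * b) (by omega)).2 ⟨rfl, h1⟩
    have e2 := (Nat.div_mod_unique (a := a + m * b) (by omega)).2 ⟨h.symm, h2⟩
    exact ⟨e1.2.symm.trans e2.2, e1.1.symm.trans e2.1⟩
  rintro ⟨ρ, i, t, j, d, ht, hj⟩ ⟨ρ', i', t', j', d', ht', hj'⟩ h
  obtain ⟨h1, h⟩ := a1 d.2 d'.2 h
  obtain ⟨h2, h⟩ := a1 hj hj' h
  obtain ⟨h3, h⟩ := a1 (Nat.lt_succ_of_le ht) (Nat.lt_succ_of_le ht') h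
  obtain ⟨h4, h⟩ := a1 i.2 i'.2 h
  simp only [Sys.Cell.mk.injEq]
  exact ⟨Fin.ext h, Fin.ext h4, h3, h2, Fin.ext h1⟩

def cM (S D K : ℕ) : ℕ := D * (K * ((2 * (K + 2) + 1) * (4 * S)))

theorem cnum_lt (z : (sys L c K hK).Cell) : cnum z < cM L.length D K := by
  have a1 : ∀ {a b m n : ℕ}, a < m → b < n → a + m * b < m * n := by
    intro a b m n h1 h2
    have := Nat.mul_le_mul_left m (Nat.succ_le_of_lt h2)
    rw [Nat.mul_succ] at this
    omega
  exact a1 z.d.2 (a1 z.hj (a1 (Nat.lt_succ_of_le z.ht) (a1 z.i.2 z.ρ.2)))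

def cellEquiv : (sys L c K hK).Cell ≃
    Fin D × Fin K × Fin (2 * (K + 2) + 1) × Fin 4 × Fin L.length where
  toFun z := (z.d, ⟨z.j, z.hj⟩, ⟨z.t, Nat.lt_succ_of_le z.ht⟩, z.i, z.ρ)
  invFun u := ⟨u.2.2.2.2, u.2.2.2.1, u.2.2.1, u.2.1, u.1, Nat.le_of_lt_succ u.2.2.1.2, u.2.1.2⟩
  left_inv _ := rfl
  right_inv _ := rfl

instance : Fintype (sys L c K hK).Cell := Fintype.ofEquiv _ cellEquiv.symm

theorem card_cell : Fintype.card (sys L c K hK).Cell = cM L.length D K := by
  rw [Fintype.card_congr cellEquiv]; simp [cM]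

def cfi (L : List (Rule Q)) (c : ℕ → Fin D) (hK : 2 ≤ K) (N : ℕ)
    (hN : 32 * cM L.length D K * (cM L.length D K + 1) ≤ N) :
    CFI (sys L c K hK).Cell (Var (Fin L.length) Q (Fin D)) :=
  ⟨(sys L c K hK).port, (sys L c K hK).dep, (sys L c K hK).tw, cnum, cM L.length D K, N,
    cnum_inj, cnum_lt, hN⟩

def bnum (b : Fin 5 → F) : ℕ := (finFunctionFinEquiv (m := 2) b).val

omit [NeZero D] in
theorem bnum_lt (b : Fin 5 → F) : bnum b < 32 := (finFunctionFinEquiv (m := 2) b).2

omit [NeZero D] in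
theorem bnum_bit (b : Fin 5 → F) (p : Fin 5) : ((bnum b / 2 ^ p.val : ℕ) : F) = b p := by
  have := congrArg Fin.val (congrFun ((finFunctionFinEquiv (m := 2)).symm_apply_apply b) p)
  rw [finFunctionFinEquiv_symm_apply_val] at this
  rw [← ZMod.natCast_mod, bnum, this]
  exact ZMod.natCast_zmod_val (n := 2) (b p)

variable {N : ℕ} {hN : 32 * cM L.length D K * (cM L.length D K + 1) ≤ N}

def enc : (cfi L c hK N hN).Vt → ℕ
  | .inl w => bnum w.2 + 32 * cnum w.1
  | .inr j => 32 * cM L.length D K + j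

theorem Tt_cadjE (h : Par L c K code) {fl : F} {flE : Ex}
    (hf : (eval (fun j => (c j).val) x flE : F) = fl) {z z' : (sys L c K hK).Cell}
    {b b' : Fin 5 → F} {zE bE zE' bE' : Ex} (hz : eval (fun j => (c j).val) x zE = cnum z)
    (hb : eval (fun j => (c j).val) x bE = bnum b) (hz' : eval (fun j => (c j).val) x zE' = cnum z')
    (hb' : eval (fun j => (c j).val) x bE' = bnum b') :
    Tt (fun j => (c j).val) x (cadjE flE zE bE zE' bE') ↔
      (cfi L c hK N hN).cadj fl (z, b) (z', b') := by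
  haveI := h.base
  have r := rep_decE h hz
  have r' := rep_decE h hz'
  simp only [cadjE, Tt_mul, Tt_enot, Tt_eeq, Tt_all5, Tt_eimp, Tt_eq6, hz, hz', cnum_inj.eq_iff,
    Tt_has h r, ev6_portE h r, ev6_portE h r', eval_emod, eval_num, ← ZMod.natCast_eq_natCast_iff',
    eval_valE h r (C := cfi L c hK N hN) rfl rfl rfl hf (b := b) (bE := bE)
      (fun p => by simp only [bitE, eval_div, eval_num, hb, bnum_bit]),
    eval_valE h r' (C := cfi L c hK N hN) rfl rfl rfl hf (b := b') (bE := bE')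
      (fun p => by simp only [bitE, eval_div, eval_num, hb', bnum_bit]), CFI.cadj]
  refine and_congr Iff.rfl (forall₂_congr fun p p' => ⟨fun h1 v h2 h3 => h1 ?_, fun h1 h2 => ?_⟩)
  · have h2' : (sys L c K hK).port z p = some v := h2
    have h3' : (sys L c K hK).port z' p' = some v := h3
    simp [h2', h3']
  · obtain ⟨v, hv⟩ := Option.isSome_iff_exists.1 h2.1
    exact h1 v hv ((vc_inj h (port_ok z p) (port_ok z' p') h2.2).symm.trans hv)

theorem Tt_adjE (h : Par L c K code) {fl : F} {flE : Ex}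
    (hf : (eval (fun j => (c j).val) x flE : F) = fl) {u w : (cfi L c hK N hN).Vt} {uE wE : Ex}
    (hu : eval (fun j => (c j).val) x uE = enc u) (hw : eval (fun j => (c j).val) x wE = enc w) :
    Tt (fun j => (c j).val) x (adjE flE uE wE) ↔ ((cfi L c hK N hN).graph fl).Adj u w := by
  haveI := h.base
  have eL' : eval (fun j => (c j).val) x eL = 32 * cM L.length D K := by
    simp [eL, eval_eD h, eval_eT (hK := hK) h, h.h3, h.h4, cM, Sys.T, sys]
  have a1 : ∀ (z : (sys L c K hK).Cell) (b : Fin 5 → F),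
      bnum b + 32 * cnum z < 32 * cM L.length D K ∧ (bnum b + 32 * cnum z) / 32 = cnum z ∧
        (bnum b + 32 * cnum z) % 32 = bnum b := by
    intro z b
    have := bnum_lt b
    have := cnum_lt z
    omega
  rcases u with ⟨z, b⟩ | j <;> rcases w with ⟨z', b'⟩ | j' <;> simp only [enc] at hu hw <;>
    simp only [adjE, markE, Tt_eif, Tt_elt, eL', hu, hw, eval_sub, eval_mul, eval_add, eval_div,
      eval_num]
  · rw [if_pos (a1 z b).1, if_pos (a1 z' b').1]
    exact Tt_cadjE h hf (by simp [hu, a1]) (by simp [hu, a1]) (by simp [hw, a1]) (by simp [hw, a1])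
  · rw [if_pos (a1 z b).1, if_neg (by omega), (a1 z b).2.1, Nat.add_sub_cancel_left]; rfl
  · rw [if_neg (by omega), if_pos (a1 z' b').1, (a1 z' b').2.1, Nat.add_sub_cancel_left]; rfl
  · rw [if_neg (by omega), if_neg (by omega)]
    exact iff_of_false Tt_zero id

theorem exists_equiv {n : ℕ} (hn : n = 32 * cM L.length D K + N) :
    ∃ e : Fin n ≃ (cfi L c hK N hN).Vt, ∀ u, enc (e u) = u.val := by
  have h1 : ∀ v : (cfi L c hK N hN).Vt, enc v < n := by
    rintro (⟨z, b⟩ | j)
    · have := bnum_lt b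
      have := cnum_lt z
      simp only [enc]; omega
    · have : j.val < N := j.2
      simp only [enc]; omega
  let f : (cfi L c hK N hN).Vt → Fin n := fun v => ⟨enc v, h1 v⟩
  have h2 : Function.Bijective f := by
    refine (Fintype.bijective_iff_injective_and_card f).2 ⟨?_, ?_⟩
    · rintro (⟨z, b⟩ | j) (⟨z', b'⟩ | j') h <;> simp only [f, enc, Fin.mk.injEq] at h
      · have a1 := bnum_lt b
        have a2 := bnum_lt b'
        rw [cnum_inj (show cnum z = cnum z' by omega),
          (finFunctionFinEquiv (m := 2)).injective (Fin.ext (show bnum b = bnum b' by omega))]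
      · have := bnum_lt b
        have := cnum_lt z
        omega
      · have := bnum_lt b'
        have := cnum_lt z'
        omega
      · rw [Fin.ext (show j.val = j'.val by omega)]
    · rw [Fintype.card_sum, Fintype.card_prod, card_cell, Fintype.card_fin, Fintype.card_fin]
      simp only [Fintype.card_pi, ZMod.card, prod_const, card_univ, Fintype.card_fin]
      change cM L.length D K * 2 ^ 5 + N = n
      omega
  exact ⟨(Equiv.ofBijective f h2).symm, fun u =>
    congrArg Fin.val ((Equiv.ofBijective f h2).apply_symm_apply u)⟩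

end

end Vale.Agent.P310
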