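import Vale.Agent.P310.Sys

/-! Regular programs with tests, compiled to rules. -/

namespace Vale.Agent.P310

open Classical

noncomputable section

inductive Prog (A B : Type)
  | fail
  | act (x : A)
  | test (p : B)
  | seq (P Q : Prog A B)
  | alt (P Q : Prog A B)
  | star (P : Prog A B)

namespace Prog

variable {A A' B St St' : Type}

def Run (step : A → St → St → Prop) (J : B → St → Prop) : Prog A B → St → St → Prop
  | fail, _, _ => False
  | act x, s, s' => step x s s'
  | test p, s, s' => J p s ∧ s' = s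
  | seq P Q, s, s' => ∃ s1, Run step J P s s1 ∧ Run step J Q s1 s'
  | alt P Q, s, s' => Run step J P s s' ∨ Run step J Q s s'
  | star P, s, s' => Relation.ReflTransGen (Run step J P) s s'

def skip : Prog A B := star fail

theorem run_skip {step : A → St → St → Prop} {J : B → St → Prop} {s s' : St} :
    Run step J skip s s' ↔ s' = s := by
  constructor
  · intro h
    induction h with
    | refl => rfl
    | tail _ h _ => exact h.elim
  · rintro rfl; exact Relation.ReflTransGen.refl

def bind (f : A → Prog A' B) : Prog A B → Prog A' B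
  | fail => fail
  | act x => f x
  | test p => test p
  | seq P Q => seq (bind f P) (bind f Q)
  | alt P Q => alt (bind f P) (bind f Q)
  | star P => star (bind f P)

theorem bind_fwd {step : A → St → St → Prop} {step' : A' → St' → St' → Prop} {f : A → Prog A' B}
    (st : St' → St) {J : B → St → Prop}
    (h : ∀ x a b, Run step' (fun p a => J p (st a)) (f x) a b → step x (st a) (st b)) (P : Prog A B) :
    ∀ a b, Run step' (fun p a => J p (st a)) (bind f P) a b → Run step J P (st a) (st b) := by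
  induction P with
  | fail => exact fun _ _ h => h
  | act x => exact h x
  | test p => rintro a b ⟨h1, rfl⟩; exact ⟨h1, rfl⟩
  | seq P Q ihP ihQ => rintro a b ⟨c, h1, h2⟩; exact ⟨_, ihP _ _ h1, ihQ _ _ h2⟩
  | alt P Q ihP ihQ => exact fun a b h => h.imp (ihP a b) (ihQ a b)
  | star P ih =>
    intro a b h
    induction h with
    | refl => exact Relation.ReflTransGen.refl
    | tail _ h2 ih2 => exact Relation.ReflTransGen.tail ih2 (ih _ _ h2)

theorem bind_bwd {step : A → St → St → Prop} {step' : A' → St' → St' → Prop} {f : A → Prog A' B}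
    (st : St' → St) {J' : B → St' → Prop}
    (h : ∀ x a s, step x (st a) s → ∃ b, st b = s ∧ Run step' J' (f x) a b) (P : Prog A B) :
    ∀ a s, Run step (fun p s => ∀ a, st a = s → J' p a) P (st a) s →
      ∃ b, st b = s ∧ Run step' J' (bind f P) a b := by
  induction P with
  | fail => exact fun _ _ h => h.elim
  | act x => exact h x
  | test p => rintro a b ⟨h1, rfl⟩; exact ⟨a, rfl, h1 a rfl, rfl⟩
  | seq P Q ihP ihQ =>
    rintro a s ⟨s1, h1, h2⟩
    obtain ⟨b, rfl, h3⟩ := ihP _ _ h1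
    obtain ⟨c, rfl, h4⟩ := ihQ _ _ h2
    exact ⟨c, rfl, b, h3, h4⟩
  | alt P Q ihP ihQ =>
    rintro a s (h1 | h1)
    · obtain ⟨b, h2, h3⟩ := ihP _ _ h1; exact ⟨b, h2, Or.inl h3⟩
    · obtain ⟨b, h2, h3⟩ := ihQ _ _ h1; exact ⟨b, h2, Or.inr h3⟩
  | star P ih =>
    intro a s h
    induction h with
    | refl => exact ⟨a, rfl, Relation.ReflTransGen.refl⟩
    | tail _ h2 ih2 =>
      obtain ⟨b, rfl, h3⟩ := ih2
      obtain ⟨c, rfl, h4⟩ := ih _ _ h2
      exact ⟨c, rfl, Relation.ReflTransGen.tail h3 h4⟩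

end Prog

structure Act where
  grp : ℕ
  shp : ℕ
  gk : ℕ

structure Rule (Q : Type) where
  head : Option Q
  s1 : Option Q
  s2 : Option Q
  x : Act

def gd (D gk d : ℕ) : Prop :=
  (gk = 1 → d = 0) ∧ (gk = 2 → d ≠ 0) ∧ (gk = 3 → d + 1 = D) ∧ (gk = 4 → d + 1 ≠ D)

def gam (K : ℕ) (hK : 2 ≤ K) (j : ℕ) : Fin (K / 2) := ⟨min (j / 2) (K / 2 - 1), by omega⟩

section
variable {Q : Type} {D : ℕ} [NeZero D]

def sys (L : List (Rule Q)) (c : ℕ → Fin D) (K : ℕ) (hK : 2 ≤ K) :
    Sys (Fin L.length) Q (Fin (K / 2)) (Fin D) where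
  head ρ := L[ρ].head
  src ρ i := if i.val < 2 then L[ρ].s1 else L[ρ].s2
  src01 _ := rfl
  src23 _ := rfl
  sh ρ m := Equiv.addRight (if m.val = L[ρ].x.grp then c L[ρ].x.shp else 0)
  guard ρ m d := m.val = L[ρ].x.grp → gd D L[ρ].x.gk d.val
  K := K
  gam := gam K hK
  d0 := 0
  hK := hK
  two m := ⟨2 * m, 2 * m + 1, by omega, by omega, by omega,
    Fin.ext (by simp only [gam]; omega), Fin.ext (by simp only [gam]; omega)⟩
  cont j l j' h1 h2 _ h := by
    simp only [gam, Fin.mk.injEq] at h ⊢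
    omega

def app (c : ℕ → Fin D) {k0 : ℕ} (x : Act) (a : Fin k0 → Fin D) : Fin k0 → Fin D :=
  fun m => a m + if m.val = x.grp then c x.shp else 0

def step1 (c : ℕ → Fin D) {k0 : ℕ} (x : Act) (a b : Fin k0 → Fin D) : Prop :=
  (∀ m : Fin k0, m.val = x.grp → gd D x.gk (a m).val) ∧ b = app c x a

end

abbrev PQ (B : Type) := B ⊕ List (Prog Act B)

variable {B : Type}

def cont : List (Prog Act B) → Option (PQ B)
  | [] => none
  | P :: k => some (.inr (P :: k))

def nop : Act := ⟨0, 0, 0⟩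

def comp : Prog Act B → List (Prog Act B) → List (Rule (PQ B))
  | .fail, _ => []
  | .act x, k => [⟨cont (.act x :: k), cont k, none, x⟩]
  | .test p, k => [⟨cont (.test p :: k), some (.inl p), cont k, nop⟩]
  | .seq P Q, k => ⟨cont (.seq P Q :: k), cont (P :: Q :: k), none, nop⟩ ::
      (comp P (Q :: k) ++ comp Q k)
  | .alt P Q, k => ⟨cont (.alt P Q :: k), cont (P :: k), none, nop⟩ ::
      ⟨cont (.alt P Q :: k), cont (Q :: k), none, nop⟩ :: (comp P k ++ comp Q k)
  | .star P, k => ⟨cont (.star P :: k), cont k, none, nop⟩ ::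
      ⟨cont (.star P :: k), cont (P :: .star P :: k), none, nop⟩ :: comp P (.star P :: k)

def allRules (defs : List (Option B × Prog Act B)) : List (Rule (PQ B)) :=
  defs.flatMap fun e => ⟨e.1.map .inl, cont [e.2], none, nop⟩ :: comp e.2 []

variable {D : ℕ} [NeZero D] {c : ℕ → Fin D}

theorem app_nop (hc : c 0 = 0) {k0 : ℕ} (a : Fin k0 → Fin D) : app c nop a = a := by
  funext m; simp [app, nop, hc]

theorem gd_nop (d : ℕ) : gd D nop.gk d := by simp [gd, nop]

section sound
variable {k0 : ℕ} (c) (I : B → (Fin k0 → Fin D) → Prop)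

def Ik : List (Prog Act B) → (Fin k0 → Fin D) → Prop
  | [], _ => True
  | P :: k, a => ∃ b, Prog.Run (step1 c) I P a b ∧ Ik k b

def IQ : Option (PQ B) → (Fin k0 → Fin D) → Prop
  | none, _ => True
  | some (.inl p), a => I p a
  | some (.inr k), a => Ik c I k a

theorem IQ_cont (k : List (Prog Act B)) (a : Fin k0 → Fin D) : IQ c I (cont k) a ↔ Ik c I k a := by
  cases k <;> simp [cont, IQ, Ik]

def RuleOk (Goal : Prop) (ρ : Rule (PQ B)) : Prop :=
  ∀ a : Fin k0 → Fin D, IQ c I ρ.s1 (app c ρ.x a) → IQ c I ρ.s2 (app c ρ.x a) →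
    (ρ.head = none → Goal) ∧
      ((∀ m : Fin k0, m.val = ρ.x.grp → gd D ρ.x.gk (a m).val) → IQ c I ρ.head a)

theorem comp_ok (hc : c 0 = 0) (Goal : Prop) (P : Prog Act B) :
    ∀ k, ∀ ρ ∈ comp P k, RuleOk c I Goal ρ := by
  induction P with
  | fail => intro k ρ h; simp [comp] at h
  | act x =>
    intro k ρ h
    obtain rfl := List.mem_singleton.1 h
    intro a h1 _
    exact ⟨by simp [cont], fun hg => ⟨_, ⟨hg, rfl⟩, (IQ_cont c I k _).1 h1⟩⟩
  | test p =>
    intro k ρ h
    obtain rfl := List.mem_singleton.1 h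
    intro a h1 h2
    rw [app_nop hc] at h1 h2
    exact ⟨by simp [cont], fun _ => ⟨a, ⟨h1, rfl⟩, (IQ_cont c I k _).1 h2⟩⟩
  | seq P Q ihP ihQ =>
    intro k ρ h
    simp only [comp, List.mem_cons, List.mem_append] at h
    rcases h with rfl | h | h
    · intro a h1 _
      rw [app_nop hc] at h1
      obtain ⟨b, h2, b', h3, h4⟩ := h1
      exact ⟨by simp [cont], fun _ => ⟨b', ⟨b, h2, h3⟩, h4⟩⟩
    · exact ihP _ _ h
    · exact ihQ _ _ h
  | alt P Q ihP ihQ =>
    intro k ρ h
    simp only [comp, List.mem_cons, List.mem_append] at h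
    rcases h with rfl | rfl | h | h
    · intro a h1 _
      rw [app_nop hc] at h1
      obtain ⟨b, h2, h3⟩ := h1
      exact ⟨by simp [cont], fun _ => ⟨b, Or.inl h2, h3⟩⟩
    · intro a h1 _
      rw [app_nop hc] at h1
      obtain ⟨b, h2, h3⟩ := h1
      exact ⟨by simp [cont], fun _ => ⟨b, Or.inr h2, h3⟩⟩
    · exact ihP _ _ h
    · exact ihQ _ _ h
  | star P ih =>
    intro k ρ h
    simp only [comp, List.mem_cons] at h
    rcases h with rfl | rfl | h
    · intro a h1 _
      rw [app_nop hc] at h1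
      exact ⟨by simp [cont], fun _ => ⟨a, Relation.ReflTransGen.refl, (IQ_cont c I k _).1 h1⟩⟩
    · intro a h1 _
      rw [app_nop hc] at h1
      obtain ⟨b, h2, b', h3, h4⟩ := h1
      exact ⟨by simp [cont], fun _ => ⟨b', Relation.ReflTransGen.head h2 h3, h4⟩⟩
    · exact ih _ _ h

end sound

variable {K : ℕ} {hK : 2 ≤ K}

theorem accept_sound (hc : c 0 = 0) (defs : List (Option B × Prog Act B))
    (I : B → (Fin (K / 2) → Fin D) → Prop) (Goal : Prop)
    (h : ∀ e ∈ defs, ∀ a b, Prog.Run (step1 c) I e.2 a b → e.1.elim Goal fun p => I p a)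
    (hA : (sys (allRules defs) c K hK).Accept) : Goal := by
  have ok : ∀ ρ ∈ allRules defs, RuleOk c I Goal ρ := by
    intro ρ hρ
    obtain ⟨e, he, h1⟩ := List.mem_flatMap.1 hρ
    rcases List.mem_cons.1 h1 with rfl | h1
    · intro a h2 _
      rw [app_nop hc] at h2
      obtain ⟨b, h3, -⟩ := h2
      have := h e he a b h3
      rcases e with ⟨_ | p, P⟩
      · exact ⟨fun _ => this, fun _ => trivial⟩
      · exact ⟨by simp, fun _ => this⟩
    · exact comp_ok c I hc Goal _ _ _ h1
  have prem : ∀ ρ a, (∀ i q, (sys (allRules defs) c K hK).src ρ i = some q →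
      IQ c I (some q) ((sys (allRules defs) c K hK).act ρ a)) →
      IQ c I (allRules defs)[ρ].s1 (app c (allRules defs)[ρ].x a) ∧
      IQ c I (allRules defs)[ρ].s2 (app c (allRules defs)[ρ].x a) := by
    intro ρ a h
    constructor
    · cases hs : (allRules defs)[ρ].s1 with
      | none => trivial
      | some q => exact h 0 q hs
    · cases hs : (allRules defs)[ρ].s2 with
      | none => trivial
      | some q => exact h 2 q hs
  have tr : ∀ q a, (sys (allRules defs) c K hK).Tr q a → IQ c I (some q) a := by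
    intro q a h
    induction h with
    | mk ρ r a hh hg _ ih =>
      obtain ⟨h1, h2⟩ := prem ρ a ih
      have := (ok _ (List.getElem_mem _) a h1 h2).2 hg
      rwa [show (allRules defs)[ρ.val].head = some r from hh] at this
  obtain ⟨ρ, a, hh, hp⟩ := hA
  obtain ⟨h1, h2⟩ := prem ρ a fun i q hq => tr _ _ (hp i q hq)
  exact (ok _ (List.getElem_mem _) a h1 h2).1 hh

section complete
variable {L : List (Rule (PQ B))}

def TrO (L : List (Rule (PQ B))) (c : ℕ → Fin D) (hK : 2 ≤ K) (o : Option (PQ B))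
    (a : Fin (K / 2) → Fin D) : Prop := ∀ q, o = some q → (sys L c K hK).Tr q a

theorem tr_rule {ρ : Rule (PQ B)} (hρ : ρ ∈ L) {a : Fin (K / 2) → Fin D}
    (h1 : TrO L c hK ρ.s1 (app c ρ.x a)) (h2 : TrO L c hK ρ.s2 (app c ρ.x a)) :
    (ρ.head = none → (sys L c K hK).Accept) ∧
    ((∀ m : Fin (K / 2), m.val = ρ.x.grp → gd D ρ.x.gk (a m).val) → TrO L c hK ρ.head a) := by
  obtain ⟨n, rfl⟩ := List.mem_iff_get.1 hρ
  have hp : ∀ i, (sys L c K hK).Prem n i a := by
    intro i p hp
    simp only [sys] at hp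
    split_ifs at hp
    · exact h1 p hp
    · exact h2 p hp
  exact ⟨fun hh => ⟨n, a, hh, hp⟩, fun hg q hq => Sys.Tr.mk n q a hq hg hp⟩

theorem trO_none (a : Fin (K / 2) → Fin D) : TrO L c hK none a := fun _ h => by simp at h

theorem comp_complete (hc : c 0 = 0) (P : Prog Act B) : ∀ k, (∀ ρ ∈ comp P k, ρ ∈ L) → ∀ a b,
    Prog.Run (step1 c) (fun p => (sys L c K hK).Tr (.inl p)) P a b → TrO L c hK (cont k) b →
      TrO L c hK (cont (P :: k)) a := by
  have nop : ∀ {h s1 s2 : Option (PQ B)} {a}, ⟨h, s1, s2, nop⟩ ∈ L → TrO L c hK s1 a →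
      TrO L c hK s2 a → TrO L c hK h a := by
    intro h s1 s2 a hρ h1 h2
    exact (tr_rule hρ (by rwa [app_nop hc]) (by rwa [app_nop hc])).2 fun _ _ => gd_nop _
  induction P with
  | fail => exact fun _ _ _ _ h => h.elim
  | act x =>
    rintro k hL a b ⟨h1, rfl⟩ h2
    exact (tr_rule (hL _ (List.mem_singleton_self _)) h2 (trO_none _)).2 h1
  | test p =>
    rintro k hL a b ⟨h1, rfl⟩ h2
    exact nop (hL _ (List.mem_singleton_self _)) (by rintro _ ⟨⟩; exact h1) h2
  | seq P Q ihP ihQ =>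
    rintro k hL a b ⟨a', h1, h2⟩ h3
    refine nop (s1 := cont (P :: Q :: k)) (hL _ (by simp [comp])) ?_ (trO_none _)
    exact ihP _ (fun ρ h => hL ρ (by simp [comp, h])) _ _ h1
      (ihQ _ (fun ρ h => hL ρ (by simp [comp, h])) _ _ h2 h3)
  | alt P Q ihP ihQ =>
    rintro k hL a b (h1 | h1) h3
    · exact nop (s1 := cont (P :: k)) (hL _ (by simp [comp]))
        (ihP _ (fun ρ h => hL ρ (by simp [comp, h])) _ _ h1 h3) (trO_none _)
    · exact nop (s1 := cont (Q :: k)) (hL _ (by simp [comp]))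
        (ihQ _ (fun ρ h => hL ρ (by simp [comp, h])) _ _ h1 h3) (trO_none _)
  | star P ih =>
    intro k hL a b h1 h3
    induction h1 using Relation.ReflTransGen.head_induction_on with
    | refl => exact nop (s1 := cont k) (hL _ (by simp [comp])) h3 (trO_none _)
    | head h4 _ ih2 =>
      exact nop (s1 := cont (P :: .star P :: k)) (hL _ (by simp [comp]))
        (ih _ (fun ρ h => hL ρ (by simp [comp, h])) _ _ h4 ih2) (trO_none _)

end complete

theorem def_complete (hc : c 0 = 0) {defs : List (Option B × Prog Act B)}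
    {e : Option B × Prog Act B} (he : e ∈ defs) {a b : Fin (K / 2) → Fin D}
    (h : Prog.Run (step1 c) (fun p => (sys (allRules defs) c K hK).Tr (.inl p)) e.2 a b) :
    e.1.elim (sys (allRules defs) c K hK).Accept
      fun p => (sys (allRules defs) c K hK).Tr (.inl p) a := by
  have h1 := comp_complete (hK := hK) hc e.2 []
    (fun ρ hρ => List.mem_flatMap.2 ⟨e, he, List.mem_cons_of_mem _ hρ⟩) a b h (trO_none _)
  have h2 := tr_rule (L := allRules defs) (hK := hK) (c := c) (a := a)
    (List.mem_flatMap.2 ⟨e, he, List.mem_cons_self⟩) (by rwa [app_nop hc]) (trO_none _)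
  rcases e with ⟨_ | p, P⟩
  · exact h2.1 rfl
  · exact h2.2 (fun _ _ => gd_nop _) _ rfl

end

end Vale.Agent.P310
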