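import Vale.Agent.P310.Prog

/-! Registers made of several digits. -/

namespace Vale.Agent.P310

open Classical Prog

noncomputable section

inductive RA
  | inc (r : ℕ)
  | dec (r : ℕ)
  | z (r : ℕ)
  | ld (r j : ℕ)

def step2 (cap cv : ℕ → ℕ) : RA → (ℕ → ℕ) → (ℕ → ℕ) → Prop
  | .inc r, s, s' => s r + 1 < cap r ∧ s' = Function.update s r (s r + 1)
  | .dec r, s, s' => 0 < s r ∧ s' = Function.update s r (s r - 1)
  | .z r, s, s' => s r = 0 ∧ s' = s
  | .ld r j, s, s' => s r = 0 ∧ 1 < cap r ∧ s' = Function.update s r (cv j)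

variable {B : Type}

def inc1 : ℕ → ℕ → Prog Act B
  | _, 0 => .fail
  | s, n + 1 => .alt (.act ⟨s, 2, 4⟩) (.seq (.act ⟨s, 2, 3⟩) (inc1 (s + 1) n))

def dec1 : ℕ → ℕ → Prog Act B
  | _, 0 => .fail
  | s, n + 1 => .alt (.act ⟨s, 1, 2⟩) (.seq (.act ⟨s, 1, 1⟩) (dec1 (s + 1) n))

def z1 : ℕ → ℕ → Prog Act B
  | _, 0 => skip
  | s, n + 1 => .seq (.act ⟨s, 0, 1⟩) (z1 (s + 1) n)

def ld1 (s n j : ℕ) : Prog Act B := if n = 0 then .fail else .seq (z1 s n) (.act ⟨s, j, 0⟩)

def off (w : ℕ → ℕ) (r : ℕ) : ℕ := ∑ r' ∈ Finset.range r, w r'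

def low (w : ℕ → ℕ) : RA → Prog Act B
  | .inc r => inc1 (off w r) (w r)
  | .dec r => dec1 (off w r) (w r)
  | .z r => z1 (off w r) (w r)
  | .ld r j => ld1 (off w r) (w r) j

variable {D k0 : ℕ}

def dig (a : Fin k0 → Fin D) (g : ℕ) : ℕ := if h : g < k0 then (a ⟨g, h⟩).val else 0

def rval (a : Fin k0 → Fin D) : ℕ → ℕ → ℕ
  | _, 0 => 0
  | s, n + 1 => dig a s + D * rval a (s + 1) n

def st (w : ℕ → ℕ) (a : Fin k0 → Fin D) (r : ℕ) : ℕ := rval a (off w r) (w r)

def Frame (a b : Fin k0 → Fin D) (s n : ℕ) : Prop := ∀ g, g < s ∨ s + n ≤ g → dig b g = dig a g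

theorem rval_congr {a b : Fin k0 → Fin D} {n : ℕ} : ∀ {s : ℕ},
    (∀ g, s ≤ g → g < s + n → dig b g = dig a g) → rval b s n = rval a s n := by
  induction n with
  | zero => intros; rfl
  | succ n ih =>
    intro s h
    simp only [rval]
    rw [h s le_rfl (by omega), ih fun g h1 h2 => h g (by omega) (by omega)]

theorem off_le (w : ℕ → ℕ) {r r' : ℕ} (h : r < r') : off w r + w r ≤ off w r' := by
  unfold off
  rw [← Finset.sum_range_succ]
  exact Finset.sum_le_sum_of_subset (Finset.range_mono h)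

theorem st_frame {w : ℕ → ℕ} {a b : Fin k0 → Fin D} {r : ℕ} (h : Frame a b (off w r) (w r)) :
    st w b = Function.update (st w a) r (st w b r) := by
  funext r'
  by_cases c : r' = r
  · subst c; simp
  · rw [Function.update_of_ne c]
    refine rval_congr fun g h1 h2 => h g ?_
    rcases lt_or_gt_of_ne c with c | c
    · have := off_le w c; omega
    · have := off_le w c; omega

variable [NeZero D]

theorem dig_lt (a : Fin k0 → Fin D) (g : ℕ) : dig a g < D := by
  unfold dig; split_ifs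
  · exact Fin.is_lt _
  · exact Nat.pos_of_ne_zero (NeZero.ne D)

theorem rval_lt (a : Fin k0 → Fin D) (n : ℕ) : ∀ s, rval a s n < D ^ n := by
  induction n with
  | zero => intro; simp [rval]
  | succ n ih =>
    intro s
    have h1 := dig_lt a s
    have h2 := ih (s + 1)
    simp only [rval, pow_succ]
    nlinarith

variable {c : ℕ → Fin D}

theorem step1_dig {g j k : ℕ} (hg : g < k0) {a b : Fin k0 → Fin D} (h : step1 c ⟨g, j, k⟩ a b) :
    gd D k (dig a g) ∧ dig b g = (dig a g + c j) % D ∧ ∀ g', g' ≠ g → dig b g' = dig a g' := by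
  obtain ⟨h1, rfl⟩ := h
  refine ⟨by simpa [dig, hg] using h1 ⟨g, hg⟩ rfl, by simp [dig, hg, app, Fin.val_add],
    fun g' hg' => ?_⟩
  unfold dig
  split_ifs
  · simp [app, hg']
  · rfl

theorem step1_ex {g j k : ℕ} (hg : g < k0) {a : Fin k0 → Fin D} (h : gd D k (dig a g)) :
    ∃ b, step1 c ⟨g, j, k⟩ a b := by
  refine ⟨_, fun m hm => ?_, rfl⟩
  obtain rfl : m = ⟨g, hg⟩ := Fin.ext hm
  simpa [dig, hg] using h

variable {J : B → (Fin k0 → Fin D) → Prop}

theorem inc1_fwd (h2 : (c 2).val = 1) (n : ℕ) : ∀ s, s + n ≤ k0 → ∀ a b,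
    Run (step1 c) J (inc1 s n) a b → rval b s n = rval a s n + 1 ∧ Frame a b s n := by
  induction n with
  | zero => exact fun _ _ _ _ h => h.elim
  | succ n ih =>
    rintro s hs a b (h | ⟨a', h, h'⟩)
    · obtain ⟨h3, h4, h5⟩ := step1_dig (by omega) h
      have := dig_lt a s
      simp only [gd] at h3
      have h8 := h3.2.2.2 trivial
      rw [h2, Nat.mod_eq_of_lt (by omega)] at h4
      refine ⟨?_, fun g hg => h5 g (by omega)⟩
      simp only [rval]
      rw [h4, rval_congr (a := a) fun g h6 _ => h5 g (by omega)]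
      omega
    · obtain ⟨h3, h4, h5⟩ := step1_dig (by omega) h
      obtain ⟨h6, h7⟩ := ih (s + 1) (by omega) _ _ h'
      simp only [gd] at h3
      rw [h2, h3.2.2.1 trivial, Nat.mod_self] at h4
      refine ⟨?_, fun g hg => (h7 g (by omega)).trans (h5 g (by omega))⟩
      simp only [rval]
      rw [h6, h7 s (by omega), h4, rval_congr (a := a) fun g h6 _ => h5 g (by omega)]
      have := h3.2.2.1 trivial
      nlinarith

theorem inc1_ex (n : ℕ) : ∀ s, s + n ≤ k0 → ∀ a, rval a s n + 1 < D ^ n →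
    ∃ b, Run (step1 c) J (inc1 s n) a b := by
  induction n with
  | zero => intro s _ a h; simp at h
  | succ n ih =>
    intro s hs a h
    by_cases c1 : dig a s + 1 = D
    · obtain ⟨a', h1⟩ := step1_ex (c := c) (j := 2) (k := 3) (g := s) (a := a) (by omega)
        (by simp [gd, c1])
      obtain ⟨-, -, h5⟩ := step1_dig (by omega) h1
      obtain ⟨b, h2⟩ := ih (s + 1) (by omega) a' (by
        rw [rval_congr (a := a) fun g h6 _ => h5 g (by omega)]
        simp only [rval, pow_succ] at h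
        by_contra hc
        nlinarith)
      exact ⟨b, Or.inr ⟨a', h1, h2⟩⟩
    · obtain ⟨a', h1⟩ := step1_ex (c := c) (j := 2) (k := 4) (g := s) (a := a) (by omega)
        (by simp [gd, c1])
      exact ⟨a', Or.inl h1⟩

theorem dec1_fwd (h1 : (c 1).val + 1 = D) (n : ℕ) : ∀ s, s + n ≤ k0 → ∀ a b,
    Run (step1 c) J (dec1 s n) a b → rval b s n + 1 = rval a s n ∧ Frame a b s n := by
  induction n with
  | zero => exact fun _ _ _ _ h => h.elim
  | succ n ih =>
    rintro s hs a b (h | ⟨a', h, h'⟩)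
    · obtain ⟨h3, h4, h5⟩ := step1_dig (by omega) h
      have := dig_lt a s
      simp only [gd] at h3
      have h6 := h3.2.1 trivial
      rw [show dig a s + c 1 = dig a s - 1 + D by omega, Nat.add_mod_right,
        Nat.mod_eq_of_lt (by omega)] at h4
      refine ⟨?_, fun g hg => h5 g (by omega)⟩
      simp only [rval]
      rw [h4, rval_congr (a := a) fun g h6 _ => h5 g (by omega)]
      omega
    · obtain ⟨h3, h4, h5⟩ := step1_dig (by omega) h
      obtain ⟨h6, h7⟩ := ih (s + 1) (by omega) _ _ h'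
      simp only [gd] at h3
      have h8 := h3.1 trivial
      rw [h8, zero_add, Nat.mod_eq_of_lt (by omega)] at h4
      refine ⟨?_, fun g hg => (h7 g (by omega)).trans (h5 g (by omega))⟩
      simp only [rval]
      rw [h7 s (by omega), h4, h8, ← rval_congr (a := a) fun g h6 _ => h5 g (by omega), ← h6]
      nlinarith

theorem dec1_ex (n : ℕ) : ∀ s, s + n ≤ k0 → ∀ a, 0 < rval a s n →
    ∃ b, Run (step1 c) J (dec1 s n) a b := by
  induction n with
  | zero => intro s _ a h; simp [rval] at h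
  | succ n ih =>
    intro s hs a h
    by_cases c1 : dig a s = 0
    · obtain ⟨a', h1⟩ := step1_ex (c := c) (j := 1) (k := 1) (g := s) (a := a) (by omega)
        (by simp [gd, c1])
      obtain ⟨-, -, h5⟩ := step1_dig (by omega) h1
      obtain ⟨b, h2⟩ := ih (s + 1) (by omega) a' (by
        rw [rval_congr (a := a) fun g h6 _ => h5 g (by omega)]
        simp only [rval, c1, zero_add] at h
        exact Nat.pos_of_mul_pos_left h)
      exact ⟨b, Or.inr ⟨a', h1, h2⟩⟩
    · obtain ⟨a', h1⟩ := step1_ex (c := c) (j := 1) (k := 2) (g := s) (a := a) (by omega)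
        (by simp [gd, c1])
      exact ⟨a', Or.inl h1⟩

theorem z1_iff (h0 : c 0 = 0) (n : ℕ) : ∀ s, s + n ≤ k0 → ∀ a b,
    Run (step1 c) J (z1 s n) a b ↔ rval a s n = 0 ∧ b = a := by
  induction n with
  | zero => intro s _ a b; simp [z1, run_skip, rval]
  | succ n ih =>
    intro s hs a b
    have e : ∀ a', step1 c ⟨s, 0, 1⟩ a a' ↔ dig a s = 0 ∧ a' = a := by
      intro a'
      have e1 : app c ⟨s, 0, 1⟩ a = a := by funext m; simp [app, h0]
      constructor
      · intro h
        exact ⟨(step1_dig (by omega) h).1.1 rfl, h.2.trans e1⟩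
      · rintro ⟨h1, rfl⟩
        obtain ⟨b, h2⟩ := step1_ex (c := c) (j := 0) (k := 1) (g := s) (a := a') (by omega)
          (by simp [gd, h1])
        rwa [h2.2, e1] at h2
    have hD := NeZero.ne D
    simp only [z1, Run, e, ih (s + 1) (by omega), rval, Nat.add_eq_zero_iff, mul_eq_zero, hD,
      false_or]
    constructor
    · rintro ⟨_, ⟨h1, rfl⟩, h2, rfl⟩; exact ⟨⟨h1, h2⟩, rfl⟩
    · rintro ⟨⟨h1, h2⟩, rfl⟩; exact ⟨_, ⟨h1, rfl⟩, h2, rfl⟩

variable {w : ℕ → ℕ}

theorem low_fwd (h0 : c 0 = 0) (h1 : (c 1).val + 1 = D) (h2 : (c 2).val = 1)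
    (hw : ∀ r, off w r + w r ≤ k0) (x : RA) (a b : Fin k0 → Fin D)
    (h : Run (step1 c) J (low w x) a b) :
    step2 (fun r => D ^ w r) (fun j => c j) x (st w a) (st w b) := by
  cases x with
  | inc r =>
    obtain ⟨h3, h4⟩ := inc1_fwd h2 _ _ (hw r) a b h
    refine ⟨?_, (st_frame h4).trans (by rw [st, h3]; rfl)⟩
    rw [st, ← h3]; exact rval_lt _ _ _
  | dec r =>
    obtain ⟨h3, h4⟩ := dec1_fwd h1 _ _ (hw r) a b h
    refine ⟨by rw [st, ← h3]; omega, (st_frame h4).trans ?_⟩
    rw [st, st, ← h3]; rfl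
  | z r =>
    obtain ⟨h3, rfl⟩ := (z1_iff h0 _ _ (hw r) a b).1 h
    exact ⟨h3, rfl⟩
  | ld r j =>
    simp only [low, ld1] at h
    split_ifs at h with c1
    · exact h.elim
    · obtain ⟨a', h3, h4⟩ := h
      obtain ⟨h5, rfl⟩ := (z1_iff h0 _ _ (hw r) a a').1 h3
      have := hw r
      obtain ⟨-, h6, h7⟩ := step1_dig (by omega) h4
      have hD : 1 < D := by have := (c 2).is_lt; omega
      refine ⟨h5, Nat.one_lt_pow c1 hD, (st_frame (r := r) fun g hg => h7 g (by omega)).trans ?_⟩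
      congr 1
      obtain ⟨n, hn⟩ := Nat.exists_eq_succ_of_ne_zero c1
      simp only [st, hn, rval, Nat.add_eq_zero_iff, mul_eq_zero] at h5 ⊢
      rw [h6, h5.1, zero_add, Nat.mod_eq_of_lt (c j).is_lt,
        rval_congr (a := a') fun g h6 _ => h7 g (by omega), h5.2.resolve_left (by omega)]
      simp

theorem low_bwd (h0 : c 0 = 0) (h1 : (c 1).val + 1 = D) (h2 : (c 2).val = 1)
    (hw : ∀ r, off w r + w r ≤ k0) (x : RA) (a : Fin k0 → Fin D) (s : ℕ → ℕ)
    (h : step2 (fun r => D ^ w r) (fun j => c j) x (st w a) s) :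
    ∃ b, st w b = s ∧ Run (step1 c) J (low w x) a b := by
  have : ∃ b, Run (step1 c) J (low w x) a b := by
    cases x with
    | inc r => exact inc1_ex _ _ (hw r) a h.1
    | dec r => exact dec1_ex _ _ (hw r) a h.1
    | z r => exact ⟨a, (z1_iff h0 _ _ (hw r) a a).2 ⟨h.1, rfl⟩⟩
    | ld r j =>
      have c1 : w r ≠ 0 := by
        intro h3
        have := h.2.1
        simp [h3] at this
      have := hw r
      obtain ⟨b, h3⟩ := step1_ex (c := c) (j := j) (k := 0) (g := off w r) (a := a) (by omega)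
        (by simp [gd])
      simp only [low, ld1, if_neg c1]
      exact ⟨b, a, (z1_iff h0 _ _ (hw r) a a).2 ⟨h.1, rfl⟩, h3⟩
  obtain ⟨b, hb⟩ := this
  refine ⟨b, ?_, hb⟩
  have h3 := low_fwd h0 h1 h2 hw x a b hb
  cases x with
  | inc r => exact h3.2.trans h.2.symm
  | dec r => exact h3.2.trans h.2.symm
  | z r => exact h3.2.trans h.2.symm
  | ld r j => exact h3.2.2.trans h.2.2.symm

def rules2 (w : ℕ → ℕ) (defs : List (Option B × Prog RA B)) : List (Rule (PQ B)) :=
  allRules (defs.map fun e => (e.1, e.2.bind (low w)))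

variable {K : ℕ} {hK : 2 ≤ K}

theorem accept_sound2 (h0 : c 0 = 0) (h1 : (c 1).val + 1 = D) (h2 : (c 2).val = 1)
    (hw : ∀ r, off w r + w r ≤ K / 2) (defs : List (Option B × Prog RA B))
    (I : B → (ℕ → ℕ) → Prop) (Goal : Prop)
    (h : ∀ e ∈ defs, ∀ s s', Run (step2 (fun r => D ^ w r) fun j => c j) I e.2 s s' →
      e.1.elim Goal fun p => I p s)
    (hA : (sys (rules2 w defs) c K hK).Accept) : Goal := by
  refine accept_sound h0 _ (fun p a => I p (st w a)) Goal (fun e he a b h3 => ?_) hA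
  obtain ⟨e', he', rfl⟩ := List.mem_map.1 he
  exact h e' he' _ _ (bind_fwd (st w) (low_fwd h0 h1 h2 hw) _ _ _ h3)

theorem complete2 (h0 : c 0 = 0) (h1 : (c 1).val + 1 = D) (h2 : (c 2).val = 1)
    (hw : ∀ r, off w r + w r ≤ K / 2) (defs : List (Option B × Prog RA B)) :
    ∃ J : B → (ℕ → ℕ) → Prop,
      (∀ p P, (some p, P) ∈ defs → ∀ s s',
        Run (step2 (fun r => D ^ w r) fun j => c j) J P s s' → J p s) ∧
      ∀ P, (none, P) ∈ defs → ∀ s', Run (step2 (fun r => D ^ w r) fun j => c j) J P 0 s' →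
        (sys (rules2 w defs) c K hK).Accept := by
  refine ⟨fun p s => ∀ a, st w a = s → (sys (rules2 w defs) c K hK).Tr (.inl p) a, ?_, ?_⟩
  · rintro p P he s s' h a rfl
    obtain ⟨b, -, hb⟩ := bind_bwd (st w) (low_bwd h0 h1 h2 hw) _ _ _ h
    exact def_complete (e := (some p, P.bind (low w))) h0 (List.mem_map.2 ⟨_, he, rfl⟩) hb
  · intro P he s' h
    have : st w (fun _ : Fin (K / 2) => (0 : Fin D)) = 0 := by
      funext r
      have : ∀ n s, rval (fun _ : Fin (K / 2) => (0 : Fin D)) s n = 0 := by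
        intro n
        induction n with
        | zero => intro; rfl
        | succ n ih => intro s; simp [rval, ih, dig]
      exact this _ _
    rw [← this] at h
    obtain ⟨b, -, hb⟩ := bind_bwd (st w) (low_bwd h0 h1 h2 hw) _ _ _ h
    exact def_complete (e := (none, P.bind (low w))) h0 (List.mem_map.2 ⟨_, he, rfl⟩) hb

end

end Vale.Agent.P310
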