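import Vale.Agent.P310.Expr

/-! The computation table of a stack machine as a system of definitions. -/

namespace Vale.Agent.P310

open Classical Prog Function

noncomputable section

structure Mach (Q Kt C : Type) where
  rd : Q → Kt
  nx : Q → C → Q
  ef : Q → Kt → Option (Option C)
  Qs : List Q
  Ks : List Kt
  Cs : List C
  q0 : Q
  k0 : Kt
  k1 : Kt
  emp : Kt → C
  sym : Bool → C
  acc : List (Q × C)

section
variable {B : Type} {cap cv : ℕ → ℕ} {J : B → (ℕ → ℕ) → Prop}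

def zs : ℕ → Prog RA B
  | 0 => skip
  | n + 1 => .seq (.act (.z (n + 2))) (zs n)

theorem zs_iff (n : ℕ) (s s' : ℕ → ℕ) : Run (step2 cap cv) J (zs n) s s' ↔
    (∀ q, 2 ≤ q → q < n + 2 → s q = 0) ∧ s' = s := by
  induction n with
  | zero => simp only [zs, run_skip, iff_and_self]; intro _ q h1 h2; omega
  | succ n ih =>
    simp only [zs, Run, step2]
    constructor
    · rintro ⟨_, ⟨h1, rfl⟩, h2⟩
      obtain ⟨h3, h4⟩ := ih.1 h2
      refine ⟨fun q h5 h6 => ?_, h4⟩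
      by_cases c : q = n + 2
      · rwa [c]
      · exact h3 q h5 (by omega)
    · rintro ⟨h1, h2⟩
      exact ⟨s, ⟨h1 _ (by omega) (by omega), rfl⟩, ih.2 ⟨fun q h3 h4 => h1 q h3 (by omega), h2⟩⟩

def eqc (r : ℕ) : ℕ → Prog RA B
  | 0 => .act (.z r)
  | n + 1 => .seq (.act (.dec r)) (eqc r n)

theorem eqc_iff (r n : ℕ) : ∀ s : ℕ → ℕ, (∃ s', Run (step2 cap cv) J (eqc r n) s s') ↔ s r = n := by
  induction n with
  | zero => intro s; simp [eqc, Run, step2]
  | succ n ih =>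
    intro s
    simp only [eqc, Run, step2]
    constructor
    · rintro ⟨s', _, ⟨h1, rfl⟩, h2⟩
      have := (ih _).1 ⟨_, h2⟩
      simp at this; omega
    · intro h
      obtain ⟨s', h2⟩ := (ih (update s r (s r - 1))).2 (by simp [h])
      exact ⟨s', _, ⟨by omega, rfl⟩, h2⟩

theorem star_inc (r n : ℕ) (s : ℕ → ℕ) (h : s r + n < cap r) :
    Run (step2 cap cv) J (.star (.act (.inc r))) s (update s r (s r + n)) := by
  induction n with
  | zero => simp only [add_zero, update_eq_self]; exact Relation.ReflTransGen.refl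
  | succ n ih =>
    refine Relation.ReflTransGen.tail (ih (by omega)) ⟨by simp; omega, ?_⟩
    simp [add_assoc]

end

namespace Mach

variable {Q Kt C : Type} (M : Mach Q Kt C)

abbrev TB (Q Kt C : Type) := Q ⊕ (Kt × C)

def efP (q : Q) (κ : Kt) (c : C) : Prog RA (TB Q Kt C) :=
  match M.ef q κ with
  | none => .test (.inr (κ, c))
  | some none => .seq (.act (.inc 1)) (.test (.inr (κ, c)))
  | some (some c') => .alt (if c = c' then .act (.z 1) else .fail)
      (.seq (.act (.dec 1)) (.test (.inr (κ, c))))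

inductive IsDef (PN PE : Prog RA (TB Q Kt C)) (nz : ℕ) :
    Option (TB Q Kt C) × Prog RA (TB Q Kt C) → Prop
  | st0 : IsDef PN PE nz (some (.inl M.q0), .act (.z 0))
  | emp (κ : Kt) : κ ∈ M.Ks → IsDef PN PE nz (some (.inr (κ, M.emp κ)), if κ = M.k0 then
      .seq (.act (.z 0)) (.seq (zs nz) (.seq PN (loop 3 (.act (.dec 1))))) else .act (.z 0))
  | sym (b : Bool) : IsDef PN PE nz (some (.inr (M.k0, M.sym b)),
      .seq (.act (.z 0)) (.seq (zs nz) (.seq (move 1 2) (.seq PE (eqc 3 (b.toNat + 1))))))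
  | st (q : Q) (c : C) : q ∈ M.Qs → c ∈ M.Cs → IsDef PN PE nz (some (.inl (M.nx q c)),
      .seq (.act (.dec 0)) (.seq (.test (.inl q)) (.seq (clear 1) (.test (.inr (M.rd q, c))))))
  | ce (q : Q) (κ : Kt) (c : C) : q ∈ M.Qs → κ ∈ M.Ks → c ∈ M.Cs →
      IsDef PN PE nz (some (.inr (κ, c)),
        .seq (.act (.dec 0)) (.seq (.test (.inl q)) (M.efP q κ c)))
  | fin (q : Q) (c : C) : (q, c) ∈ M.acc → IsDef PN PE nz (none,
      .seq (.star (.act (.inc 0))) (.seq (.test (.inl q))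
        (.seq (clear 1) (.test (.inr (M.k1, c))))))

theorem exists_defs (PN PE : Prog RA (TB Q Kt C)) (nz : ℕ) :
    ∃ defs : List (Option (TB Q Kt C) × Prog RA (TB Q Kt C)),
      ∀ e, e ∈ defs ↔ M.IsDef PN PE nz e := by
  refine ⟨[(some (.inl M.q0), .act (.z 0))] ++ M.Ks.map (fun κ => (some (.inr (κ, M.emp κ)),
      if κ = M.k0 then .seq (.act (.z 0)) (.seq (zs nz) (.seq PN (loop 3 (.act (.dec 1)))))
      else .act (.z 0))) ++ [false, true].map (fun b => (some (.inr (M.k0, M.sym b)),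
      .seq (.act (.z 0)) (.seq (zs nz) (.seq (move 1 2) (.seq PE (eqc 3 (b.toNat + 1))))))) ++
      M.Qs.flatMap (fun q => M.Cs.map fun c => (some (.inl (M.nx q c)),
      .seq (.act (.dec 0)) (.seq (.test (.inl q)) (.seq (clear 1) (.test (.inr (M.rd q, c))))))) ++
      M.Qs.flatMap (fun q => M.Ks.flatMap fun κ => M.Cs.map fun c => (some (.inr (κ, c)),
        .seq (.act (.dec 0)) (.seq (.test (.inl q)) (M.efP q κ c)))) ++
      M.acc.map (fun e => (none, .seq (.star (.act (.inc 0))) (.seq (.test (.inl e.1))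
        (.seq (clear 1) (.test (.inr (M.k1, e.2))))))), fun e => ?_⟩
  simp only [List.mem_append, List.mem_singleton, List.mem_map, List.mem_flatMap]
  constructor
  · rintro (((((rfl | ⟨κ, h, rfl⟩) | ⟨b, -, rfl⟩) | ⟨q, h, c, h', rfl⟩) |
      ⟨q, h, κ, h', c, h'', rfl⟩) | ⟨⟨q, c⟩, h, rfl⟩)
    exacts [.st0, .emp κ h, .sym b, .st q c h h', .ce q κ c h h' h'', .fin q c h]
  · intro h
    cases h with
    | st0 => simp
    | emp κ h => exact Or.inl (Or.inl (Or.inl (Or.inl (Or.inr ⟨κ, h, rfl⟩))))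
    | sym b => exact Or.inl (Or.inl (Or.inl (Or.inr ⟨b, by cases b <;> simp, rfl⟩)))
    | st q c h h' => exact Or.inl (Or.inl (Or.inr ⟨q, h, c, h', rfl⟩))
    | ce q κ c h h' h'' => exact Or.inl (Or.inr ⟨q, h, κ, h', c, h'', rfl⟩)
    | fin q c h => exact Or.inr ⟨_, h, rfl⟩

structure Trace (N : ℕ) (bit : ℕ → Bool) (ctrl : ℕ → Q) (cell : ℕ → Kt → ℕ → C) : Prop where
  c0 : ctrl 0 = M.q0
  l0 : ∀ κ i, cell 0 κ i = if κ = M.k0 ∧ i < N then M.sym (bit i) else M.emp κ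
  cs : ∀ τ, ctrl (τ + 1) = M.nx (ctrl τ) (cell τ (M.rd (ctrl τ)) 0)
  ls : ∀ τ κ i, cell (τ + 1) κ i = match M.ef (ctrl τ) κ with
    | none => cell τ κ i
    | some none => cell τ κ (i + 1)
    | some (some c) => if i = 0 then c else cell τ κ (i - 1)
  mq : ∀ τ, ctrl τ ∈ M.Qs
  mks : ∀ κ, κ ∈ M.Ks
  mc : ∀ τ κ i, cell τ κ i ∈ M.Cs

structure Specs (cap cv : ℕ → ℕ) (N : ℕ) (bit : ℕ → Bool) (PN PE : Prog RA (TB Q Kt C)) (nz : ℕ) :
    Prop where
  hN : ∀ J (s : ℕ → ℕ), (∀ q, 2 ≤ q → q < nz + 2 → s q = 0) →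
    ∀ s', Run (step2 cap cv) J PN s s' ↔ s' = update s 3 N
  hE : ∀ J (s : ℕ → ℕ), (∀ q, 3 ≤ q → q < nz + 2 → s q = 0) → s 2 < cap 2 →
    ∀ s', Run (step2 cap cv) J PE s s' ↔
      s' = update s 3 (if s 2 < N then (bit (s 2)).toNat + 1 else 0)
  hc : N < cap 2
  hz : 0 < nz

variable {M} {cap cv : ℕ → ℕ} {N : ℕ} {bit : ℕ → Bool} {PN PE : Prog RA (TB Q Kt C)} {nz : ℕ}
  {ctrl : ℕ → Q} {cell : ℕ → Kt → ℕ → C}

def II (ctrl : ℕ → Q) (cell : ℕ → Kt → ℕ → C) : TB Q Kt C → (ℕ → ℕ) → Prop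
  | .inl q, s => ctrl (s 0) = q
  | .inr e, s => cell (s 0) e.1 (s 1) = e.2

theorem tab_sound (hT : M.Trace N bit ctrl cell) (hS : Specs cap cv N bit PN PE nz) (e)
    (he : M.IsDef PN PE nz e) (s s' : ℕ → ℕ) (h : Run (step2 cap cv) (II ctrl cell) e.2 s s') :
    e.1.elim (∃ τ, (ctrl τ, cell τ M.k1 0) ∈ M.acc) fun p => II ctrl cell p s := by
  cases he with
  | st0 => simp only [Option.elim, II, h.1, hT.c0]
  | emp κ _ =>
    simp only [Option.elim, II]
    dsimp only at h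
    split_ifs at h with c
    · obtain ⟨_, ⟨h1, rfl⟩, _, h2, s3, h3, h4⟩ := h
      obtain ⟨h5, rfl⟩ := (zs_iff _ _ _).1 h2
      rw [hS.hN _ _ h5] at h3
      subst h3
      have := ((geq_iff (by omega) _ _).1 h4).1
      simp at this
      rw [h1, hT.l0, if_neg (by omega)]
    · rw [h.1, hT.l0, if_neg (by tauto)]
  | sym b =>
    simp only [Option.elim, II]
    obtain ⟨_, ⟨h1, rfl⟩, _, h2, s3, h3, s4, h4, h6⟩ := h
    obtain ⟨h5, rfl⟩ := (zs_iff _ _ _).1 h2
    obtain ⟨h7, rfl⟩ := (move_iff (by omega) _ _).1 h3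
    have h8 := h5 2 le_rfl (by have := hS.hz; omega)
    rw [hS.hE _ _ (fun q a1 a2 => by
      rw [update_of_ne (by omega), update_of_ne (by omega)]; exact h5 q (by omega) a2) (by
      have := hS.hc
      simp only [update_self, h8, zero_add] at h7 ⊢
      by_contra hc
      have := h7 (cap 2 - 1) (by omega)
      omega)] at h4
    subst h4
    have := (eqc_iff _ _ _).1 ⟨_, h6⟩
    simp only [update_self, h8, zero_add] at this
    split_ifs at this with c
    rw [h1, hT.l0, if_pos ⟨rfl, c⟩]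
    congr 1
    revert this
    cases b <;> cases bit _ <;> simp
  | st q c _ _ =>
    simp only [Option.elim, II]
    obtain ⟨_, ⟨h1, rfl⟩, _, ⟨h2, rfl⟩, s3, h3, h4, -⟩ := h
    rw [clear_spec] at h3
    subst h3
    simp [II] at h2 h4
    obtain ⟨τ, hτ⟩ := Nat.exists_eq_succ_of_ne_zero h1.ne'
    simp only [hτ, Nat.succ_sub_one] at h2 h4
    rw [hτ, hT.cs, h2, h4]
  | ce q κ c _ _ _ =>
    simp only [Option.elim, II]
    obtain ⟨_, ⟨h1, rfl⟩, _, ⟨h2, rfl⟩, h3⟩ := h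
    obtain ⟨τ, hτ⟩ := Nat.exists_eq_succ_of_ne_zero h1.ne'
    simp only [II, update_self, hτ, Nat.succ_sub_one] at h2 h3
    rw [hτ, hT.ls, h2]
    unfold efP at h3
    rcases hq : M.ef q κ with _ | _ | c' <;> simp only [hq] at h3 ⊢
    · simpa [II] using h3.1
    · obtain ⟨_, ⟨-, rfl⟩, h4, -⟩ := h3
      simpa [II] using h4
    · rcases h3 with h3 | ⟨_, ⟨h4, rfl⟩, h5, -⟩
      · split_ifs at h3 with c1
        · have := h3.1
          simp at this
          rw [if_pos this, c1]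
        · exact h3.elim
      · simp [II] at h4 h5
        rw [if_neg h4.ne', h5]
  | fin q c hq =>
    obtain ⟨s1, -, _, ⟨h2, rfl⟩, s3, h3, h4, -⟩ := h
    rw [clear_spec] at h3
    subst h3
    simp [II] at h2 h4
    exact ⟨_, by rwa [h2, h4]⟩

theorem tab_complete (hT : M.Trace N bit ctrl cell) (hS : Specs cap cv N bit PN PE nz)
    {J : TB Q Kt C → (ℕ → ℕ) → Prop}
    (hJ : ∀ p P, M.IsDef PN PE nz (some p, P) → ∀ s s', Run (step2 cap cv) J P s s' → J p s)
    {Tm : ℕ} (h0 : Tm < cap 0) (h1 : Tm < cap 1) (hA : (ctrl Tm, cell Tm M.k1 0) ∈ M.acc) :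
    ∃ P, M.IsDef PN PE nz (none, P) ∧ ∃ s', Run (step2 cap cv) J P 0 s' := by
  have key : ∀ τ, τ ≤ Tm → ∀ s : ℕ → ℕ, (∀ q, 2 ≤ q → s q = 0) → s 0 = τ →
      J (.inl (ctrl τ)) s ∧ ∀ κ, s 1 + τ ≤ Tm → J (.inr (κ, cell τ κ (s 1))) s := by
    intro τ
    induction τ with
    | zero =>
      intro _ s hW hs
      refine ⟨hT.c0 ▸ hJ _ _ .st0 s s ⟨hs, rfl⟩, fun κ _ => ?_⟩
      rw [hT.l0]
      split_ifs with c
      · obtain ⟨rfl, c⟩ := c
        have := hS.hc
        have h2 := hW 2 le_rfl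
        obtain ⟨s', h3⟩ := (eqc_iff (cap := cap) (cv := cv) (J := J) 3 ((bit (s 1)).toNat + 1)
          (update (update (update s 1 0) 2 (s 2 + s 1)) 3 ((bit (s 1)).toNat + 1))).2 (by simp)
        refine hJ _ _ (.sym _) s s' ⟨s, ⟨hs, rfl⟩, s, (zs_iff _ _ _).2 ⟨fun q a _ => hW q a, rfl⟩,
          _, (move_spec (by omega) (by omega) _).2 rfl, _, (hS.hE _ _ (fun q a1 a2 => ?_)
            (by simp; omega) _).2 ?_, h3⟩
        · rw [update_of_ne (by omega), update_of_ne (by omega)]; exact hW q (by omega)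
        · simp [h2, c]
      · by_cases c1 : κ = M.k0
        · refine hJ _ _ (.emp κ (hT.mks κ)) s
            (update (update (update s 3 N) 3 0) 1 (update s 3 N 1 - update s 3 N 3)) ?_
          rw [if_pos c1]
          exact ⟨s, ⟨hs, rfl⟩, s, (zs_iff _ _ _).2 ⟨fun q a _ => hW q a, rfl⟩, _,
            (hS.hN _ _ (fun q a _ => hW q a) _).2 rfl,
            (geq_iff (by omega) _ _).2 ⟨by simpa [c1] using c, rfl⟩⟩
        · refine hJ _ _ (.emp κ (hT.mks κ)) s s ?_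
          rw [if_neg c1]
          exact ⟨hs, rfl⟩
    | succ τ ih =>
      intro hτ s hW hs
      have W' : ∀ v q, 2 ≤ q → update (update s 0 (s 0 - 1)) 1 v q = 0 := by
        intro v q a
        rw [update_of_ne (by omega), update_of_ne (by omega)]; exact hW q a
      have ih' := fun v => ih (by omega) _ (W' v) (by simp [hs])
      have ih1 := ih (by omega) (update s 0 (s 0 - 1))
        (fun q a => by rw [update_of_ne (by omega)]; exact hW q a) (by simp [hs])
      refine ⟨?_, fun κ hκ => ?_⟩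
      · rw [hT.cs]
        refine hJ _ _ (.st _ _ (hT.mq τ) (hT.mc _ _ _)) s _ ⟨_, ⟨by omega, rfl⟩, _,
          ⟨ih1.1, rfl⟩, _, (clear_spec _ _).2 rfl, ?_, rfl⟩
        simpa using (ih' 0).2 _ (by simp; omega)
      · have : ∃ s', Run (step2 cap cv) J (M.efP (ctrl τ) κ (cell (τ + 1) κ (s 1)))
            (update s 0 (s 0 - 1)) s' := by
          rw [hT.ls]
          unfold efP
          rcases hq : M.ef (ctrl τ) κ with _ | _ | c' <;> dsimp only
          · exact ⟨_, by simpa using ih1.2 κ (by simp; omega), rfl⟩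
          · exact ⟨_, _, ⟨by simp; omega, rfl⟩,
              by simpa using (ih' (s 1 + 1)).2 κ (by simp; omega), rfl⟩
          · by_cases c1 : s 1 = 0
            · refine ⟨update s 0 (s 0 - 1), Or.inl ?_⟩
              rw [if_pos (if_pos c1)]
              exact ⟨by simpa using c1, rfl⟩
            · exact ⟨_, Or.inr ⟨_, ⟨by simp; omega, rfl⟩,
                by simpa [c1] using (ih' (s 1 - 1)).2 κ (by simp; omega), rfl⟩⟩
        obtain ⟨s', hs'⟩ := this
        exact hJ _ _ (.ce _ _ _ (hT.mq τ) (hT.mks κ) (hT.mc _ _ _)) s s'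
          ⟨_, ⟨by omega, rfl⟩, _, ⟨ih1.1, rfl⟩, hs'⟩
  have W' : ∀ q, 2 ≤ q → update (0 : ℕ → ℕ) 0 Tm q = 0 := fun q a => update_of_ne (by omega) _ _
  obtain ⟨h2, h3⟩ := key Tm le_rfl _ W' (by simp)
  refine ⟨_, .fin _ _ hA, _, _, by simpa using star_inc 0 Tm 0 (by simpa using h0), _, ⟨h2, rfl⟩,
    _, (clear_spec _ _).2 rfl, ?_, rfl⟩
  rw [update_eq_self_iff.2 (by simp)]
  simpa using h3 M.k1 (by simp)

end Mach

end

end Vale.Agent.P310
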